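/-
S0175 (row 130): the inverse power potential, its gradient and the key global inequality.
-/
import Mathlib

set_option autoImplicit false

open scoped RealInnerProductSpace

namespace Crest.Agent.Lib.MultiMarg

variable {E : Type*} [NormedAddCommGroup E] [InnerProductSpace ℝ E]

/-- The pair potential `‖v‖^(-σ)`, written as `(‖v‖²)^(-σ/2)`. -/
noncomputable def phi (σ : ℝ) (v : E) : ℝ := (‖v‖ ^ 2) ^ (-σ / 2)

/-- The gradient of `phi`. -/
noncomputable def G (σ : ℝ) (v : E) : E := (-σ * (‖v‖ ^ 2) ^ (-σ / 2 - 1)) • v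

/-- The coefficient in the key inequality. -/
noncomputable def L (σ : ℝ) (v : E) : ℝ := σ * (‖v‖ ^ 2) ^ (-σ / 2 - 1)

lemma phi_pos (σ : ℝ) {v : E} (hv : v ≠ 0) : 0 < phi σ v := by
  unfold phi
  have : 0 < ‖v‖ ^ 2 := by positivity
  exact Real.rpow_pos_of_pos this _

lemma phi_neg (σ : ℝ) (v : E) : phi σ (-v) = phi σ v := by simp [phi]

lemma phi_sub_comm (σ : ℝ) (x y : E) : phi σ (x - y) = phi σ (y - x) := by
  rw [← phi_neg, neg_sub]

lemma G_neg (σ : ℝ) (v : E) : G σ (-v) = - G σ v := by simp [G]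

lemma L_nonneg {σ : ℝ} (hσ : 0 < σ) (v : E) : 0 ≤ L σ v := by
  unfold L
  have : 0 ≤ ‖v‖ ^ 2 := by positivity
  have := Real.rpow_nonneg this (-σ / 2 - 1)
  positivity

/-- Tangent line inequality for `t ↦ t^(-p)`, `p > 0`. -/
lemma rpow_neg_tangent {p t t' : ℝ} (hp : 0 < p) (ht : 0 < t) (ht' : 0 < t') :
    t ^ (-p) + (-p * t ^ (-p - 1)) * (t' - t) ≤ t' ^ (-p) := by
  have hr : 0 < t' / t := div_pos ht' ht
  have h1 : (t' / t) ^ (-p) = Real.exp (-p * Real.log (t' / t)) := by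
    rw [Real.rpow_def_of_pos hr]; ring_nf
  have h2 : Real.log (t' / t) ≤ t' / t - 1 := Real.log_le_sub_one_of_pos hr
  have h3 : 1 - p * (t' / t - 1) ≤ (t' / t) ^ (-p) := by
    rw [h1]
    have := Real.add_one_le_exp (-p * Real.log (t' / t))
    nlinarith
  have h4 : t' ^ (-p) = (t' / t) ^ (-p) * t ^ (-p) := by
    rw [Real.div_rpow ht'.le ht.le, div_mul_cancel₀]
    exact (Real.rpow_pos_of_pos ht _).ne'
  have h5 : t ^ (-p - 1) = t ^ (-p) / t := by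
    rw [Real.rpow_sub_one ht.ne']
  have hpos : 0 < t ^ (-p) := Real.rpow_pos_of_pos ht _
  rw [h4, h5]
  have h6 : t ^ (-p) + -p * (t ^ (-p) / t) * (t' - t)
      = (1 - p * (t' / t - 1)) * t ^ (-p) := by
    field_simp
    ring
  rw [h6]
  exact mul_le_mul_of_nonneg_right h3 hpos.le

/-- The key global inequality: tangent line of `t ↦ t^(-σ/2)` at `t = ‖v‖²`. -/
lemma phi_tangent {σ : ℝ} (hσ : 0 < σ) {v w : E} (hv : v ≠ 0) (hw : w ≠ 0) :
    phi σ v + ⟪G σ v, w - v⟫ - (L σ v / 2) * ‖w - v‖ ^ 2 ≤ phi σ w := by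
  have ht : 0 < ‖v‖ ^ 2 := by positivity
  have ht' : 0 < ‖w‖ ^ 2 := by positivity
  have h := rpow_neg_tangent (p := σ / 2) (by positivity) ht ht'
  have e1 : -(σ / 2) = -σ / 2 := by ring
  rw [e1] at h
  have h2 : ‖w‖ ^ 2 - ‖v‖ ^ 2 = 2 * ⟪v, w - v⟫ + ‖w - v‖ ^ 2 := by
    have : w = v + (w - v) := by abel
    conv_lhs => rw [this]
    rw [norm_add_sq_real]
    ring
  rw [h2] at h
  unfold phi G L
  rw [inner_smul_left]
  simp only [conj_trivial]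
  refine le_trans (le_of_eq ?_) h
  ring

/-- The function minimised in the `x, y` variables. -/
noncomputable def Fn (σ Λ : ℝ) (q g : E) (x y z : E) : ℝ :=
  phi σ (x - y) + phi σ (x - z) + phi σ (y - z) + (Λ / 2) * ‖x‖ ^ 2 + (Λ / 2) * ‖y - q‖ ^ 2
    - ⟪g, y - q⟫

/-- The critical equations for `Fn` in `x, y`. -/
structure Crit (σ Λ : ℝ) (q g : E) (x y z : E) : Prop where
  e1 : G σ (x - y) + G σ (x - z) + Λ • x = 0
  e2 : - G σ (x - y) + G σ (y - z) + Λ • (y - q) - g = 0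

/-- Strict convexity in disguise: a critical point is the strict global minimum. -/
lemma contact {σ Λ Lb : ℝ} (hσ : 0 < σ) {q g x y z x' y' : E} (h : Crit σ Λ q g x y z)
    (hxy : x ≠ y) (hxz : x ≠ z) (hyz : y ≠ z)
    (h1 : L σ (x - y) ≤ Lb) (h2 : L σ (x - z) ≤ Lb) (h3 : L σ (y - z) ≤ Lb)
    (hxy' : x' ≠ y') (hxz' : x' ≠ z) (hyz' : y' ≠ z) :
    Fn σ Λ q g x y z + ((Λ - 3 * Lb) / 2) * (‖x' - x‖ ^ 2 + ‖y' - y‖ ^ 2)
      ≤ Fn σ Λ q g x' y' z := by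
  set a := x' - x with ha
  set b := y' - y with hb
  have hx' : x' = x + a := by rw [ha]; abel
  have hy' : y' = y + b := by rw [hb]; abel
  have t1 := phi_tangent hσ (sub_ne_zero.mpr hxy) (sub_ne_zero.mpr hxy')
  have t2 := phi_tangent hσ (sub_ne_zero.mpr hxz) (sub_ne_zero.mpr hxz')
  have t3 := phi_tangent hσ (sub_ne_zero.mpr hyz) (sub_ne_zero.mpr hyz')
  have d1 : x' - y' - (x - y) = a - b := by rw [hx', hy']; abel
  have d2 : x' - z - (x - z) = a := by rw [hx']; abel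
  have d3 : y' - z - (y - z) = b := by rw [hy']; abel
  rw [d1] at t1
  rw [d2] at t2
  rw [d3] at t3
  have hLb : 0 ≤ Lb := (L_nonneg hσ _).trans h1
  have n1 : ‖a - b‖ ^ 2 ≤ 2 * ‖a‖ ^ 2 + 2 * ‖b‖ ^ 2 := by
    rw [norm_sub_sq_real]
    have := norm_add_sq_real a b
    nlinarith [sq_nonneg ‖a + b‖]
  have m1 : (L σ (x - y) / 2) * ‖a - b‖ ^ 2 ≤ (Lb / 2) * ‖a - b‖ ^ 2 := by
    apply mul_le_mul_of_nonneg_right _ (by positivity); linarith
  have m2 : (L σ (x - z) / 2) * ‖a‖ ^ 2 ≤ (Lb / 2) * ‖a‖ ^ 2 := by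
    apply mul_le_mul_of_nonneg_right _ (by positivity); linarith
  have m3 : (L σ (y - z) / 2) * ‖b‖ ^ 2 ≤ (Lb / 2) * ‖b‖ ^ 2 := by
    apply mul_le_mul_of_nonneg_right _ (by positivity); linarith
  have n2 : (Lb / 2) * ‖a - b‖ ^ 2 ≤ (Lb / 2) * (2 * ‖a‖ ^ 2 + 2 * ‖b‖ ^ 2) :=
    mul_le_mul_of_nonneg_left n1 (by positivity)
  -- the inner products
  have e1 := congrArg (fun w => ⟪w, a⟫) h.e1
  have e2 := congrArg (fun w => ⟪w, b⟫) h.e2
  simp only [inner_add_left, inner_sub_left, inner_neg_left, inner_smul_left, inner_zero_left,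
    conj_trivial] at e1 e2
  have i1 : ⟪G σ (x - y), a - b⟫ = ⟪G σ (x - y), a⟫ - ⟪G σ (x - y), b⟫ := inner_sub_right _ _ _
  have nx : ‖x + a‖ ^ 2 = ‖x‖ ^ 2 + 2 * ⟪x, a⟫ + ‖a‖ ^ 2 := norm_add_sq_real _ _
  have ny : ‖y + b - q‖ ^ 2 = ‖y - q‖ ^ 2 + 2 * ⟪y - q, b⟫ + ‖b‖ ^ 2 := by
    have : y + b - q = (y - q) + b := by abel
    rw [this, norm_add_sq_real]
  have ig : ⟪g, y + b - q⟫ = ⟪g, y - q⟫ + ⟪g, b⟫ := by
    have : y + b - q = (y - q) + b := by abel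
    rw [this, inner_add_right]
  have iyq : ⟪y - q, b⟫ = ⟪y - q, b⟫ := rfl
  unfold Fn
  rw [hx', hy'] at *
  rw [nx, ny, ig]
  rw [inner_sub_left] at *
  simp only [] at *
  nlinarith [t1, t2, t3, m1, m2, m3, n2, e1, e2, i1]

end Crest.Agent.Lib.MultiMarg
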