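/-
S0175 (row 130): local diffeomorphisms; pushing a squared smooth density through one.
-/
import Mathlib

set_option autoImplicit false

open MeasureTheory Set Filter Topology
open scoped ENNReal ContDiff

namespace Crest.Agent.Lib.MultiMarg

section Basic

variable {E F : Type*} [NormedAddCommGroup E] [NormedSpace ℝ E]
  [NormedAddCommGroup F] [NormedSpace ℝ F]

/-- `f` is a `C^∞` diffeomorphism from the open set `U` onto the open set `V`, with inverse `h`. -/
structure LocalDiffeo (f : E → F) (h : F → E) (U : Set E) (V : Set F) : Prop where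
  openU : IsOpen U
  openV : IsOpen V
  mapsTo : MapsTo f U V
  mapsTo_inv : MapsTo h V U
  left : ∀ x ∈ U, h (f x) = x
  right : ∀ y ∈ V, f (h y) = y
  smooth : ContDiffOn ℝ ∞ f U
  smooth_inv : ContDiffOn ℝ ∞ h V

/-- The inverse function theorem in the form we use. -/
theorem exists_localDiffeo [CompleteSpace E] {f : E → F} {f' : E ≃L[ℝ] F} {a : E}
    (hcd : ∀ᶠ x in 𝓝 a, ContDiffAt ℝ ∞ f x) (hf' : HasFDerivAt f (f' : E →L[ℝ] F) a) :
    ∃ (h : F → E) (U : Set E) (V : Set F), a ∈ U ∧ LocalDiffeo f h U V := by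
  have hc : ContDiffAt ℝ ∞ f a := hcd.self_of_nhds
  have hn : (∞ : WithTop ℕ∞) ≠ 0 := by simp
  let Φ := hc.toOpenPartialHomeomorph f hf' hn
  have hsource : Φ.source ∈ 𝓝 a := Φ.open_source.mem_nhds (hc.mem_toOpenPartialHomeomorph_source hf' hn)
  have hcont : ContinuousAt (fderiv ℝ f) a := by
    have : ContDiffAt ℝ 0 (fderiv ℝ f) a := hc.fderiv_right (m := 0) (by simp)
    exact this.continuousAt
  have hinv : ∀ᶠ x in 𝓝 a, fderiv ℝ f x ∈ range ((↑) : (E ≃L[ℝ] F) → (E →L[ℝ] F)) := by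
    apply hcont.eventually_mem
    rw [hf'.fderiv]
    exact f'.nhds
  have hall : ∀ᶠ x in 𝓝 a, x ∈ Φ.source ∧ ContDiffAt ℝ ∞ f x ∧
      fderiv ℝ f x ∈ range ((↑) : (E ≃L[ℝ] F) → (E →L[ℝ] F)) :=
    Filter.Eventually.and (show ∀ᶠ x in 𝓝 a, x ∈ Φ.source from hsource) (hcd.and hinv)
  obtain ⟨U, hU, hUopen, haU⟩ := eventually_nhds_iff.mp hall
  let Ψ := Φ.restrOpen U hUopen
  have hΨsrc : Ψ.source = U := by
    ext x
    simp only [Ψ, OpenPartialHomeomorph.restrOpen_source, mem_inter_iff]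
    exact ⟨fun hx => hx.2, fun hx => ⟨(hU x hx).1, hx⟩⟩
  have hΨf : ∀ x, Ψ x = f x := fun _ => rfl
  refine ⟨Ψ.symm, U, Ψ.target, haU, ?_⟩
  refine ⟨hUopen, Ψ.open_target, ?_, ?_, ?_, ?_, ?_, ?_⟩
  · intro x hx
    rw [← hΨsrc] at hx
    exact Ψ.map_source hx
  · intro y hy
    have := Ψ.map_target hy
    rwa [hΨsrc] at this
  · intro x hx
    rw [← hΨsrc] at hx
    exact Ψ.left_inv hx
  · intro y hy
    exact Ψ.right_inv hy
  · intro x hx
    exact (hU x hx).2.1.contDiffWithinAt
  · intro y hy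
    have hmem : Ψ.symm y ∈ U := by
      have := Ψ.map_target hy
      rwa [hΨsrc] at this
    obtain ⟨e, he⟩ := (hU _ hmem).2.2
    have hd : ContDiffAt ℝ ∞ f (Ψ.symm y) := (hU _ hmem).2.1
    have hdiff : HasFDerivAt f (e : E →L[ℝ] F) (Ψ.symm y) := by
      rw [he]
      exact (hd.differentiableAt (by simp)).hasFDerivAt
    exact (Ψ.contDiffAt_symm hy hdiff hd).contDiffWithinAt

namespace LocalDiffeo

variable {f : E → F} {h : F → E} {U : Set E} {V : Set F}

lemma continuousOn (H : LocalDiffeo f h U V) : ContinuousOn f U := H.smooth.continuousOn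

lemma continuousOn_inv (H : LocalDiffeo f h U V) : ContinuousOn h V := H.smooth_inv.continuousOn

/-- Restriction to a smaller open set. -/
lemma restrict (H : LocalDiffeo f h U V) {U' : Set E} (hU' : IsOpen U') (hsub : U' ⊆ U) :
    LocalDiffeo f h U' (f '' U') := by
  have himg : f '' U' = V ∩ h ⁻¹' U' := by
    ext y
    constructor
    · rintro ⟨x, hx, rfl⟩
      exact ⟨H.mapsTo (hsub hx), by simpa [H.left x (hsub hx)] using hx⟩
    · rintro ⟨hy, hy'⟩
      exact ⟨h y, hy', H.right y hy⟩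
  have hopen : IsOpen (f '' U') := by
    rw [himg]
    exact H.continuousOn_inv.isOpen_inter_preimage H.openV hU'
  refine ⟨hU', hopen, fun x hx => ⟨x, hx, rfl⟩, ?_, fun x hx => H.left x (hsub hx), ?_,
    H.smooth.mono hsub, ?_⟩
  · intro y hy
    rw [himg] at hy
    exact hy.2
  · intro y hy
    rw [himg] at hy
    exact H.right y hy.1
  · apply H.smooth_inv.mono
    rw [himg]
    exact inter_subset_left

/-- Changing `f` and `h` outside `U` and `V`. -/
lemma congr (H : LocalDiffeo f h U V) {f₁ : E → F} {h₁ : F → E} (hf : EqOn f₁ f U)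
    (hh : EqOn h₁ h V) : LocalDiffeo f₁ h₁ U V := by
  refine ⟨H.openU, H.openV, ?_, ?_, ?_, ?_, H.smooth.congr hf, H.smooth_inv.congr hh⟩
  · intro x hx
    rw [hf hx]
    exact H.mapsTo hx
  · intro y hy
    rw [hh hy]
    exact H.mapsTo_inv hy
  · intro x hx
    rw [hf hx, hh (H.mapsTo hx)]
    exact H.left x hx
  · intro y hy
    rw [hh hy, hf (H.mapsTo_inv hy)]
    exact H.right y hy

lemma hasFDerivAt (H : LocalDiffeo f h U V) {x : E} (hx : x ∈ U) :
    HasFDerivAt f (fderiv ℝ f x) x :=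
  ((H.smooth.contDiffAt (H.openU.mem_nhds hx)).differentiableAt (by simp)).hasFDerivAt

lemma hasFDerivAt_inv (H : LocalDiffeo f h U V) {y : F} (hy : y ∈ V) :
    HasFDerivAt h (fderiv ℝ h y) y :=
  ((H.smooth_inv.contDiffAt (H.openV.mem_nhds hy)).differentiableAt (by simp)).hasFDerivAt

/-- The chain rule for the inverse. -/
lemma fderiv_inv_comp (H : LocalDiffeo f h U V) {x : E} (hx : x ∈ U) :
    (fderiv ℝ h (f x)).comp (fderiv ℝ f x) = ContinuousLinearMap.id ℝ E := by
  have h1 := (H.hasFDerivAt_inv (H.mapsTo hx)).comp x (H.hasFDerivAt hx)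
  have h2 : HasFDerivAt (h ∘ f) (ContinuousLinearMap.id ℝ E) x := by
    refine (hasFDerivAt_id x).congr_of_eventuallyEq ?_
    filter_upwards [H.openU.mem_nhds hx] with w hw
    exact H.left w hw
  exact h1.unique h2

/-- The chain rule for the inverse, other order. -/
lemma fderiv_comp_inv (H : LocalDiffeo f h U V) {y : F} (hy : y ∈ V) :
    (fderiv ℝ f (h y)).comp (fderiv ℝ h y) = ContinuousLinearMap.id ℝ F := by
  have h1 := (H.hasFDerivAt (H.mapsTo_inv hy)).comp y (H.hasFDerivAt_inv hy)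
  have h2 : HasFDerivAt (f ∘ h) (ContinuousLinearMap.id ℝ F) y := by
    refine (hasFDerivAt_id y).congr_of_eventuallyEq ?_
    filter_upwards [H.openV.mem_nhds hy] with w hw
    exact H.right w hw
  exact h1.unique h2

end LocalDiffeo

end Basic

section Det

variable {E : Type*} [NormedAddCommGroup E] [NormedSpace ℝ E] [FiniteDimensional ℝ E]

/-- The determinant is smooth on the space of endomorphisms. -/
lemma contDiff_det : ContDiff ℝ ∞ (fun A : E →L[ℝ] E => A.det) := by
  classical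
  let b := Module.finBasis ℝ E
  have key : ∀ A : E →L[ℝ] E, A.det = Matrix.det (LinearMap.toMatrix b b (A : E →ₗ[ℝ] E)) := by
    intro A
    rw [LinearMap.det_toMatrix]
  have hentry : ∀ i j, ContDiff ℝ ∞
      (fun A : E →L[ℝ] E => LinearMap.toMatrix b b (A : E →ₗ[ℝ] E) i j) := by
    intro i j
    have : (fun A : E →L[ℝ] E => LinearMap.toMatrix b b (A : E →ₗ[ℝ] E) i j)
        = fun A : E →L[ℝ] E => (LinearMap.toContinuousLinearMap (b.coord i)) (A (b j)) := by
      ext A
      simp [LinearMap.toMatrix_apply]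
    rw [this]
    exact ((LinearMap.toContinuousLinearMap (b.coord i)).contDiff).comp
      ((ContinuousLinearMap.apply ℝ E (b j)).contDiff)
  have : (fun A : E →L[ℝ] E => A.det) = fun A : E →L[ℝ] E =>
      ∑ σ : Equiv.Perm (Fin (Module.finrank ℝ E)), (Equiv.Perm.sign σ : ℤ) •
        ∏ i, LinearMap.toMatrix b b (A : E →ₗ[ℝ] E) (σ i) i := by
    ext A
    rw [key, Matrix.det_apply]
    rfl
  rw [this]
  apply ContDiff.sum
  intro σ _
  apply ContDiff.const_smul
  apply contDiff_prod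
  intro i _
  exact hentry _ _

end Det

section Push

variable {E : Type*} [NormedAddCommGroup E] [NormedSpace ℝ E] [FiniteDimensional ℝ E]
  [MeasurableSpace E] [BorelSpace E]

lemma LocalDiffeo.det_ne_zero {f h : E → E} {U V : Set E} (H : LocalDiffeo f h U V) {x : E}
    (hx : x ∈ U) : (fderiv ℝ f x).det ≠ 0 := by
  intro h0
  have h1 := H.fderiv_inv_comp hx
  have h2 := congrArg ContinuousLinearMap.det h1
  have h3 : ((fderiv ℝ h (f x)).comp (fderiv ℝ f x)).det
      = (fderiv ℝ h (f x)).det * (fderiv ℝ f x).det := by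
    simp [ContinuousLinearMap.det, LinearMap.det_comp]
  rw [h3, h0] at h2
  simp [ContinuousLinearMap.det] at h2

/-- Pushing a squared smooth density through a diffeomorphism gives a squared smooth density. -/
theorem exists_push (μ : Measure E) [μ.IsAddHaarMeasure] {f h : E → E} {U V : Set E}
    (H : LocalDiffeo f h U V) (hfm : Measurable f) {g : E → ℝ} (hg : ContDiff ℝ ∞ g)
    (hg0 : ∀ x, 0 ≤ g x) (hgc : HasCompactSupport g) (hgU : tsupport g ⊆ U) :
    ∃ r : E → ℝ, ContDiff ℝ ∞ r ∧ (∀ y, 0 ≤ r y) ∧ HasCompactSupport r ∧ tsupport r ⊆ V ∧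
      μ.withDensity (fun y => ENNReal.ofReal (r y ^ 2))
        = (μ.withDensity (fun x => ENNReal.ofReal (g x ^ 2))).map f := by
  classical
  -- the Jacobian on `U`
  let J : E → ℝ := fun x => ((fderiv ℝ f x).det ^ 2) ^ (-(1 : ℝ) / 4)
  have hJpos : ∀ x ∈ U, 0 < J x := by
    intro x hx
    apply Real.rpow_pos_of_pos
    have := H.det_ne_zero hx
    positivity
  have hJsq : ∀ x ∈ U, J x ^ 2 * |(fderiv ℝ f x).det| = 1 := by
    intro x hx
    have hd := H.det_ne_zero hx
    have hpos : 0 < |(fderiv ℝ f x).det| := abs_pos.mpr hd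
    have e1 : (fderiv ℝ f x).det ^ 2 = |(fderiv ℝ f x).det| ^ (2 : ℝ) := by
      rw [Real.rpow_two, sq_abs]
    change (((fderiv ℝ f x).det ^ 2) ^ (-(1 : ℝ) / 4)) ^ 2 * _ = 1
    rw [e1, ← Real.rpow_mul hpos.le, ← Real.rpow_natCast, ← Real.rpow_mul hpos.le]
    nth_rewrite 2 [← Real.rpow_one |(fderiv ℝ f x).det|]
    rw [← Real.rpow_add hpos]
    norm_num
  have hJsm : ContDiffOn ℝ ∞ J U := by
    intro x hx
    have h1 : ContDiffOn ℝ ∞ (fderiv ℝ f) U :=
      H.smooth.fderiv_of_isOpen H.openU (by simp)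
    have h2 : ContDiffOn ℝ ∞ (fun x => (fderiv ℝ f x).det) U :=
      contDiff_det.comp_contDiffOn h1
    have h3 : ContDiffWithinAt ℝ ∞ (fun x => (fderiv ℝ f x).det ^ 2) U x := (h2 x hx).pow 2
    have hne : (fderiv ℝ f x).det ^ 2 ≠ 0 := pow_ne_zero _ (H.det_ne_zero hx)
    exact h3.rpow_const_of_ne hne
  let r : E → ℝ := fun y => if y ∈ V then g (h y) * J (h y) else 0
  have hKsub : f '' tsupport g ⊆ V := by
    rintro _ ⟨x, hx, rfl⟩
    exact H.mapsTo (hgU hx)
  have hKcomp : IsCompact (f '' tsupport g) :=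
    hgc.isCompact.image_of_continuousOn (H.continuousOn.mono hgU)
  have hrsupp : Function.support r ⊆ f '' tsupport g := by
    intro y hy
    have hy' : r y ≠ 0 := hy
    by_cases hV : y ∈ V
    · simp only [r, hV, if_true] at hy'
      refine ⟨h y, subset_tsupport _ ?_, H.right y hV⟩
      exact left_ne_zero_of_mul hy'
    · simp [r, hV] at hy'
  have hrts : tsupport r ⊆ f '' tsupport g :=
    closure_minimal hrsupp hKcomp.isClosed
  have hrsm : ContDiff ℝ ∞ r := by
    rw [contDiff_iff_contDiffAt]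
    intro y
    by_cases hV : y ∈ V
    · have h1 : ContDiffOn ℝ ∞ (fun y => g (h y) * J (h y)) V := by
        apply ContDiffOn.mul
        · exact hg.comp_contDiffOn H.smooth_inv
        · exact hJsm.comp H.smooth_inv H.mapsTo_inv
      have h2 : ContDiffAt ℝ ∞ (fun y => g (h y) * J (h y)) y :=
        h1.contDiffAt (H.openV.mem_nhds hV)
      refine h2.congr_of_eventuallyEq ?_
      filter_upwards [H.openV.mem_nhds hV] with w hw
      simp [r, hw]
    · have hy : y ∉ tsupport r := fun hy => hV (hKsub (hrts hy))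
      have : r =ᶠ[𝓝 y] 0 := notMem_tsupport_iff_eventuallyEq.mp hy
      exact contDiffAt_const.congr_of_eventuallyEq this
  have hr0 : ∀ y, 0 ≤ r y := by
    intro y
    by_cases hV : y ∈ V
    · simp only [r, hV, if_true]
      exact mul_nonneg (hg0 _) (hJpos _ (H.mapsTo_inv hV)).le
    · simp [r, hV]
  refine ⟨r, hrsm, hr0, ?_, hrts.trans hKsub, ?_⟩
  · exact hKcomp.of_isClosed_subset (isClosed_tsupport _) hrts
  -- the measure identity
  ext A hA
  rw [withDensity_apply _ hA, Measure.map_apply hfm hA,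
    withDensity_apply _ (hfm hA)]
  have hUm : MeasurableSet U := H.openU.measurableSet
  have hVm : MeasurableSet V := H.openV.measurableSet
  -- left side: restrict to `A ∩ V`
  have hL : ∫⁻ y in A, ENNReal.ofReal (r y ^ 2) ∂μ = ∫⁻ y in A ∩ V, ENNReal.ofReal (r y ^ 2) ∂μ := by
    rw [← lintegral_inter_add_sdiff _ _ hVm]
    have : ∫⁻ y in A \ V, ENNReal.ofReal (r y ^ 2) ∂μ = 0 := by
      rw [setLIntegral_congr_fun (g := fun _ => 0) (hA.diff hVm)]
      · simp
      · intro y hy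
        simp [r, hy.2]
    rw [this, add_zero]
  -- right side: restrict to `f⁻¹ A ∩ U`
  have hR : ∫⁻ x in f ⁻¹' A, ENNReal.ofReal (g x ^ 2) ∂μ
      = ∫⁻ x in f ⁻¹' A ∩ U, ENNReal.ofReal (g x ^ 2) ∂μ := by
    rw [← lintegral_inter_add_sdiff _ _ hUm]
    have : ∫⁻ x in f ⁻¹' A \ U, ENNReal.ofReal (g x ^ 2) ∂μ = 0 := by
      rw [setLIntegral_congr_fun (g := fun _ => 0) ((hfm hA).diff hUm)]
      · simp
      · intro x hx
        have : x ∉ tsupport g := fun hx' => hx.2 (hgU hx')
        have : g x = 0 := image_eq_zero_of_notMem_tsupport this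
        simp [this]
    rw [this, add_zero]
  have himg : f '' (f ⁻¹' A ∩ U) = A ∩ V := by
    ext y
    constructor
    · rintro ⟨x, ⟨hx1, hx2⟩, rfl⟩
      exact ⟨hx1, H.mapsTo hx2⟩
    · rintro ⟨hy1, hy2⟩
      refine ⟨h y, ⟨?_, H.mapsTo_inv hy2⟩, H.right y hy2⟩
      change f (h y) ∈ A
      rwa [H.right y hy2]
  have hinj : InjOn f (f ⁻¹' A ∩ U) := by
    intro x hx x' hx' he
    rw [← H.left x hx.2, ← H.left x' hx'.2, he]
  rw [hL, hR, ← himg, lintegral_image_eq_lintegral_abs_det_fderiv_mul μ ((hfm hA).inter hUm)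
    (f' := fun x => fderiv ℝ f x) (fun x hx => (H.hasFDerivAt hx.2).hasFDerivWithinAt) hinj]
  apply setLIntegral_congr_fun ((hfm hA).inter hUm)
  intro x hx
  have hV : f x ∈ V := H.mapsTo hx.2
  have hrx : r (f x) = g x * J x := by
    simp only [r, hV, if_true, H.left x hx.2]
  beta_reduce
  rw [hrx, ← ENNReal.ofReal_mul (abs_nonneg _)]
  congr 1
  have := hJsq x hx.2
  calc |(fderiv ℝ f x).det| * (g x * J x) ^ 2
      = g x ^ 2 * (J x ^ 2 * |(fderiv ℝ f x).det|) := by ring
    _ = g x ^ 2 := by rw [this, mul_one]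

end Push

end Crest.Agent.Lib.MultiMarg
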