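/-
S0175 (row 130): the branch `y = η x`, `z = ζ x` of critical points, via the inverse function theorem.
-/
import Crest.Agent.Lib.MultiMarg.Cost
import Crest.Agent.Lib.MultiMarg.Diffeo

set_option autoImplicit false

open Set Filter Topology
open scoped RealInnerProductSpace ContDiff

namespace Crest.Agent.Lib.MultiMarg

variable {E : Type*} [NormedAddCommGroup E] [InnerProductSpace ℝ E]

lemma contDiffAt_G (σ : ℝ) {v : E} (hv : v ≠ 0) : ContDiffAt ℝ ∞ (G σ) v := by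
  unfold G
  apply ContDiffAt.smul _ contDiffAt_id
  apply ContDiffAt.mul contDiffAt_const
  apply ContDiffAt.rpow_const_of_ne ((contDiff_norm_sq ℝ).contDiffAt)
  positivity

/-- The derivative of `G`. -/
noncomputable def dG (σ : ℝ) (v : E) : E →L[ℝ] E :=
  (-σ * (‖v‖ ^ 2) ^ (-σ / 2 - 1)) • ContinuousLinearMap.id ℝ E
    + (σ * (σ + 2) * (‖v‖ ^ 2) ^ (-σ / 2 - 2)) • (innerSL ℝ v).smulRight v

lemma dG_apply (σ : ℝ) (v w : E) :
    dG σ v w = (-σ * (‖v‖ ^ 2) ^ (-σ / 2 - 1)) • w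
      + (σ * (σ + 2) * (‖v‖ ^ 2) ^ (-σ / 2 - 2) * ⟪v, w⟫) • v := by
  simp [dG, smul_smul]

lemma hasFDerivAt_G (σ : ℝ) {v : E} (hv : v ≠ 0) : HasFDerivAt (G σ) (dG σ v) v := by
  have hne : ‖v‖ ^ 2 ≠ 0 := by positivity
  have h1 : HasFDerivAt (fun x : E => ‖x‖ ^ 2) (2 • innerSL ℝ v) v :=
    (hasStrictFDerivAt_norm_sq v).hasFDerivAt
  have h2 := h1.rpow_const (p := -σ / 2 - 1) (Or.inl hne)
  have h3 := h2.const_mul (-σ)
  have h4 := h3.smul (hasFDerivAt_id v)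
  refine h4.congr_fderiv ?_
  ext w
  rw [dG_apply]
  simp only [ContinuousLinearMap.add_apply, ContinuousLinearMap.smul_apply,
    ContinuousLinearMap.id_apply, ContinuousLinearMap.smulRight_apply, id_eq]
  have e : -σ / 2 - 2 = -σ / 2 - 1 - 1 := by ring
  rw [e]
  simp only [smul_eq_mul, innerSL_apply_apply, nsmul_eq_mul, Nat.cast_ofNat]
  congr 1
  congr 1
  ring

/-- The constant gradient at `q`. -/
noncomputable def gq (σ : ℝ) (q : E) : E := G σ q + G σ ((2 : ℝ) • q)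

/-- The curvature constant. -/
noncomputable def Lam (σ : ℝ) : ℝ := 4 * σ * (2 : ℝ) ^ (σ + 2)

/-- The map whose zero set gives the branch. -/
noncomputable def Xi (σ Λ : ℝ) (q g : E) (p : E × E × E) : E × E × E :=
  (p.1, G σ (p.1 - p.2.1) + G σ (p.1 - p.2.2) + Λ • p.1,
    - G σ (p.1 - p.2.1) + G σ (p.2.1 - p.2.2) + Λ • (p.2.1 - q) - g)

section unit

variable {σ : ℝ} {q : E}

lemma dG_unit (hq : ‖q‖ = 1) (w : E) :
    dG σ q w = (-σ) • w + (σ * (σ + 2) * ⟪q, w⟫) • q := by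
  rw [dG_apply, hq]
  simp

lemma dG_neg (v : E) : dG σ (-v) = dG σ v := by
  ext w
  simp only [dG_apply, norm_neg, inner_neg_left, smul_neg]
  congr 1
  rw [← neg_smul]
  congr 1
  ring

/-- `μ₀ = 4^(-σ/2-1)`. -/
noncomputable def mu0 (σ : ℝ) : ℝ := (4 : ℝ) ^ (-σ / 2 - 1)

lemma mu0_pos (σ : ℝ) : 0 < mu0 σ := Real.rpow_pos_of_pos (by norm_num) _

lemma dG_two (hq : ‖q‖ = 1) : dG σ ((2 : ℝ) • q) = mu0 σ • dG σ q := by
  ext w
  simp only [ContinuousLinearMap.smul_apply]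
  have e1 : ‖(2 : ℝ) • q‖ ^ 2 = 4 := by
    rw [norm_smul, hq]; norm_num
  rw [dG_apply, dG_apply, e1, hq]
  have e2 : (4 : ℝ) ^ (-σ / 2 - 2) = mu0 σ / 4 := by
    have : -σ / 2 - 2 = (-σ / 2 - 1) - 1 := by ring
    rw [this, Real.rpow_sub_one (by norm_num)]
    rfl
  rw [e2, inner_smul_left]
  simp only [one_pow, Real.one_rpow, conj_trivial, smul_add, smul_smul]
  have e3 : (4 : ℝ) ^ (-σ / 2 - 1) = mu0 σ := rfl
  rw [e3]
  congr 2
  · ring
  · ring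

lemma inner_dG_self_ge (hσ : 0 < σ) (hq : ‖q‖ = 1) (w : E) :
    -σ * ‖w‖ ^ 2 ≤ ⟪dG σ q w, w⟫ := by
  rw [dG_unit hq, inner_add_left, inner_smul_left, inner_smul_left]
  simp only [conj_trivial, real_inner_self_eq_norm_sq]
  have : 0 ≤ σ * (σ + 2) * ⟪q, w⟫ * ⟪q, w⟫ := by
    have h : 0 ≤ ⟪q, w⟫ * ⟪q, w⟫ := mul_self_nonneg _
    have h2 : 0 ≤ σ * (σ + 2) := by positivity
    nlinarith
  linarith

lemma dG_injective (hσ : 0 < σ) (hq : ‖q‖ = 1) {w : E} (h : dG σ q w = 0) : w = 0 := by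
  rw [dG_unit hq] at h
  have h1 := congrArg (fun v => ⟪q, v⟫) h
  simp only [inner_add_right, inner_smul_right, inner_zero_right, real_inner_self_eq_norm_sq,
    hq] at h1
  have h2 : σ * (σ + 1) * ⟪q, w⟫ = 0 := by linarith
  have h3 : ⟪q, w⟫ = 0 := by
    have : σ * (σ + 1) ≠ 0 := by positivity
    exact (mul_eq_zero.mp h2).resolve_left this
  rw [h3] at h
  simp only [mul_zero, zero_smul, add_zero] at h
  have := smul_eq_zero.mp h
  rcases this with h4 | h4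
  · linarith
  · exact h4

lemma mu0_le (hσ : 0 < σ) : mu0 σ ≤ 1 / 4 := by
  unfold mu0
  have h : (4 : ℝ) ^ (-σ / 2 - 1) ≤ (4 : ℝ) ^ (-1 : ℝ) :=
    Real.rpow_le_rpow_of_exponent_le (by norm_num) (by linarith)
  have h2 : (4 : ℝ) ^ (-1 : ℝ) = 1 / 4 := by
    rw [Real.rpow_neg_one]; norm_num
  linarith

lemma one_div_mu0 (σ : ℝ) : 1 / mu0 σ = (2 : ℝ) ^ (σ + 2) := by
  unfold mu0
  have e : (4 : ℝ) = 2 ^ (2 : ℝ) := by norm_num
  rw [e, ← Real.rpow_mul (by norm_num), one_div, ← Real.rpow_neg (by norm_num)]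
  congr 1
  ring

lemma two_rpow_ge (hσ : 0 < σ) : (4 : ℝ) ≤ (2 : ℝ) ^ (σ + 2) := by
  have h : (2 : ℝ) ^ (2 : ℝ) ≤ (2 : ℝ) ^ (σ + 2) :=
    Real.rpow_le_rpow_of_exponent_le (by norm_num) (by linarith)
  have e : (2 : ℝ) ^ (2 : ℝ) = 4 := by norm_num
  linarith

lemma Lam_ge (hσ : 0 < σ) : 16 * σ ≤ Lam σ := by
  unfold Lam
  have := two_rpow_ge hσ
  nlinarith

lemma Lam_ge' (hσ : 0 < σ) : σ * (2 + 1 / mu0 σ) < Lam σ := by
  unfold Lam
  rw [one_div_mu0]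
  have := two_rpow_ge hσ
  nlinarith

end unit

section derivative

variable {σ : ℝ} {q : E}

/-- First coordinate projection on `E × E × E`. -/
noncomputable abbrev pr1 : E × E × E →L[ℝ] E := ContinuousLinearMap.fst ℝ E (E × E)
/-- Second coordinate projection on `E × E × E`. -/
noncomputable abbrev pr2 : E × E × E →L[ℝ] E :=
  (ContinuousLinearMap.fst ℝ E E).comp (ContinuousLinearMap.snd ℝ E (E × E))
/-- Third coordinate projection on `E × E × E`. -/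
noncomputable abbrev pr3 : E × E × E →L[ℝ] E :=
  (ContinuousLinearMap.snd ℝ E E).comp (ContinuousLinearMap.snd ℝ E (E × E))

/-- The derivative of `Xi` at the base point. -/
noncomputable def DXi (σ Λ : ℝ) (q : E) : E × E × E →L[ℝ] E × E × E :=
  (pr1 : E × E × E →L[ℝ] E).prod
    (((dG σ q).comp (pr1 - pr2) + (dG σ q).comp (pr1 - pr3) + Λ • pr1).prod
      (-(dG σ q).comp (pr1 - pr2) + (mu0 σ • dG σ q).comp (pr2 - pr3) + Λ • pr2))

lemma DXi_apply (σ Λ : ℝ) (q a b c : E) :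
    DXi σ Λ q (a, b, c) = (a, dG σ q (a - b) + dG σ q (a - c) + Λ • a,
      - dG σ q (a - b) + mu0 σ • dG σ q (b - c) + Λ • b) := by
  simp [DXi, smul_sub]

lemma Xi_base (Λ : ℝ) (q : E) :
    Xi σ Λ q (gq σ q) (0, q, -q) = (0, 0, 0) := by
  simp only [Xi, gq, zero_sub, sub_neg_eq_add, smul_zero, add_zero, sub_self, G_neg]
  have : q + q = (2 : ℝ) • q := by rw [two_smul]
  rw [this]
  simp

lemma hasFDerivAt_Xi (hq : ‖q‖ = 1) (Λ : ℝ) (g : E) :
    HasFDerivAt (Xi σ Λ q g) (DXi σ Λ q) ((0, q, -q) : E × E × E) := by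
  have hq0 : q ≠ 0 := by
    intro h; rw [h] at hq; simp at hq
  have hneg : -q ≠ 0 := neg_ne_zero.mpr hq0
  have h2q : (2 : ℝ) • q ≠ 0 := smul_ne_zero (by norm_num) hq0
  set b : E × E × E := (0, q, -q) with hb
  have P1 : HasFDerivAt (fun p : E × E × E => p.1 - p.2.1) (pr1 - pr2) b :=
    (pr1 (E := E)).hasFDerivAt.sub (pr2 (E := E)).hasFDerivAt
  have P2 : HasFDerivAt (fun p : E × E × E => p.1 - p.2.2) (pr1 - pr3) b :=
    (pr1 (E := E)).hasFDerivAt.sub (pr3 (E := E)).hasFDerivAt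
  have P3 : HasFDerivAt (fun p : E × E × E => p.2.1 - p.2.2) (pr2 - pr3) b :=
    (pr2 (E := E)).hasFDerivAt.sub (pr3 (E := E)).hasFDerivAt
  have G1 : HasFDerivAt (G σ) (dG σ q) (b.1 - b.2.1) := by
    have : b.1 - b.2.1 = -q := by simp [hb]
    rw [this, ← dG_neg]
    exact hasFDerivAt_G σ hneg
  have G2 : HasFDerivAt (G σ) (dG σ q) (b.1 - b.2.2) := by
    have : b.1 - b.2.2 = q := by simp [hb]
    rw [this]
    exact hasFDerivAt_G σ hq0
  have G3 : HasFDerivAt (G σ) (mu0 σ • dG σ q) (b.2.1 - b.2.2) := by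
    have : b.2.1 - b.2.2 = (2 : ℝ) • q := by simp [hb, two_smul]
    rw [this, ← dG_two hq]
    exact hasFDerivAt_G σ h2q
  have C1 := G1.comp b P1
  have C2 := G2.comp b P2
  have C3 := G3.comp b P3
  unfold Xi DXi
  refine (pr1 (E := E)).hasFDerivAt.prodMk (HasFDerivAt.prodMk ?_ ?_)
  · exact (C1.add C2).add ((pr1 (E := E)).hasFDerivAt.const_smul Λ)
  · have := ((C1.neg).add C3).add
      ((((pr2 (E := E)).hasFDerivAt.sub_const q)).const_smul Λ)
    exact this.sub_const g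

variable [FiniteDimensional ℝ E]

lemma exists_equiv_of_injective {F : Type*} [NormedAddCommGroup F] [NormedSpace ℝ F]
    [FiniteDimensional ℝ F] (T : F →L[ℝ] F) (hT : Function.Injective T) :
    ∃ e : F ≃L[ℝ] F, (e : F →L[ℝ] F) = T := by
  refine ⟨(LinearEquiv.ofInjectiveEndo (T : F →ₗ[ℝ] F) hT).toContinuousLinearEquiv, ?_⟩
  ext x
  rfl

omit [FiniteDimensional ℝ E] in
/-- The derivative of `Xi` at the base point is injective. -/
lemma DXi_injective (hσ : 0 < σ) (hq : ‖q‖ = 1) : Function.Injective (DXi σ (Lam σ) q) := by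
  rw [injective_iff_map_eq_zero]
  rintro ⟨a, b, c⟩ h
  rw [DXi_apply] at h
  simp only [Prod.mk_eq_zero] at h
  obtain ⟨rfl, h2, h3⟩ := h
  simp only [zero_sub, map_neg, smul_zero, add_zero] at h2 h3
  have hbc : b + c = 0 := by
    apply dG_injective hσ hq
    rw [map_add]
    have h20 : - (dG σ q) b + -(dG σ q) c = 0 := h2
    have h21 : (dG σ q) b + (dG σ q) c = -(- (dG σ q) b + -(dG σ q) c) := by abel
    rw [h21, h20, neg_zero]
  have hc : c = -b := by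
    rw [eq_neg_iff_add_eq_zero, add_comm]; exact hbc
  subst hc
  have hb : b = 0 := by
    have e : b - -b = (2 : ℝ) • b := by rw [sub_neg_eq_add, two_smul]
    rw [e, map_smul] at h3
    have h4 := congrArg (fun v => ⟪v, b⟫) h3
    simp only [inner_add_left, inner_neg_left, neg_neg, inner_smul_left, inner_zero_left,
      conj_trivial, real_inner_self_eq_norm_sq] at h4
    have h5 := inner_dG_self_ge hσ hq b
    have h6 := Lam_ge hσ
    have h7 := mu0_le hσ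
    have h8 := mu0_pos σ
    have hn : 0 ≤ ‖b‖ ^ 2 := by positivity
    have h9 : (16 * σ - σ * (1 + mu0 σ * 2)) * ‖b‖ ^ 2 ≤ 0 := by
      nlinarith [mul_nonneg (mul_nonneg hn h8.le) hσ.le]
    have h10 : 0 < 16 * σ - σ * (1 + mu0 σ * 2) := by nlinarith
    have h11 : ‖b‖ ^ 2 ≤ 0 := by nlinarith
    have : ‖b‖ = 0 := by nlinarith [norm_nonneg b]
    exact norm_eq_zero.mp this
  subst hb
  simp

omit [FiniteDimensional ℝ E] in
lemma algebra_eta (hσ : 0 < σ) (hq : ‖q‖ = 1) {a c : E}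
    (h2 : dG σ q a + dG σ q (a - c) + Lam σ • a = 0)
    (h3 : - dG σ q a + mu0 σ • dG σ q (-c) = 0) : a = 0 := by
  have hμ := mu0_pos σ
  have h4 : dG σ q (a + mu0 σ • c) = 0 := by
    rw [map_add, map_smul]
    rw [map_neg, smul_neg] at h3
    have h41 : dG σ q a + mu0 σ • dG σ q c = -(-dG σ q a + -(mu0 σ • dG σ q c)) := by abel
    rw [h41, h3, neg_zero]
  have h5 : a + mu0 σ • c = 0 := dG_injective hσ hq h4
  have h6 : c = -(1 / mu0 σ) • a := by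
    have h60 : mu0 σ • c = -a := by
      rw [eq_neg_iff_add_eq_zero, add_comm]; exact h5
    rw [neg_smul, ← smul_neg, ← h60, smul_smul]
    rw [one_div, inv_mul_cancel₀ hμ.ne', one_smul]
  subst h6
  have e1 : a - -(1 / mu0 σ) • a = (1 + 1 / mu0 σ) • a := by
    rw [neg_smul, sub_neg_eq_add, add_smul, one_smul]
  rw [e1, map_smul] at h2
  have h7 := congrArg (fun v => ⟪v, a⟫) h2
  simp only [inner_add_left, inner_smul_left, inner_zero_left, conj_trivial,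
    real_inner_self_eq_norm_sq] at h7
  have h8 := inner_dG_self_ge hσ hq a
  have h9 := Lam_ge' hσ
  have hn : 0 ≤ ‖a‖ ^ 2 := by positivity
  have hpos : 0 < 1 / mu0 σ := by positivity
  have h10 : (Lam σ - σ * (2 + 1 / mu0 σ)) * ‖a‖ ^ 2 ≤ 0 := by
    have : (2 + 1 / mu0 σ) * (-σ * ‖a‖ ^ 2) ≤ (2 + 1 / mu0 σ) * ⟪dG σ q a, a⟫ :=
      mul_le_mul_of_nonneg_left h8 (by positivity)
    nlinarith
  have h11 : ‖a‖ ^ 2 ≤ 0 := by
    by_contra hcon
    have : 0 < ‖a‖ ^ 2 := not_le.mp hcon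
    have := mul_pos (sub_pos.mpr h9) this
    linarith
  have : ‖a‖ = 0 := by nlinarith [norm_nonneg a]
  exact norm_eq_zero.mp this

omit [FiniteDimensional ℝ E] in
lemma algebra_zeta (hσ : 0 < σ) (hq : ‖q‖ = 1) {a b' : E}
    (h2 : dG σ q (a - b') + dG σ q a + Lam σ • a = 0)
    (h3 : - dG σ q (a - b') + mu0 σ • dG σ q b' + Lam σ • b' = 0) : a = 0 := by
  have hΛ16 : 16 * σ ≤ Lam σ := Lam_ge hσ
  have hμ := mu0_pos σ
  have hμ4 := mu0_le hσ
  have i2 := congrArg (fun v => ⟪v, a⟫) h2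
  have i3 := congrArg (fun v => ⟪v, b'⟫) h3
  simp only [inner_add_left, inner_neg_left, inner_smul_left, inner_zero_left, conj_trivial,
    real_inner_self_eq_norm_sq] at i2 i3
  have l1 := inner_dG_self_ge hσ hq (a - b')
  have l2 := inner_dG_self_ge hσ hq a
  have l3 := inner_dG_self_ge hσ hq b'
  have e : ⟪dG σ q (a - b'), a - b'⟫ = ⟪dG σ q (a - b'), a⟫ - ⟪dG σ q (a - b'), b'⟫ :=
    inner_sub_right _ _ _
  have n1 : ‖a - b'‖ ^ 2 ≤ 2 * ‖a‖ ^ 2 + 2 * ‖b'‖ ^ 2 := by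
    rw [norm_sub_sq_real]
    have := norm_add_sq_real a b'
    nlinarith [sq_nonneg ‖a + b'‖]
  have hna : 0 ≤ ‖a‖ ^ 2 := by positivity
  have hnb : 0 ≤ ‖b'‖ ^ 2 := by positivity
  have l4 : mu0 σ * (-σ * ‖b'‖ ^ 2) ≤ mu0 σ * ⟪dG σ q b', b'⟫ :=
    mul_le_mul_of_nonneg_left l3 hμ.le
  have s1 : σ * ‖a - b'‖ ^ 2 ≤ σ * (2 * ‖a‖ ^ 2 + 2 * ‖b'‖ ^ 2) :=
    mul_le_mul_of_nonneg_left n1 hσ.le
  have l5 : mu0 σ * (σ * ‖b'‖ ^ 2) ≤ 1 / 4 * (σ * ‖b'‖ ^ 2) :=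
    mul_le_mul_of_nonneg_right hμ4 (by positivity)
  have m1 : 16 * σ * ‖a‖ ^ 2 ≤ Lam σ * ‖a‖ ^ 2 := mul_le_mul_of_nonneg_right hΛ16 hna
  have m2 : 16 * σ * ‖b'‖ ^ 2 ≤ Lam σ * ‖b'‖ ^ 2 := mul_le_mul_of_nonneg_right hΛ16 hnb
  have hfin : 13 * σ * ‖a‖ ^ 2 + 13 * σ * ‖b'‖ ^ 2 ≤ 0 := by nlinarith
  have h11 : ‖a‖ ^ 2 ≤ 0 := by
    by_contra hcon
    have h12 : 0 < ‖a‖ ^ 2 := not_le.mp hcon
    have := mul_pos hσ h12
    have := mul_nonneg hσ.le hnb
    nlinarith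
  have : ‖a‖ = 0 := by nlinarith [norm_nonneg a]
  exact norm_eq_zero.mp this

/-- `Xi` is smooth where the three points are distinct. -/
lemma contDiffAt_Xi (σ Λ : ℝ) (q g : E) {p : E × E × E} (h1 : p.1 ≠ p.2.1) (h2 : p.1 ≠ p.2.2)
    (h3 : p.2.1 ≠ p.2.2) : ContDiffAt ℝ ∞ (Xi σ Λ q g) p := by
  have P1 : ContDiffAt ℝ ∞ (fun p : E × E × E => p.1) p := contDiffAt_fst
  have P2 : ContDiffAt ℝ ∞ (fun p : E × E × E => p.2.1) p := contDiffAt_fst.comp p contDiffAt_snd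
  have P3 : ContDiffAt ℝ ∞ (fun p : E × E × E => p.2.2) p := contDiffAt_snd.comp p contDiffAt_snd
  have G1 : ContDiffAt ℝ ∞ (fun p : E × E × E => G σ (p.1 - p.2.1)) p :=
    ContDiffAt.comp (g := G σ) p (contDiffAt_G σ (sub_ne_zero.mpr h1)) (P1.sub P2)
  have G2 : ContDiffAt ℝ ∞ (fun p : E × E × E => G σ (p.1 - p.2.2)) p :=
    ContDiffAt.comp (g := G σ) p (contDiffAt_G σ (sub_ne_zero.mpr h2)) (P1.sub P3)
  have G3 : ContDiffAt ℝ ∞ (fun p : E × E × E => G σ (p.2.1 - p.2.2)) p :=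
    ContDiffAt.comp (g := G σ) p (contDiffAt_G σ (sub_ne_zero.mpr h3)) (P2.sub P3)
  unfold Xi
  refine P1.prodMk (ContDiffAt.prodMk ?_ ?_)
  · exact (G1.add G2).add (contDiffAt_const.smul P1)
  · exact ((G1.neg).add G3 |>.add (contDiffAt_const.smul (P2.sub contDiffAt_const))).sub
      contDiffAt_const

set_option maxHeartbeats 1000000 in
/-- The branch of critical points through `(0, q, -q)`. -/
theorem exists_branch (hσ : 0 < σ) (hq : ‖q‖ = 1) :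
    ∃ (η ζ ηi ζi : E → E) (ε₀ : ℝ), 0 < ε₀ ∧ η 0 = q ∧ ζ 0 = -q ∧
      LocalDiffeo η ηi (Metric.ball 0 ε₀) (η '' Metric.ball 0 ε₀) ∧
      LocalDiffeo ζ ζi (Metric.ball 0 ε₀) (ζ '' Metric.ball 0 ε₀) ∧
      ∀ x ∈ Metric.ball (0 : E) ε₀, Crit σ (Lam σ) q (gq σ q) x (η x) (ζ x) := by
  have hq0 : q ≠ 0 := by
    intro h; rw [h] at hq; simp at hq
  have hqq : q ≠ -q := by
    intro h
    have : (2 : ℝ) • q = 0 := by
      rw [two_smul]; nth_rewrite 1 [h]; simp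
    exact hq0 ((smul_eq_zero.mp this).resolve_left (by norm_num))
  set g := gq σ q with hg
  set Λ := Lam σ with hΛ
  set b : E × E × E := (0, q, -q) with hb
  have hcd : ∀ᶠ p in 𝓝 b, ContDiffAt ℝ ∞ (Xi σ Λ q g) p := by
    have h1 : ∀ᶠ p : E × E × E in 𝓝 b, p.1 ≠ p.2.1 :=
      (isOpen_ne_fun (by fun_prop) (by fun_prop)).mem_nhds (by simpa [hb] using hq0.symm)
    have h2 : ∀ᶠ p : E × E × E in 𝓝 b, p.1 ≠ p.2.2 :=
      (isOpen_ne_fun (by fun_prop) (by fun_prop)).mem_nhds (by simpa [hb] using hq0)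
    have h3 : ∀ᶠ p : E × E × E in 𝓝 b, p.2.1 ≠ p.2.2 :=
      (isOpen_ne_fun (by fun_prop) (by fun_prop)).mem_nhds (by simpa [hb] using hqq)
    filter_upwards [h1, h2, h3] with p a1 a2 a3
    exact contDiffAt_Xi σ Λ q g a1 a2 a3
  obtain ⟨e, he⟩ := exists_equiv_of_injective (DXi σ Λ q) (DXi_injective hσ hq)
  have hder : HasFDerivAt (Xi σ Λ q g) (e : E × E × E →L[ℝ] E × E × E) b := by
    rw [he]; exact hasFDerivAt_Xi hq Λ g
  obtain ⟨inv, U, V, hbU, H⟩ := exists_localDiffeo hcd hder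
  have hXib : Xi σ Λ q g b = (0, 0, 0) := Xi_base Λ q
  have hy₀ : ((0, 0, 0) : E × E × E) ∈ V := by
    rw [← hXib]; exact H.mapsTo hbU
  have hinvb : inv (0, 0, 0) = b := by
    rw [← hXib]; exact H.left b hbU
  -- the parameter map
  let ι : E →L[ℝ] E × E × E := ContinuousLinearMap.inl ℝ E (E × E)
  have hι : ∀ x, ι x = (x, 0, 0) := fun x => rfl
  have hι0 : ι 0 = (0, 0, 0) := rfl
  let W : Set E := ι ⁻¹' V
  have hWo : IsOpen W := H.openV.preimage ι.continuous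
  have h0W : (0 : E) ∈ W := by
    change ι 0 ∈ V
    rw [hι0]; exact hy₀
  let P : E → E × E × E := fun x => inv (ι x)
  have hPsm : ContDiffOn ℝ ∞ P W := H.smooth_inv.comp ι.contDiff.contDiffOn (fun x hx => hx)
  have hP0 : P 0 = b := by
    change inv (ι 0) = b
    rw [hι0]; exact hinvb
  have hXiP : ∀ x ∈ W, Xi σ Λ q g (P x) = (x, 0, 0) := by
    intro x hx
    have := H.right (ι x) hx
    rwa [hι] at this
  let η₀ : E → E := fun x => (pr2 (E := E)) (P x)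
  let ζ₀ : E → E := fun x => (pr3 (E := E)) (P x)
  have hη₀0 : η₀ 0 = q := by
    change (pr2 (E := E)) (P 0) = q
    rw [hP0]; rfl
  have hζ₀0 : ζ₀ 0 = -q := by
    change (pr3 (E := E)) (P 0) = -q
    rw [hP0]; rfl
  have hη₀sm : ContDiffOn ℝ ∞ η₀ W := (pr2 (E := E)).contDiff.comp_contDiffOn hPsm
  have hζ₀sm : ContDiffOn ℝ ∞ ζ₀ W := (pr3 (E := E)).contDiff.comp_contDiffOn hPsm
  -- the derivative of the inverse
  let Dinv := fderiv ℝ inv ((0, 0, 0) : E × E × E)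
  have hDinv : HasFDerivAt inv Dinv ((0, 0, 0) : E × E × E) := H.hasFDerivAt_inv hy₀
  have hDD : ∀ w, DXi σ Λ q (Dinv w) = w := by
    intro w
    have h1 := H.fderiv_comp_inv hy₀
    rw [hinvb, hder.fderiv, he] at h1
    exact congrArg (fun T : E × E × E →L[ℝ] E × E × E => T w) h1
  have hDP : HasFDerivAt P (Dinv.comp ι) (0 : E) := by
    have h1 : HasFDerivAt inv Dinv (ι 0) := by rw [hι0]; exact hDinv
    exact h1.comp (0 : E) ι.hasFDerivAt
  have hDη : HasFDerivAt η₀ ((pr2 (E := E)).comp (Dinv.comp ι)) (0 : E) :=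
    (pr2 (E := E)).hasFDerivAt.comp (0 : E) hDP
  have hDζ : HasFDerivAt ζ₀ ((pr3 (E := E)).comp (Dinv.comp ι)) (0 : E) :=
    (pr3 (E := E)).hasFDerivAt.comp (0 : E) hDP
  have hdecomp : ∀ w, ∃ a b c, Dinv (ι w) = (a, b, c) := by
    intro w
    exact ⟨_, _, _, rfl⟩
  -- injectivity of the derivative of η₀
  have hinjη : Function.Injective ((pr2 (E := E)).comp (Dinv.comp ι)) := by
    rw [injective_iff_map_eq_zero]
    intro w hw
    obtain ⟨a, b', c, habc⟩ := hdecomp w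
    have hb0 : b' = 0 := by
      have : (pr2 (E := E)) (Dinv (ι w)) = 0 := hw
      rw [habc] at this
      exact this
    subst hb0
    have h1 := hDD (ι w)
    rw [habc, DXi_apply, hι] at h1
    simp only [Prod.mk.injEq] at h1
    obtain ⟨rfl, h2, h3⟩ := h1
    simp only [sub_zero, zero_sub, smul_zero, add_zero] at h2 h3
    exact algebra_eta hσ hq h2 h3
  -- injectivity of the derivative of ζ₀
  have hinjζ : Function.Injective ((pr3 (E := E)).comp (Dinv.comp ι)) := by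
    rw [injective_iff_map_eq_zero]
    intro w hw
    obtain ⟨a, b', c, habc⟩ := hdecomp w
    have hc0 : c = 0 := by
      have : (pr3 (E := E)) (Dinv (ι w)) = 0 := hw
      rw [habc] at this
      exact this
    subst hc0
    have h1 := hDD (ι w)
    rw [habc, DXi_apply, hι] at h1
    simp only [Prod.mk.injEq] at h1
    obtain ⟨rfl, h2, h3⟩ := h1
    simp only [sub_zero] at h2 h3
    exact algebra_zeta hσ hq h2 h3
  obtain ⟨eη, heη⟩ := exists_equiv_of_injective _ hinjη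
  obtain ⟨eζ, heζ⟩ := exists_equiv_of_injective _ hinjζ
  have hcη : ∀ᶠ x in 𝓝 (0 : E), ContDiffAt ℝ ∞ η₀ x := by
    filter_upwards [hWo.mem_nhds h0W] with x hx
    exact hη₀sm.contDiffAt (hWo.mem_nhds hx)
  have hcζ : ∀ᶠ x in 𝓝 (0 : E), ContDiffAt ℝ ∞ ζ₀ x := by
    filter_upwards [hWo.mem_nhds h0W] with x hx
    exact hζ₀sm.contDiffAt (hWo.mem_nhds hx)
  obtain ⟨ηi, Uη, Vη, h0η, Hη⟩ := exists_localDiffeo hcη (f' := eη) (by rw [heη]; exact hDη)
  obtain ⟨ζi, Uζ, Vζ, h0ζ, Hζ⟩ := exists_localDiffeo hcζ (f' := eζ) (by rw [heζ]; exact hDζ)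
  have hball : W ∩ (Uη ∩ Uζ) ∈ 𝓝 (0 : E) :=
    (hWo.inter (Hη.openU.inter Hζ.openU)).mem_nhds ⟨h0W, h0η, h0ζ⟩
  obtain ⟨ε₀, hε₀, hsub⟩ := Metric.mem_nhds_iff.mp hball
  refine ⟨η₀, ζ₀, ηi, ζi, ε₀, hε₀, hη₀0, hζ₀0,
    Hη.restrict Metric.isOpen_ball (fun x hx => (hsub hx).2.1),
    Hζ.restrict Metric.isOpen_ball (fun x hx => (hsub hx).2.2), ?_⟩
  intro x hx
  have hxW : x ∈ W := (hsub hx).1
  have h1 := hXiP x hxW
  rcases hPx : P x with ⟨a, b', c⟩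
  rw [hPx] at h1
  simp only [Xi, Prod.mk.injEq] at h1
  obtain ⟨rfl, h2, h3⟩ := h1
  have e1 : η₀ a = b' := by
    change (pr2 (E := E)) (P a) = b'
    rw [hPx]; rfl
  have e2 : ζ₀ a = c := by
    change (pr3 (E := E)) (P a) = c
    rw [hPx]; rfl
  rw [e1, e2]
  exact ⟨h2, h3⟩

end derivative

end Crest.Agent.Lib.MultiMarg
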