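/-
S0175 (row 130): the dual potential on the five lumps and the pattern analysis of triples.
-/
import Crest.Agent.Lib.MultiMarg.Branch
import Crest.Prelude.Def_MultiMarginal

set_option autoImplicit false

open Set Filter Topology
open scoped RealInnerProductSpace ContDiff ENNReal
open Crest.AnalysisR.OT

namespace Crest.Agent.Lib.MultiMarg

variable {E : Type*} [NormedAddCommGroup E] [InnerProductSpace ℝ E]

/-- The real cost of a triple. -/
noncomputable def cR (σ : ℝ) (x y z : E) : ℝ := phi σ (x - y) + phi σ (x - z) + phi σ (y - z)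

lemma cR_swap12 (σ : ℝ) (x y z : E) : cR σ y x z = cR σ x y z := by
  unfold cR
  rw [phi_sub_comm σ y x]
  ring

lemma cR_swap23 (σ : ℝ) (x y z : E) : cR σ x z y = cR σ x y z := by
  unfold cR
  rw [phi_sub_comm σ z y]
  ring

lemma phi_eq_rpow (σ : ℝ) {v : E} : phi σ v = ‖v‖ ^ (-σ) := by
  unfold phi
  rw [← Real.rpow_natCast, ← Real.rpow_mul (norm_nonneg v)]
  congr 1
  push_cast
  ring

lemma pairCost_eq (σ : ℝ) {x y : E} (h : x ≠ y) :
    pairCost σ x y = ENNReal.ofReal (phi σ (x - y)) := by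
  unfold pairCost
  rw [phi_eq_rpow]
  exact ENNReal.ofReal_rpow_of_pos (norm_pos_iff.mpr (sub_ne_zero.mpr h))

lemma pairCost_self {σ : ℝ} (hσ : 0 < σ) (x : E) : pairCost σ x x = ⊤ := by
  unfold pairCost
  simp [ENNReal.zero_rpow_of_neg, hσ]

lemma tripleCost_eq {σ : ℝ} {x y z : E} (hxy : x ≠ y) (hxz : x ≠ z) (hyz : y ≠ z) :
    tripleCost σ (x, y, z) = ENNReal.ofReal (cR σ x y z) := by
  unfold tripleCost cR
  simp only
  rw [pairCost_eq σ hxy, pairCost_eq σ hxz, pairCost_eq σ hyz,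
    ENNReal.ofReal_add, ENNReal.ofReal_add]
  · exact (phi_pos σ (sub_ne_zero.mpr hxy)).le
  · exact (phi_pos σ (sub_ne_zero.mpr hxz)).le
  · exact add_nonneg (phi_pos σ (sub_ne_zero.mpr hxy)).le (phi_pos σ (sub_ne_zero.mpr hxz)).le
  · exact (phi_pos σ (sub_ne_zero.mpr hyz)).le

lemma tripleCost_top_of_eq12 {σ : ℝ} (hσ : 0 < σ) (x z : E) : tripleCost σ (x, x, z) = ⊤ := by
  unfold tripleCost
  simp [pairCost_self hσ]

lemma tripleCost_top_of_eq13 {σ : ℝ} (hσ : 0 < σ) (x y : E) : tripleCost σ (x, y, x) = ⊤ := by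
  unfold tripleCost
  simp [pairCost_self hσ]

lemma tripleCost_top_of_eq23 {σ : ℝ} (hσ : 0 < σ) (x y : E) : tripleCost σ (x, y, y) = ⊤ := by
  unfold tripleCost
  simp [pairCost_self hσ]

lemma pairCost_comm (σ : ℝ) (x y : E) : pairCost σ x y = pairCost σ y x := by
  unfold pairCost
  rw [norm_sub_rev]

lemma tripleCost_rot (σ : ℝ) (x y z : E) : tripleCost σ (y, z, x) = tripleCost σ (x, y, z) := by
  unfold tripleCost
  simp only
  rw [pairCost_comm σ y x, pairCost_comm σ z x]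
  ac_rfl

lemma tripleCost_swap23 (σ : ℝ) (x y z : E) : tripleCost σ (x, z, y) = tripleCost σ (x, y, z) := by
  unfold tripleCost
  simp only
  rw [pairCost_comm σ z y]
  ac_rfl

/-- monotonicity of the potential -/
lemma phi_ge_of_norm_le {σ : ℝ} (hσ : 0 < σ) {v : E} {a : ℝ} (hv : v ≠ 0) (h : ‖v‖ ≤ a) :
    a ^ (-σ) ≤ phi σ v := by
  rw [phi_eq_rpow]
  exact Real.rpow_le_rpow_of_nonpos (norm_pos_iff.mpr hv) h (by linarith)

lemma continuousAt_phi (σ : ℝ) {v : E} (hv : v ≠ 0) : ContinuousAt (phi σ) v := by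
  unfold phi
  apply ContinuousAt.rpow_const (by fun_prop)
  left
  positivity

/-- The lower bound of `phi` at distances at most three. -/
noncomputable def mm (σ : ℝ) : ℝ := (3 : ℝ) ^ (-σ)

lemma mm_pos (σ : ℝ) : 0 < mm σ := Real.rpow_pos_of_pos (by norm_num) _

lemma mm_le_one {σ : ℝ} (hσ : 0 < σ) : mm σ ≤ 1 := by
  unfold mm
  apply Real.rpow_le_one_of_one_le_of_nonpos (by norm_num) (by linarith)

/-- The value of the potential at the four outer base points. -/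
noncomputable def vv (σ : ℝ) : ℝ := mm σ / 2

/-- The cost of a base triple. -/
noncomputable def c0 (σ : ℝ) : ℝ := 2 + (2 : ℝ) ^ (-σ)

lemma c0_gt (σ : ℝ) : 2 < c0 σ := by
  unfold c0
  have : 0 < (2 : ℝ) ^ (-σ) := Real.rpow_pos_of_pos (by norm_num) _
  linarith

lemma cR_base {σ : ℝ} {q : E} (hq : ‖q‖ = 1) : cR σ 0 q (-q) = c0 σ := by
  unfold cR c0
  have e1 : phi σ ((0 : E) - q) = 1 := by
    rw [phi_eq_rpow, zero_sub, norm_neg, hq, Real.one_rpow]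
  have e2 : phi σ ((0 : E) - -q) = 1 := by
    rw [phi_eq_rpow, zero_sub, neg_neg, hq, Real.one_rpow]
  have e3 : phi σ (q - -q) = (2 : ℝ) ^ (-σ) := by
    rw [phi_eq_rpow, sub_neg_eq_add, ← two_smul ℝ q, norm_smul, hq]
    norm_num
  rw [e1, e2, e3]
  ring

/-- The potential on the central lump. -/
noncomputable def uP (σ : ℝ) (x : E) : ℝ := c0 σ - 2 * vv σ - (Lam σ / 2) * ‖x‖ ^ 2

/-- The potential on the lump around `q`. -/
noncomputable def uQ (σ : ℝ) (q y : E) : ℝ :=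
  vv σ + ⟪gq σ q, y - q⟫ - (Lam σ / 2) * ‖y - q‖ ^ 2

/-- The potential on the lump around `-q`, in the parameter `x`. -/
noncomputable def UR (σ : ℝ) (q : E) (η ζ : E → E) (x : E) : ℝ :=
  cR σ x (η x) (ζ x) - uP σ x - uQ σ q (η x)

lemma Fn_eq (σ : ℝ) (q x y z : E) :
    Fn σ (Lam σ) q (gq σ q) x y z = cR σ x y z - uP σ x - uQ σ q y + (c0 σ - vv σ) := by
  unfold Fn cR uP uQ
  ring

/-- The gap inequality on the pattern `(P, Q, R)`. -/
lemma pattern_PQR {σ : ℝ} (hσ : 0 < σ) {q : E} {η ζ : E → E} {w x' y' : E}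
    (hc : Crit σ (Lam σ) q (gq σ q) w (η w) (ζ w))
    (h1 : (1 / 2 : ℝ) ≤ ‖w - η w‖) (h2 : (1 / 2 : ℝ) ≤ ‖w - ζ w‖) (h3 : (1 / 2 : ℝ) ≤ ‖η w - ζ w‖)
    (hxy' : x' ≠ y') (hxz' : x' ≠ ζ w) (hyz' : y' ≠ ζ w) :
    uP σ x' + uQ σ q y' + UR σ q η ζ w
        + (σ * (2 : ℝ) ^ (σ + 2) / 2) * (‖x' - w‖ ^ 2 + ‖y' - η w‖ ^ 2)
      ≤ cR σ x' y' (ζ w) := by
  have hLb : ∀ v : E, (1 / 2 : ℝ) ≤ ‖v‖ → L σ v ≤ σ * (2 : ℝ) ^ (σ + 2) := by
    intro v hv
    unfold L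
    apply mul_le_mul_of_nonneg_left _ hσ.le
    have h0 : (1 / 4 : ℝ) ≤ ‖v‖ ^ 2 := by nlinarith
    have h4 : (‖v‖ ^ 2) ^ (-σ / 2 - 1) ≤ (1 / 4 : ℝ) ^ (-σ / 2 - 1) :=
      Real.rpow_le_rpow_of_nonpos (by norm_num) h0 (by linarith)
    refine h4.trans (le_of_eq ?_)
    have e1 : (1 / 4 : ℝ) = 2 ^ (-2 : ℝ) := by
      rw [Real.rpow_neg (by norm_num)]; norm_num
    rw [e1, ← Real.rpow_mul (by norm_num)]
    congr 1
    ring
  have ne1 : w ≠ η w := by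
    intro h; rw [← h] at h1; simp at h1; linarith
  have ne2 : w ≠ ζ w := by
    intro h; rw [← h] at h2; simp at h2; linarith
  have ne3 : η w ≠ ζ w := by
    intro h; rw [← h] at h3; simp at h3; linarith
  have key := contact (Lb := σ * (2 : ℝ) ^ (σ + 2)) hσ hc ne1 ne2 ne3 (hLb _ h1) (hLb _ h2)
    (hLb _ h3) hxy' hxz' hyz'
  rw [Fn_eq, Fn_eq] at key
  unfold UR
  have e : (Lam σ - 3 * (σ * (2 : ℝ) ^ (σ + 2))) / 2 = σ * (2 : ℝ) ^ (σ + 2) / 2 := by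
    unfold Lam; ring
  rw [e] at key
  linarith

section constants

/-- Choice of the constants `δ` and `τ`. -/
lemma exists_constants {σ : ℝ} (hσ : 0 < σ) :
    ∃ δ τ : ℝ, 0 < δ ∧ δ ≤ 1 / 8 ∧ 0 < τ ∧ τ ≤ vv σ / 2 ∧ τ ≤ 1 / 4 ∧
      3 * (c0 σ + 1) < (2 * δ) ^ (-σ) ∧
      c0 σ + 3 * τ < 2 * (1 + 2 * δ) ^ (-σ) + (Real.sqrt 2 + 2 * δ) ^ (-σ) := by
  have hs2 : 1 < Real.sqrt 2 := by
    have : (1 : ℝ) < 2 := by norm_num
    have h := Real.sqrt_lt_sqrt (by norm_num) this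
    simpa using h
  have hs2' : Real.sqrt 2 < 2 := by
    rw [Real.sqrt_lt' (by norm_num)]; norm_num
  set gap := (Real.sqrt 2) ^ (-σ) - (2 : ℝ) ^ (-σ) with hgap
  have hgap0 : 0 < gap := by
    have := Real.rpow_lt_rpow_of_neg (by linarith : 0 < Real.sqrt 2) hs2' (by linarith : -σ < 0)
    rw [hgap]; linarith
  have hv : 0 < vv σ := by unfold vv; have := mm_pos σ; linarith
  set τ := min (min (vv σ / 2) (1 / 4)) (gap / 12) with hτ
  have hτ0 : 0 < τ := by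
    rw [hτ]; positivity
  have hτ1 : τ ≤ vv σ / 2 := (min_le_left _ _).trans (min_le_left _ _)
  have hτ2 : τ ≤ 1 / 4 := (min_le_left _ _).trans (min_le_right _ _)
  have hτ3 : τ ≤ gap / 12 := min_le_right _ _
  -- continuity of the second condition
  let F : ℝ → ℝ := fun δ => 2 * (1 + 2 * δ) ^ (-σ) + (Real.sqrt 2 + 2 * δ) ^ (-σ)
  have hF : ContinuousAt F 0 := by
    apply ContinuousAt.add
    · apply ContinuousAt.mul continuousAt_const
      apply ContinuousAt.rpow_const (by fun_prop)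
      left; norm_num
    · apply ContinuousAt.rpow_const (by fun_prop)
      left; simp
  have hF0 : F 0 = 2 + (Real.sqrt 2) ^ (-σ) := by
    simp [F]
  have hev : ∀ᶠ δ in 𝓝 (0 : ℝ), F 0 - gap / 2 < F δ :=
    hF.eventually (lt_mem_nhds (by linarith))
  obtain ⟨a, ha0, ha⟩ := Metric.eventually_nhds_iff.mp hev
  -- the first condition
  set H := 3 * (c0 σ + 1) + 1 with hH
  have hH0 : 0 < H := by
    have := c0_gt σ
    rw [hH]; linarith
  set b := H ^ (-(1 / σ)) with hb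
  have hb0 : 0 < b := Real.rpow_pos_of_pos hH0 _
  set δ := min (min (a / 2) (1 / 8)) (b / 2) with hδ
  have hδ0 : 0 < δ := by
    rw [hδ]; positivity
  have hδ1 : δ < a := by
    have : δ ≤ a / 2 := (min_le_left _ _).trans (min_le_left _ _)
    linarith
  have hδ2 : δ ≤ 1 / 8 := (min_le_left _ _).trans (min_le_right _ _)
  have hδ3 : δ ≤ b / 2 := min_le_right _ _
  refine ⟨δ, τ, hδ0, hδ2, hτ0, hτ1, hτ2, ?_, ?_⟩
  · have h1 : b ^ (-σ) ≤ (2 * δ) ^ (-σ) :=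
      Real.rpow_le_rpow_of_nonpos (by positivity) (by linarith) (by linarith)
    have h2 : b ^ (-σ) = H := by
      rw [hb, ← Real.rpow_mul hH0.le]
      have : -(1 / σ) * -σ = 1 := by field_simp
      rw [this, Real.rpow_one]
    rw [h2] at h1
    linarith
  · have h1 := ha (y := δ) (by
      rw [Real.dist_eq, sub_zero, abs_of_pos hδ0]; exact hδ1)
    rw [hF0] at h1
    have e : c0 σ = 2 + (2 : ℝ) ^ (-σ) := rfl
    change _ < F δ
    rw [e]
    linarith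

end constants

section isometry

variable (σ : ℝ) (R : E ≃ₗᵢ[ℝ] E)

lemma phi_map (v : E) : phi σ (R v) = phi σ v := by
  unfold phi; rw [R.norm_map]

lemma cR_map (x y z : E) : cR σ (R x) (R y) (R z) = cR σ x y z := by
  unfold cR
  rw [← map_sub, ← map_sub, ← map_sub, phi_map, phi_map, phi_map]

lemma uP_map (x : E) : uP σ (R x) = uP σ x := by
  unfold uP; rw [R.norm_map]

end isometry

/-- All the data of the construction, with the closeness properties at scale `δ`. -/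
structure Setup (σ : ℝ) (q q' : E) (R : E ≃ₗᵢ[ℝ] E) (η ζ ηi ζi : E → E) (ε δ τ : ℝ) : Prop where
  hσ : 0 < σ
  hq : ‖q‖ = 1
  hq' : ‖q'‖ = 1
  horth : ⟪q, q'⟫ = 0
  hR : R q = q'
  hε : 0 < ε
  hδ : 0 < δ
  hδ8 : δ ≤ 1 / 8
  hτ : 0 < τ
  hτv : τ ≤ vv σ / 2
  hτ4 : τ ≤ 1 / 4
  hHuge : 3 * (c0 σ + 1) < (2 * δ) ^ (-σ)
  hmid : c0 σ + 3 * τ < 2 * (1 + 2 * δ) ^ (-σ) + (Real.sqrt 2 + 2 * δ) ^ (-σ)
  dη : LocalDiffeo η ηi (Metric.ball 0 ε) (η '' Metric.ball 0 ε)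
  dζ : LocalDiffeo ζ ζi (Metric.ball 0 ε) (ζ '' Metric.ball 0 ε)
  crit : ∀ x ∈ Metric.ball (0 : E) ε, Crit σ (Lam σ) q (gq σ q) x (η x) (ζ x)
  near0 : ∀ x ∈ Metric.ball (0 : E) ε, ‖x‖ < δ
  nearη : ∀ x ∈ Metric.ball (0 : E) ε, ‖η x - q‖ < δ
  nearζ : ∀ x ∈ Metric.ball (0 : E) ε, ‖ζ x + q‖ < δ
  valP : ∀ x ∈ Metric.ball (0 : E) ε, |uP σ x - (c0 σ - 2 * vv σ)| ≤ τ
  valQ : ∀ x ∈ Metric.ball (0 : E) ε, |uQ σ q (η x) - vv σ| ≤ τ
  valR : ∀ x ∈ Metric.ball (0 : E) ε, |UR σ q η ζ x - vv σ| ≤ τ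

/-- The rotated map. -/
noncomputable def rot (R : E ≃ₗᵢ[ℝ] E) (f : E → E) (x : E) : E := R (f (R.symm x))

/-- The dual potential. -/
noncomputable def uu (σ : ℝ) (q : E) (R : E ≃ₗᵢ[ℝ] E) (η ζ ζi : E → E) (ε : ℝ) (x : E) : ℝ := by
  classical
  exact
  if x ∈ Metric.ball (0 : E) ε then uP σ x
  else if x ∈ η '' Metric.ball (0 : E) ε then uQ σ q x
  else if x ∈ ζ '' Metric.ball (0 : E) ε then UR σ q η ζ (ζi x)
  else if x ∈ rot R η '' Metric.ball (0 : E) ε then uQ σ q (R.symm x)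
  else if x ∈ rot R ζ '' Metric.ball (0 : E) ε then UR σ q η ζ (ζi (R.symm x))
  else 0

namespace Setup

variable {σ : ℝ} {q q' : E} {R : E ≃ₗᵢ[ℝ] E} {η ζ ηi ζi : E → E} {ε δ τ : ℝ}

local notation "BB" => Metric.ball (0 : E) ε

section
variable (S : Setup σ q q' R η ζ ηi ζi ε δ τ)
include S

lemma norm_qq' : ‖q - q'‖ = Real.sqrt 2 := by
  have h : ‖q - q'‖ ^ 2 = 2 := by
    rw [norm_sub_sq_real, S.hq, S.hq', S.horth]; norm_num
  rw [← h, Real.sqrt_sq (norm_nonneg _)]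

lemma norm_qq'_add : ‖q + q'‖ = Real.sqrt 2 := by
  have h : ‖q + q'‖ ^ 2 = 2 := by
    rw [norm_add_sq_real, S.hq, S.hq', S.horth]; norm_num
  rw [← h, Real.sqrt_sq (norm_nonneg _)]

lemma hRsymm : R.symm q' = q := by
  rw [← S.hR]; simp

lemma rot_near_η {x : E} (hx : x ∈ BB) : ‖rot R η x - q'‖ < δ := by
  have hx' : R.symm x ∈ BB := by simpa using hx
  have := S.nearη _ hx'
  unfold rot
  rw [← S.hR, ← map_sub, R.norm_map]
  exact this

lemma rot_near_ζ {x : E} (hx : x ∈ BB) : ‖rot R ζ x + q'‖ < δ := by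
  have hx' : R.symm x ∈ BB := by simpa using hx
  have := S.nearζ _ hx'
  unfold rot
  rw [← S.hR, ← map_add, R.norm_map]
  exact this

lemma sym_mem {x : E} (hx : x ∈ BB) : R.symm x ∈ BB := by simpa using hx

/-- Two different base points at distance at least one cannot both be `δ`-close to a point. -/
lemma sep {x a b : E} (h1 : ‖x - a‖ < δ) (h2 : ‖x - b‖ < δ) (hab : 1 ≤ ‖a - b‖) : False := by
  have h3 : ‖a - b‖ ≤ ‖x - a‖ + ‖x - b‖ := by
    have : a - b = (x - b) - (x - a) := by abel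
    rw [this]
    exact (norm_sub_le _ _).trans (by rw [add_comm])
  have := S.hδ8
  linarith

lemma one_le_sqrt : (1 : ℝ) ≤ Real.sqrt 2 := by
  rw [Real.le_sqrt' (by norm_num)]; norm_num

/-- Closeness description of the five lumps. -/
lemma near_P {x : E} (hx : x ∈ BB) : ‖x - 0‖ < δ := by
  simpa using S.near0 x hx

lemma near_Q {y : E} (hy : y ∈ η '' BB) : ‖y - q‖ < δ := by
  obtain ⟨x, hx, rfl⟩ := hy
  exact S.nearη x hx

lemma near_R {y : E} (hy : y ∈ ζ '' BB) : ‖y - (-q)‖ < δ := by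
  obtain ⟨x, hx, rfl⟩ := hy
  simpa using S.nearζ x hx

lemma near_S {y : E} (hy : y ∈ rot R η '' BB) : ‖y - q'‖ < δ := by
  obtain ⟨x, hx, rfl⟩ := hy
  exact S.rot_near_η hx

lemma near_T {y : E} (hy : y ∈ rot R ζ '' BB) : ‖y - (-q')‖ < δ := by
  obtain ⟨x, hx, rfl⟩ := hy
  simpa using S.rot_near_ζ hx

lemma dist_0_q : 1 ≤ ‖(0 : E) - q‖ := by simp [S.hq]
lemma dist_0_nq : 1 ≤ ‖(0 : E) - (-q)‖ := by simp [S.hq]
lemma dist_0_q' : 1 ≤ ‖(0 : E) - q'‖ := by simp [S.hq']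
lemma dist_0_nq' : 1 ≤ ‖(0 : E) - (-q')‖ := by simp [S.hq']
lemma dist_q_nq : 1 ≤ ‖q - (-q)‖ := by
  rw [sub_neg_eq_add, ← two_smul ℝ q, norm_smul, S.hq]; norm_num
lemma dist_q_q' : 1 ≤ ‖q - q'‖ := by rw [S.norm_qq']; exact S.one_le_sqrt
lemma dist_q_nq' : 1 ≤ ‖q - (-q')‖ := by
  rw [sub_neg_eq_add, S.norm_qq'_add]; exact S.one_le_sqrt
lemma dist_nq_q' : 1 ≤ ‖(-q) - q'‖ := by
  have : (-q) - q' = -(q + q') := by abel
  rw [this, norm_neg, S.norm_qq'_add]; exact S.one_le_sqrt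
lemma dist_nq_nq' : 1 ≤ ‖(-q) - (-q')‖ := by
  have : (-q) - (-q') = -(q - q') := by abel
  rw [this, norm_neg, S.norm_qq']; exact S.one_le_sqrt
lemma dist_q'_nq' : 1 ≤ ‖q' - (-q')‖ := by
  rw [sub_neg_eq_add, ← two_smul ℝ q', norm_smul, S.hq']; norm_num

/-! ### Values of `uu` on the lumps -/

lemma uu_P {x : E} (hx : x ∈ BB) : uu σ q R η ζ ζi ε x = uP σ x := by
  unfold uu; simp [hx]

lemma uu_Q {y : E} (hy : y ∈ η '' BB) : uu σ q R η ζ ζi ε y = uQ σ q y := by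
  have h0 : y ∉ BB := fun h => S.sep (S.near_P h) (S.near_Q hy) S.dist_0_q
  unfold uu; simp [h0, hy]

lemma uu_R {y : E} (hy : y ∈ ζ '' BB) : uu σ q R η ζ ζi ε y = UR σ q η ζ (ζi y) := by
  have h0 : y ∉ BB := fun h => S.sep (S.near_P h) (S.near_R hy) S.dist_0_nq
  have h1 : y ∉ η '' BB := fun h => S.sep (S.near_Q h) (S.near_R hy) S.dist_q_nq
  unfold uu; simp only [h0, h1, hy, if_true, if_false]

lemma uu_S {y : E} (hy : y ∈ rot R η '' BB) : uu σ q R η ζ ζi ε y = uQ σ q (R.symm y) := by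
  have h0 : y ∉ BB := fun h => S.sep (S.near_P h) (S.near_S hy) S.dist_0_q'
  have h1 : y ∉ η '' BB := fun h => S.sep (S.near_Q h) (S.near_S hy) S.dist_q_q'
  have h2 : y ∉ ζ '' BB := fun h => S.sep (S.near_R h) (S.near_S hy) S.dist_nq_q'
  unfold uu; simp only [h0, h1, h2, hy, if_true, if_false]

lemma uu_T {y : E} (hy : y ∈ rot R ζ '' BB) :
    uu σ q R η ζ ζi ε y = UR σ q η ζ (ζi (R.symm y)) := by
  have h0 : y ∉ BB := fun h => S.sep (S.near_P h) (S.near_T hy) S.dist_0_nq'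
  have h1 : y ∉ η '' BB := fun h => S.sep (S.near_Q h) (S.near_T hy) S.dist_q_nq'
  have h2 : y ∉ ζ '' BB := fun h => S.sep (S.near_R h) (S.near_T hy) S.dist_nq_nq'
  have h3 : y ∉ rot R η '' BB := fun h => S.sep (S.near_S h) (S.near_T hy) S.dist_q'_nq'
  unfold uu; simp only [h0, h1, h2, h3, hy, if_true, if_false]

lemma left_ζ {x : E} (hx : x ∈ BB) : ζi (ζ x) = x := S.dζ.left x hx
lemma left_η {x : E} (hx : x ∈ BB) : ηi (η x) = x := S.dη.left x hx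

lemma rot_sym_η (x : E) : R.symm (rot R η x) = η (R.symm x) := by simp [rot]
lemma rot_sym_ζ (x : E) : R.symm (rot R ζ x) = ζ (R.symm x) := by simp [rot]

/-- Outer lumps as a predicate. -/
def Outer (_S : Setup σ q q' R η ζ ηi ζi ε δ τ) (y : E) : Prop :=
  y ∈ η '' BB ∨ y ∈ ζ '' BB ∨ y ∈ rot R η '' BB ∨ y ∈ rot R ζ '' BB

omit S in
lemma vv_pos (σ : ℝ) : 0 < vv σ := by unfold vv; have := mm_pos σ; linarith

lemma bounds_P {x : E} (hx : x ∈ BB) :
    c0 σ - 2 * vv σ - τ ≤ uu σ q R η ζ ζi ε x ∧ uu σ q R η ζ ζi ε x ≤ c0 σ - 2 * vv σ + τ := by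
  rw [S.uu_P hx]
  have := abs_le.mp (S.valP x hx)
  constructor <;> linarith [this.1, this.2]

lemma bounds_Outer {y : E} (hy : S.Outer y) :
    vv σ - τ ≤ uu σ q R η ζ ζi ε y ∧ uu σ q R η ζ ζi ε y ≤ vv σ + τ := by
  have key : ∀ t, |t - vv σ| ≤ τ → vv σ - τ ≤ t ∧ t ≤ vv σ + τ := by
    intro t ht
    have := abs_le.mp ht
    constructor <;> linarith [this.1, this.2]
  rcases hy with h | h | h | h
  · rw [S.uu_Q h]
    obtain ⟨x, hx, rfl⟩ := h
    exact key _ (S.valQ x hx)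
  · rw [S.uu_R h]
    obtain ⟨x, hx, rfl⟩ := h
    rw [S.left_ζ hx]
    exact key _ (S.valR x hx)
  · rw [S.uu_S h]
    obtain ⟨x, hx, rfl⟩ := h
    rw [S.rot_sym_η]
    exact key _ (S.valQ _ (S.sym_mem hx))
  · rw [S.uu_T h]
    obtain ⟨x, hx, rfl⟩ := h
    rw [S.rot_sym_ζ, S.left_ζ (S.sym_mem hx)]
    exact key _ (S.valR _ (S.sym_mem hx))

lemma vv_lt : vv σ ≤ 1 / 2 := by
  have := mm_le_one S.hσ
  unfold vv; linarith

/-- `K` is the union of the five lumps. -/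
def KK (_S : Setup σ q q' R η ζ ηi ζi ε δ τ) : Set E :=
  BB ∪ (η '' BB ∪ (ζ '' BB ∪ (rot R η '' BB ∪ rot R ζ '' BB)))

lemma mem_KK {x : E} : x ∈ S.KK ↔ x ∈ BB ∨ S.Outer x := by
  simp [KK, Outer]

lemma uu_nonneg {x : E} (hx : x ∈ S.KK) : 0 ≤ uu σ q R η ζ ζi ε x := by
  have hv := vv_pos σ
  have hτv := S.hτv
  have h2 := c0_gt σ
  have h1 := S.vv_lt
  have hτ4 := S.hτ4
  rcases S.mem_KK.mp hx with h | h
  · have := (S.bounds_P h).1
    linarith
  · have := (S.bounds_Outer h).1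
    linarith

lemma uu_le {x : E} (hx : x ∈ S.KK) : uu σ q R η ζ ζi ε x ≤ c0 σ + 1 := by
  have hv := vv_pos σ
  have hτ4 := S.hτ4
  have h2 := c0_gt σ
  have h1 := S.vv_lt
  rcases S.mem_KK.mp hx with h | h
  · have := (S.bounds_P h).2
    linarith
  · have := (S.bounds_Outer h).2
    linarith

/-- Norm of an outer point. -/
lemma outer_norm {y : E} (hy : S.Outer y) : ‖y‖ ≤ 1 + δ ∧ 1 - δ ≤ ‖y‖ := by
  have key : ∀ b : E, ‖b‖ = 1 → ‖y - b‖ < δ → ‖y‖ ≤ 1 + δ ∧ 1 - δ ≤ ‖y‖ := by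
    intro b hb h
    have h1 : ‖y‖ ≤ ‖y - b‖ + ‖b‖ := by
      have := norm_add_le (y - b) b
      simpa using this
    have h2 : ‖b‖ ≤ ‖y - b‖ + ‖y‖ := by
      have := norm_sub_le (y - b) y
      have e : y - b - y = -b := by abel
      rw [e, norm_neg] at this
      exact this
    constructor <;> linarith
  rcases hy with h | h | h | h
  · exact key q S.hq (S.near_Q h)
  · exact key (-q) (by simp [S.hq]) (S.near_R h)
  · exact key q' S.hq' (S.near_S h)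
  · exact key (-q') (by simp [S.hq']) (S.near_T h)

/-- Huge cost when two points are `2δ`-close. -/
lemma huge {σ' : ℝ} (hσ' : σ' = σ) {a b c : E} (ha : a ≠ b) (hac : a ≠ c) (hbc : b ≠ c)
    (h : ‖a - b‖ ≤ 2 * δ) : 3 * (c0 σ + 1) < cR σ a b c := by
  subst hσ'
  have h1 := phi_ge_of_norm_le S.hσ (sub_ne_zero.mpr ha) h
  have h2 := phi_pos σ' (sub_ne_zero.mpr hac)
  have h3 := phi_pos σ' (sub_ne_zero.mpr hbc)
  have := S.hHuge
  unfold cR
  linarith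

end

end Setup

namespace Setup

variable {σ : ℝ} {q q' : E} {R : E ≃ₗᵢ[ℝ] E} {η ζ ηi ζi : E → E} {ε δ τ : ℝ}

local notation "BB" => Metric.ball (0 : E) ε

section
variable (S : Setup σ q q' R η ζ ηi ζi ε δ τ)
include S

lemma far_of_near {x a b y : E} (h1 : ‖x - a‖ < δ) (h2 : ‖y - b‖ < δ) (hab : 1 ≤ ‖a - b‖) :
    (1 / 2 : ℝ) ≤ ‖x - y‖ := by
  have h3 : ‖a - b‖ ≤ ‖x - y‖ + ‖x - a‖ + ‖y - b‖ := by
    have e : a - b = (x - y) - (x - a) + (y - b) := by abel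
    rw [e]
    refine (norm_add_le _ _).trans ?_
    have := norm_sub_le (x - y) (x - a)
    linarith
  have := S.hδ8
  linarith

lemma ne_of_near {x a b y : E} (h1 : ‖x - a‖ < δ) (h2 : ‖y - b‖ < δ) (hab : 1 ≤ ‖a - b‖) :
    x ≠ y := by
  intro h
  have := S.far_of_near h1 h2 hab
  rw [h] at this
  simp at this
  linarith

/-- The basic contact lemma for the first branch. -/
lemma contact_QR {x y z : E} (hx : x ∈ BB) (hy : y ∈ η '' BB) (hz : z ∈ ζ '' BB) :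
    uP σ x + uQ σ q y + UR σ q η ζ (ζi z) ≤ cR σ x y z ∧
      (uP σ x + uQ σ q y + UR σ q η ζ (ζi z) = cR σ x y z → y = η x ∧ z = ζ x) := by
  obtain ⟨w, hw, rfl⟩ := hz
  rw [S.left_ζ hw]
  have n0 : ‖w - 0‖ < δ := S.near_P hw
  have nη : ‖η w - q‖ < δ := S.nearη w hw
  have nζ : ‖ζ w - (-q)‖ < δ := S.near_R ⟨w, hw, rfl⟩
  have n0x : ‖x - 0‖ < δ := S.near_P hx
  have nyq : ‖y - q‖ < δ := S.near_Q hy
  have key := pattern_PQR S.hσ (S.crit w hw)
    (S.far_of_near n0 nη S.dist_0_q) (S.far_of_near n0 nζ S.dist_0_nq)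
    (S.far_of_near nη nζ S.dist_q_nq)
    (S.ne_of_near n0x nyq S.dist_0_q) (S.ne_of_near n0x nζ S.dist_0_nq)
    (S.ne_of_near nyq nζ S.dist_q_nq)
  have hσ := S.hσ
  have hc : 0 < σ * (2 : ℝ) ^ (σ + 2) / 2 := by positivity
  have hn : 0 ≤ ‖x - w‖ ^ 2 + ‖y - η w‖ ^ 2 := by positivity
  constructor
  · nlinarith [mul_nonneg hc.le hn]
  · intro h
    have h1 : (σ * (2 : ℝ) ^ (σ + 2) / 2) * (‖x - w‖ ^ 2 + ‖y - η w‖ ^ 2) ≤ 0 := by linarith
    have h2 : ‖x - w‖ ^ 2 + ‖y - η w‖ ^ 2 ≤ 0 := by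
      by_contra hcon
      have := mul_pos hc (not_le.mp hcon)
      linarith
    have h3 : ‖x - w‖ = 0 := by nlinarith [norm_nonneg (x - w), sq_nonneg ‖y - η w‖]
    have h4 : ‖y - η w‖ = 0 := by nlinarith [norm_nonneg (y - η w), sq_nonneg ‖x - w‖]
    have e1 : x = w := sub_eq_zero.mp (norm_eq_zero.mp h3)
    have e2 : y = η w := sub_eq_zero.mp (norm_eq_zero.mp h4)
    subst e1
    exact ⟨e2, rfl⟩

/-- The contact lemma for the second branch. -/
lemma contact_ST {x y z : E} (hx : x ∈ BB) (hy : y ∈ rot R η '' BB) (hz : z ∈ rot R ζ '' BB) :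
    uP σ x + uQ σ q (R.symm y) + UR σ q η ζ (ζi (R.symm z)) ≤ cR σ x y z ∧
      (uP σ x + uQ σ q (R.symm y) + UR σ q η ζ (ζi (R.symm z)) = cR σ x y z →
        y = rot R η x ∧ z = rot R ζ x) := by
  have hy' : R.symm y ∈ η '' BB := by
    obtain ⟨w, hw, rfl⟩ := hy
    exact ⟨R.symm w, S.sym_mem hw, (S.rot_sym_η w).symm⟩
  have hz' : R.symm z ∈ ζ '' BB := by
    obtain ⟨w, hw, rfl⟩ := hz
    exact ⟨R.symm w, S.sym_mem hw, (S.rot_sym_ζ w).symm⟩
  have key := S.contact_QR (S.sym_mem hx) hy' hz'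
  rw [uP_map, cR_map] at key
  refine ⟨key.1, fun h => ?_⟩
  obtain ⟨e1, e2⟩ := key.2 h
  constructor
  · have := congrArg R e1
    simpa [rot] using this
  · have := congrArg R e2
    simpa [rot] using this

lemma dist_bound {y z a b : E} {c : ℝ} (h1 : ‖y - a‖ < δ) (h2 : ‖z - b‖ < δ) (h3 : ‖a - b‖ = c) :
    ‖y - z‖ ≤ c + 2 * δ := by
  have e : y - z = (y - a) + (a - b) - (z - b) := by abel
  rw [e]
  refine (norm_sub_le _ _).trans ?_
  have := norm_add_le (y - a) (a - b)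
  linarith

/-- Mixed outer pairs are strictly not optimal. -/
lemma mixed {x y z : E} (hx : x ∈ BB) (hy : S.Outer y) (hz : S.Outer z)
    (hd : ‖y - z‖ ≤ Real.sqrt 2 + 2 * δ) (hyz : y ≠ z) :
    uu σ q R η ζ ζi ε x + uu σ q R η ζ ζi ε y + uu σ q R η ζ ζi ε z < cR σ x y z := by
  have hσ := S.hσ
  have nx : ‖x‖ < δ := S.near0 x hx
  have ny := S.outer_norm hy
  have nz := S.outer_norm hz
  have hδ8 := S.hδ8
  have hδ := S.hδ
  have bx := (S.bounds_P hx).2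
  have byy := (S.bounds_Outer hy).2
  have bz := (S.bounds_Outer hz).2
  have hxy : x ≠ y := by
    intro h; rw [h] at nx; linarith [ny.2]
  have hxz : x ≠ z := by
    intro h; rw [h] at nx; linarith [nz.2]
  have d1 : ‖x - y‖ ≤ 1 + 2 * δ := (norm_sub_le _ _).trans (by linarith [ny.1])
  have d2 : ‖x - z‖ ≤ 1 + 2 * δ := (norm_sub_le _ _).trans (by linarith [nz.1])
  have p1 := phi_ge_of_norm_le hσ (sub_ne_zero.mpr hxy) d1
  have p2 := phi_ge_of_norm_le hσ (sub_ne_zero.mpr hxz) d2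
  have p3 := phi_ge_of_norm_le hσ (sub_ne_zero.mpr hyz) hd
  have hm := S.hmid
  unfold cR
  linarith

omit S in
lemma cR_rot' (σ : ℝ) (x y z : E) : cR σ y z x = cR σ x y z := by
  unfold cR
  rw [phi_sub_comm σ y x, phi_sub_comm σ z x]
  ring

/-- Three points, two of them `2δ`-close. -/
lemma sum_lt_of_close {x y z : E} (hx : x ∈ S.KK) (hy : y ∈ S.KK) (hz : z ∈ S.KK)
    (hxy : x ≠ y) (hxz : x ≠ z) (hyz : y ≠ z) (h : ‖x - y‖ ≤ 2 * δ) :
    uu σ q R η ζ ζi ε x + uu σ q R η ζ ζi ε y + uu σ q R η ζ ζi ε z < cR σ x y z := by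
  have := S.huge rfl hxy hxz hyz h
  have h1 := S.uu_le hx
  have h2 := S.uu_le hy
  have h3 := S.uu_le hz
  linarith

/-- The branch relation. -/
def IsBranch (_S : Setup σ q q' R η ζ ηi ζi ε δ τ) (x y z : E) : Prop :=
  (y = η x ∧ z = ζ x) ∨ (y = ζ x ∧ z = η x) ∨ (y = rot R η x ∧ z = rot R ζ x) ∨
    (y = rot R ζ x ∧ z = rot R η x)

lemma outer_of_notP {y : E} (hy : y ∈ S.KK) (h : y ∉ BB) : S.Outer y :=
  (S.mem_KK.mp hy).resolve_left h

/-- The main pattern analysis when the first point lies in the central lump. -/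
lemma pattern_P {x y z : E} (hx : x ∈ BB) (hy : y ∈ S.KK) (hz : z ∈ S.KK)
    (hxy : x ≠ y) (hxz : x ≠ z) (hyz : y ≠ z) :
    uu σ q R η ζ ζi ε x + uu σ q R η ζ ζi ε y + uu σ q R η ζ ζi ε z ≤ cR σ x y z ∧
      (uu σ q R η ζ ζi ε x + uu σ q R η ζ ζi ε y + uu σ q R η ζ ζi ε z = cR σ x y z →
        S.IsBranch x y z) := by
  have hxK : x ∈ S.KK := S.mem_KK.mpr (Or.inl hx)
  have strict : uu σ q R η ζ ζi ε x + uu σ q R η ζ ζi ε y + uu σ q R η ζ ζi ε z < cR σ x y z →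
      uu σ q R η ζ ζi ε x + uu σ q R η ζ ζi ε y + uu σ q R η ζ ζi ε z ≤ cR σ x y z ∧
      (uu σ q R η ζ ζi ε x + uu σ q R η ζ ζi ε y + uu σ q R η ζ ζi ε z = cR σ x y z →
        S.IsBranch x y z) := fun h => ⟨h.le, fun h' => absurd h' h.ne⟩
  by_cases hyP : y ∈ BB
  · apply strict
    apply S.sum_lt_of_close hxK hy hz hxy hxz hyz
    have h1 := S.near0 x hx
    have h2 := S.near0 y hyP
    exact (norm_sub_le _ _).trans (by linarith)
  by_cases hzP : z ∈ BB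
  · apply strict
    have := S.sum_lt_of_close hxK hz hy hxz hxy hyz.symm (by
      have h1 := S.near0 x hx
      have h2 := S.near0 z hzP
      exact (norm_sub_le _ _).trans (by linarith))
    rw [cR_swap23] at this
    linarith
  have hyO := S.outer_of_notP hy hyP
  have hzO := S.outer_of_notP hz hzP
  -- close outer pair
  have close : ‖y - z‖ ≤ 2 * δ →
      uu σ q R η ζ ζi ε x + uu σ q R η ζ ζi ε y + uu σ q R η ζ ζi ε z < cR σ x y z := by
    intro h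
    have := S.sum_lt_of_close hy hz hxK hyz hxy.symm hxz.symm h
    rw [cR_rot' σ x y z] at this
    linarith
  have close' : ∀ {b : E}, ‖y - b‖ < δ → ‖z - b‖ < δ → ‖y - z‖ ≤ 2 * δ := by
    intro b h1 h2
    have e : y - z = (y - b) - (z - b) := by abel
    rw [e]
    exact (norm_sub_le _ _).trans (by linarith)
  have s2 := S.norm_qq'
  have s3 := S.norm_qq'_add
  have s4 : ‖q - (-q')‖ = Real.sqrt 2 := by rw [sub_neg_eq_add]; exact s3
  have s5 : ‖(-q) - q'‖ = Real.sqrt 2 := by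
    have : (-q) - q' = -(q + q') := by abel
    rw [this, norm_neg]; exact s3
  have s6 : ‖(-q) - (-q')‖ = Real.sqrt 2 := by
    have : (-q) - (-q') = -(q - q') := by abel
    rw [this, norm_neg]; exact s2
  have s7 : ‖q' - q‖ = Real.sqrt 2 := by rw [norm_sub_rev]; exact s2
  have s8 : ‖q' - (-q)‖ = Real.sqrt 2 := by rw [norm_sub_rev]; exact s5
  have s9 : ‖(-q') - q‖ = Real.sqrt 2 := by rw [norm_sub_rev]; exact s4
  have s10 : ‖(-q') - (-q)‖ = Real.sqrt 2 := by rw [norm_sub_rev]; exact s6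
  rcases hy' : hyO with h1 | h1 | h1 | h1 <;> rcases hz' : hzO with h2 | h2 | h2 | h2
  -- Q Q
  · exact strict (close (close' (S.near_Q h1) (S.near_Q h2)))
  -- Q R
  · rw [S.uu_P hx, S.uu_Q h1, S.uu_R h2]
    obtain ⟨a, b⟩ := S.contact_QR hx h1 h2
    exact ⟨a, fun h => Or.inl (b h)⟩
  -- Q S
  · exact strict (S.mixed hx hyO hzO (S.dist_bound (S.near_Q h1) (S.near_S h2) s2) hyz)
  -- Q T
  · exact strict (S.mixed hx hyO hzO (S.dist_bound (S.near_Q h1) (S.near_T h2) s4) hyz)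
  -- R Q
  · rw [S.uu_P hx, S.uu_R h1, S.uu_Q h2, cR_swap23 σ x z y]
    obtain ⟨a, b⟩ := S.contact_QR hx h2 h1
    refine ⟨by linarith, fun h => ?_⟩
    have := b (by linarith)
    exact Or.inr (Or.inl ⟨this.2, this.1⟩)
  -- R R
  · exact strict (close (close' (S.near_R h1) (S.near_R h2)))
  -- R S
  · exact strict (S.mixed hx hyO hzO (S.dist_bound (S.near_R h1) (S.near_S h2) s5) hyz)
  -- R T
  · exact strict (S.mixed hx hyO hzO (S.dist_bound (S.near_R h1) (S.near_T h2) s6) hyz)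
  -- S Q
  · exact strict (S.mixed hx hyO hzO (S.dist_bound (S.near_S h1) (S.near_Q h2) s7) hyz)
  -- S R
  · exact strict (S.mixed hx hyO hzO (S.dist_bound (S.near_S h1) (S.near_R h2) s8) hyz)
  -- S S
  · exact strict (close (close' (S.near_S h1) (S.near_S h2)))
  -- S T
  · rw [S.uu_P hx, S.uu_S h1, S.uu_T h2]
    obtain ⟨a, b⟩ := S.contact_ST hx h1 h2
    exact ⟨a, fun h => Or.inr (Or.inr (Or.inl (b h)))⟩
  -- T Q
  · exact strict (S.mixed hx hyO hzO (S.dist_bound (S.near_T h1) (S.near_Q h2) s9) hyz)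
  -- T R
  · exact strict (S.mixed hx hyO hzO (S.dist_bound (S.near_T h1) (S.near_R h2) s10) hyz)
  -- T S
  · rw [S.uu_P hx, S.uu_T h1, S.uu_S h2, cR_swap23 σ x z y]
    obtain ⟨a, b⟩ := S.contact_ST hx h2 h1
    refine ⟨by linarith, fun h => ?_⟩
    have := b (by linarith)
    exact Or.inr (Or.inr (Or.inr ⟨this.2, this.1⟩))
  -- T T
  · exact strict (close (close' (S.near_T h1) (S.near_T h2)))

/-- No point in the central lump. -/
lemma pattern_outer {x y z : E} (hx : S.Outer x) (hy : S.Outer y) (hz : S.Outer z)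
    (hxy : x ≠ y) (hxz : x ≠ z) (hyz : y ≠ z) :
    uu σ q R η ζ ζi ε x + uu σ q R η ζ ζi ε y + uu σ q R η ζ ζi ε z ≤ cR σ x y z := by
  have hσ := S.hσ
  have nx := (S.outer_norm hx).1
  have ny := (S.outer_norm hy).1
  have nz := (S.outer_norm hz).1
  have hδ8 := S.hδ8
  have d1 : ‖x - y‖ ≤ 3 := (norm_sub_le _ _).trans (by linarith)
  have d2 : ‖x - z‖ ≤ 3 := (norm_sub_le _ _).trans (by linarith)
  have d3 : ‖y - z‖ ≤ 3 := (norm_sub_le _ _).trans (by linarith)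
  have p1 := phi_ge_of_norm_le hσ (sub_ne_zero.mpr hxy) d1
  have p2 := phi_ge_of_norm_le hσ (sub_ne_zero.mpr hxz) d2
  have p3 := phi_ge_of_norm_le hσ (sub_ne_zero.mpr hyz) d3
  have b1 := (S.bounds_Outer hx).2
  have b2 := (S.bounds_Outer hy).2
  have b3 := (S.bounds_Outer hz).2
  have hτ := S.hτv
  have hm : (3 : ℝ) ^ (-σ) = mm σ := rfl
  rw [hm] at p1 p2 p3
  have hv : vv σ = mm σ / 2 := rfl
  have hm0 := mm_pos σ
  unfold cR
  linarith

/-- The dual inequality on all triples in `K`. -/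
lemma ineq_real {x y z : E} (hx : x ∈ S.KK) (hy : y ∈ S.KK) (hz : z ∈ S.KK)
    (hxy : x ≠ y) (hxz : x ≠ z) (hyz : y ≠ z) :
    uu σ q R η ζ ζi ε x + uu σ q R η ζ ζi ε y + uu σ q R η ζ ζi ε z ≤ cR σ x y z := by
  by_cases hxP : x ∈ BB
  · exact (S.pattern_P hxP hy hz hxy hxz hyz).1
  by_cases hyP : y ∈ BB
  · have := (S.pattern_P hyP hx hz hxy.symm hyz hxz).1
    rw [cR_swap12] at this
    linarith
  by_cases hzP : z ∈ BB
  · have := (S.pattern_P hzP hx hy hxz.symm hyz.symm hxy).1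
    rw [cR_rot' σ y z x, cR_rot' σ x y z] at this
    linarith
  exact S.pattern_outer (S.outer_of_notP hx hxP) (S.outer_of_notP hy hyP) (S.outer_of_notP hz hzP)
    hxy hxz hyz

/-- The ENNReal form of the dual inequality. -/
lemma ineq_enn {x y z : E} (hx : x ∈ S.KK) (hy : y ∈ S.KK) (hz : z ∈ S.KK) :
    ENNReal.ofReal (uu σ q R η ζ ζi ε x) + ENNReal.ofReal (uu σ q R η ζ ζi ε y)
      + ENNReal.ofReal (uu σ q R η ζ ζi ε z) ≤ tripleCost σ (x, y, z) := by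
  have hσ := S.hσ
  by_cases hxy : x = y
  · subst hxy; rw [tripleCost_top_of_eq12 hσ]; exact le_top
  by_cases hxz : x = z
  · subst hxz; rw [tripleCost_top_of_eq13 hσ]; exact le_top
  by_cases hyz : y = z
  · subst hyz; rw [tripleCost_top_of_eq23 hσ]; exact le_top
  rw [tripleCost_eq hxy hxz hyz, ← ENNReal.ofReal_add (S.uu_nonneg hx) (S.uu_nonneg hy),
    ← ENNReal.ofReal_add (add_nonneg (S.uu_nonneg hx) (S.uu_nonneg hy)) (S.uu_nonneg hz)]
  exact ENNReal.ofReal_le_ofReal (S.ineq_real hx hy hz hxy hxz hyz)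

/-- Rigidity in the ENNReal form. -/
lemma rigid_enn {x y z : E} (hx : x ∈ BB) (hy : y ∈ S.KK) (hz : z ∈ S.KK)
    (h : tripleCost σ (x, y, z) = ENNReal.ofReal (uu σ q R η ζ ζi ε x)
      + ENNReal.ofReal (uu σ q R η ζ ζi ε y) + ENNReal.ofReal (uu σ q R η ζ ζi ε z)) :
    S.IsBranch x y z := by
  have hσ := S.hσ
  have hxK : x ∈ S.KK := S.mem_KK.mpr (Or.inl hx)
  have hfin : ENNReal.ofReal (uu σ q R η ζ ζi ε x)
      + ENNReal.ofReal (uu σ q R η ζ ζi ε y) + ENNReal.ofReal (uu σ q R η ζ ζi ε z) ≠ ⊤ := by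
    simp [ENNReal.add_eq_top]
  have hxy : x ≠ y := by
    intro e; subst e; rw [tripleCost_top_of_eq12 hσ] at h; exact hfin h.symm
  have hxz : x ≠ z := by
    intro e; subst e; rw [tripleCost_top_of_eq13 hσ] at h; exact hfin h.symm
  have hyz : y ≠ z := by
    intro e; subst e; rw [tripleCost_top_of_eq23 hσ] at h; exact hfin h.symm
  obtain ⟨h1, h2⟩ := S.pattern_P hx hy hz hxy hxz hyz
  apply h2
  rw [tripleCost_eq hxy hxz hyz, ← ENNReal.ofReal_add (S.uu_nonneg hxK) (S.uu_nonneg hy),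
    ← ENNReal.ofReal_add (add_nonneg (S.uu_nonneg hxK) (S.uu_nonneg hy)) (S.uu_nonneg hz)] at h
  have hnn : 0 ≤ uu σ q R η ζ ζi ε x + uu σ q R η ζ ζi ε y + uu σ q R η ζ ζi ε z :=
    add_nonneg (add_nonneg (S.uu_nonneg hxK) (S.uu_nonneg hy)) (S.uu_nonneg hz)
  have hc : 0 ≤ cR σ x y z := hnn.trans h1
  exact ((ENNReal.ofReal_eq_ofReal_iff hc hnn).mp h).symm

lemma mem_Q {x : E} (hx : x ∈ BB) : η x ∈ S.KK := S.mem_KK.mpr (Or.inr (Or.inl ⟨x, hx, rfl⟩))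
lemma mem_R {x : E} (hx : x ∈ BB) : ζ x ∈ S.KK :=
  S.mem_KK.mpr (Or.inr (Or.inr (Or.inl ⟨x, hx, rfl⟩)))
lemma mem_S {x : E} (hx : x ∈ BB) : rot R η x ∈ S.KK :=
  S.mem_KK.mpr (Or.inr (Or.inr (Or.inr (Or.inl ⟨x, hx, rfl⟩))))
lemma mem_T {x : E} (hx : x ∈ BB) : rot R ζ x ∈ S.KK :=
  S.mem_KK.mpr (Or.inr (Or.inr (Or.inr (Or.inr ⟨x, hx, rfl⟩))))

/-- Equality on the first branch. -/
lemma eq_branch1 {x : E} (hx : x ∈ BB) :
    tripleCost σ (x, η x, ζ x) = ENNReal.ofReal (uu σ q R η ζ ζi ε x)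
      + ENNReal.ofReal (uu σ q R η ζ ζi ε (η x)) + ENNReal.ofReal (uu σ q R η ζ ζi ε (ζ x)) := by
  have hxK : x ∈ S.KK := S.mem_KK.mpr (Or.inl hx)
  have n0 : ‖x - 0‖ < δ := S.near_P hx
  have nη : ‖η x - q‖ < δ := S.nearη x hx
  have nζ : ‖ζ x - (-q)‖ < δ := S.near_R ⟨x, hx, rfl⟩
  rw [tripleCost_eq (S.ne_of_near n0 nη S.dist_0_q) (S.ne_of_near n0 nζ S.dist_0_nq)
    (S.ne_of_near nη nζ S.dist_q_nq),
    ← ENNReal.ofReal_add (S.uu_nonneg hxK) (S.uu_nonneg (S.mem_Q hx)),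
    ← ENNReal.ofReal_add (add_nonneg (S.uu_nonneg hxK) (S.uu_nonneg (S.mem_Q hx)))
      (S.uu_nonneg (S.mem_R hx))]
  congr 1
  rw [S.uu_P hx, S.uu_Q ⟨x, hx, rfl⟩, S.uu_R ⟨x, hx, rfl⟩, S.left_ζ hx]
  unfold UR
  ring

/-- Equality on the second branch. -/
lemma eq_branch2 {x : E} (hx : x ∈ BB) :
    tripleCost σ (x, rot R η x, rot R ζ x) = ENNReal.ofReal (uu σ q R η ζ ζi ε x)
      + ENNReal.ofReal (uu σ q R η ζ ζi ε (rot R η x))
      + ENNReal.ofReal (uu σ q R η ζ ζi ε (rot R ζ x)) := by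
  have hxK : x ∈ S.KK := S.mem_KK.mpr (Or.inl hx)
  have n0 : ‖x - 0‖ < δ := S.near_P hx
  have nη : ‖rot R η x - q'‖ < δ := S.rot_near_η hx
  have nζ : ‖rot R ζ x - (-q')‖ < δ := S.near_T ⟨x, hx, rfl⟩
  rw [tripleCost_eq (S.ne_of_near n0 nη S.dist_0_q') (S.ne_of_near n0 nζ S.dist_0_nq')
    (S.ne_of_near nη nζ S.dist_q'_nq'),
    ← ENNReal.ofReal_add (S.uu_nonneg hxK) (S.uu_nonneg (S.mem_S hx)),
    ← ENNReal.ofReal_add (add_nonneg (S.uu_nonneg hxK) (S.uu_nonneg (S.mem_S hx)))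
      (S.uu_nonneg (S.mem_T hx))]
  congr 1
  rw [S.uu_P hx, S.uu_S ⟨x, hx, rfl⟩, S.uu_T ⟨x, hx, rfl⟩, S.rot_sym_η, S.rot_sym_ζ,
    S.left_ζ (S.sym_mem hx)]
  unfold UR
  have e : cR σ x (rot R η x) (rot R ζ x)
      = cR σ (R.symm x) (η (R.symm x)) (ζ (R.symm x)) := by
    rw [← cR_map σ R.symm x, S.rot_sym_η, S.rot_sym_ζ]
  have e2 : uP σ (R.symm x) = uP σ x := uP_map σ R.symm x
  rw [e, e2]
  ring

/-- Continuity of the cost in the central variable. -/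
lemma cont_aux (τ' : ℝ) (hτ' : 0 < τ') :
    ∃ δ₀ : ℝ, 0 < δ₀ ∧ ∀ x w y z : E, x ∈ BB → w ∈ BB → S.Outer y → S.Outer z →
      (1 / 2 : ℝ) ≤ ‖y - z‖ → ‖x - w‖ ≤ δ₀ →
      tripleCost σ (x, y, z) ≤ tripleCost σ (w, y, z) + ENNReal.ofReal τ' := by
  have hσ := S.hσ
  set Lb := σ * (2 : ℝ) ^ (σ + 2) with hLbdef
  have hLb0 : 0 < Lb := by positivity
  refine ⟨min 1 (τ' / (5 * Lb)), by positivity, ?_⟩
  intro x w y z hx hw hy hz hyz hd
  have hd1 : ‖x - w‖ ≤ 1 := hd.trans (min_le_left _ _)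
  have hd2 : ‖x - w‖ ≤ τ' / (5 * Lb) := hd.trans (min_le_right _ _)
  have hδ8 := S.hδ8
  have nx := S.near0 x hx
  have nw := S.near0 w hw
  have ny := S.outer_norm hy
  have nz := S.outer_norm hz
  -- one pair estimate
  have one : ∀ b : E, S.Outer b → phi σ (x - b) ≤ phi σ (w - b)
      + 2 * Lb * ‖x - w‖ + (Lb / 2) * ‖x - w‖ ^ 2 := by
    intro b hb
    have nb := S.outer_norm hb
    have h1 : (1 / 2 : ℝ) ≤ ‖x - b‖ := by
      have := norm_sub_norm_le b x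
      rw [norm_sub_rev] at this
      linarith [nb.2]
    have h2 : ‖x - b‖ ≤ 2 := (norm_sub_le _ _).trans (by linarith [nb.1])
    have h3 : (1 / 2 : ℝ) ≤ ‖w - b‖ := by
      have := norm_sub_norm_le b w
      rw [norm_sub_rev] at this
      linarith [nb.2]
    have hne1 : x - b ≠ 0 := by
      intro h; rw [h] at h1; simp at h1; linarith
    have hne2 : w - b ≠ 0 := by
      intro h; rw [h] at h3; simp at h3; linarith
    have t := phi_tangent hσ hne1 hne2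
    have e : w - b - (x - b) = -(x - w) := by abel
    rw [e, norm_neg, inner_neg_right] at t
    have hL : L σ (x - b) ≤ Lb := by
      unfold L
      rw [hLbdef]
      apply mul_le_mul_of_nonneg_left _ hσ.le
      have h0 : (1 / 4 : ℝ) ≤ ‖x - b‖ ^ 2 := by nlinarith
      have h4 : (‖x - b‖ ^ 2) ^ (-σ / 2 - 1) ≤ (1 / 4 : ℝ) ^ (-σ / 2 - 1) :=
        Real.rpow_le_rpow_of_nonpos (by norm_num) h0 (by linarith)
      refine h4.trans (le_of_eq ?_)
      have e1 : (1 / 4 : ℝ) = 2 ^ (-2 : ℝ) := by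
        rw [Real.rpow_neg (by norm_num)]; norm_num
      rw [e1, ← Real.rpow_mul (by norm_num)]
      congr 1
      ring
    have hG : ‖G σ (x - b)‖ ≤ 2 * Lb := by
      have : ‖G σ (x - b)‖ = L σ (x - b) * ‖x - b‖ := by
        unfold G L
        rw [norm_smul, Real.norm_eq_abs, abs_mul, abs_neg, abs_of_pos hσ, abs_of_pos
          (Real.rpow_pos_of_pos (by positivity) _)]
      rw [this]
      have hL0 := L_nonneg hσ (x - b)
      nlinarith
    have hin : ⟪G σ (x - b), x - w⟫ ≤ 2 * Lb * ‖x - w‖ := by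
      have := real_inner_le_norm (G σ (x - b)) (x - w)
      nlinarith [norm_nonneg (x - w)]
    have hq : (L σ (x - b) / 2) * ‖x - w‖ ^ 2 ≤ (Lb / 2) * ‖x - w‖ ^ 2 :=
      mul_le_mul_of_nonneg_right (by linarith) (by positivity)
    linarith
  have hxy : x ≠ y := by
    intro h; rw [h] at nx; linarith [ny.2]
  have hxz : x ≠ z := by
    intro h; rw [h] at nx; linarith [nz.2]
  have hwy : w ≠ y := by
    intro h; rw [h] at nw; linarith [ny.2]
  have hwz : w ≠ z := by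
    intro h; rw [h] at nw; linarith [nz.2]
  have hyz' : y ≠ z := by
    intro h; rw [h] at hyz; simp at hyz; linarith
  rw [tripleCost_eq hxy hxz hyz', tripleCost_eq hwy hwz hyz']
  have hc : 0 ≤ cR σ w y z := by
    unfold cR
    have h1 := phi_pos σ (sub_ne_zero.mpr hwy)
    have h2 := phi_pos σ (sub_ne_zero.mpr hwz)
    have h3 := phi_pos σ (sub_ne_zero.mpr hyz')
    linarith
  rw [← ENNReal.ofReal_add hc hτ'.le]
  apply ENNReal.ofReal_le_ofReal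
  have o1 := one y hy
  have o2 := one z hz
  have hquad : ‖x - w‖ ^ 2 ≤ ‖x - w‖ := by nlinarith [norm_nonneg (x - w)]
  have hfin : 5 * Lb * ‖x - w‖ ≤ τ' := by
    have := mul_le_mul_of_nonneg_left hd2 (by positivity : 0 ≤ 5 * Lb)
    rwa [mul_div_cancel₀ _ (by positivity)] at this
  have hq2 : Lb * ‖x - w‖ ^ 2 ≤ Lb * ‖x - w‖ := mul_le_mul_of_nonneg_left hquad hLb0.le
  unfold cR
  nlinarith

end

end Setup

end Crest.Agent.Lib.MultiMarg
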