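/-
S0175 (row 130): existence of the construction, packaged as an abstract certificate.
-/
import Crest.Agent.Lib.MultiMarg.Geo

set_option autoImplicit false

open Set Filter Topology MeasureTheory
open scoped RealInnerProductSpace ContDiff ENNReal
open Crest.AnalysisR.OT

namespace Crest.Agent.Lib.MultiMarg

/-- The abstract certificate used by the measure theoretic part. -/
structure Cert {E : Type*} [NormedAddCommGroup E] [MeasurableSpace E] [NormedSpace ℝ E]
    (σ ε : ℝ) (f₁ g₁ f₂ g₂ fi₁ gi₁ fi₂ gi₂ : E → E) (u : E → ℝ) (K : Set E) : Prop where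
  hε : 0 < ε
  df₁ : LocalDiffeo f₁ fi₁ (Metric.ball 0 ε) (f₁ '' Metric.ball 0 ε)
  dg₁ : LocalDiffeo g₁ gi₁ (Metric.ball 0 ε) (g₁ '' Metric.ball 0 ε)
  df₂ : LocalDiffeo f₂ fi₂ (Metric.ball 0 ε) (f₂ '' Metric.ball 0 ε)
  dg₂ : LocalDiffeo g₂ gi₂ (Metric.ball 0 ε) (g₂ '' Metric.ball 0 ε)
  mf₁ : Measurable f₁
  mg₁ : Measurable g₁
  mf₂ : Measurable f₂
  mg₂ : Measurable g₂
  mfi₁ : Measurable fi₁
  mgi₁ : Measurable gi₁
  mfi₂ : Measurable fi₂
  mgi₂ : Measurable gi₂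
  mu : Measurable u
  hK : K = Metric.ball 0 ε ∪ (f₁ '' Metric.ball 0 ε ∪ (g₁ '' Metric.ball 0 ε ∪
    (f₂ '' Metric.ball 0 ε ∪ g₂ '' Metric.ball 0 ε)))
  disj01 : Disjoint (Metric.ball (0 : E) ε) (f₁ '' Metric.ball 0 ε)
  disj02 : Disjoint (Metric.ball (0 : E) ε) (g₁ '' Metric.ball 0 ε)
  disj03 : Disjoint (Metric.ball (0 : E) ε) (f₂ '' Metric.ball 0 ε)
  disj04 : Disjoint (Metric.ball (0 : E) ε) (g₂ '' Metric.ball 0 ε)
  disj12 : Disjoint (f₁ '' Metric.ball 0 ε) (g₁ '' Metric.ball 0 ε)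
  disj13 : Disjoint (f₁ '' Metric.ball 0 ε) (f₂ '' Metric.ball 0 ε)
  disj14 : Disjoint (f₁ '' Metric.ball 0 ε) (g₂ '' Metric.ball 0 ε)
  disj23 : Disjoint (g₁ '' Metric.ball 0 ε) (f₂ '' Metric.ball 0 ε)
  disj24 : Disjoint (g₁ '' Metric.ball 0 ε) (g₂ '' Metric.ball 0 ε)
  disj34 : Disjoint (f₂ '' Metric.ball 0 ε) (g₂ '' Metric.ball 0 ε)
  bdd : ∃ B : ℝ, ∀ x ∈ K, u x ≤ B
  ineq : ∀ x ∈ K, ∀ y ∈ K, ∀ z ∈ K, ENNReal.ofReal (u x) + ENNReal.ofReal (u y)
    + ENNReal.ofReal (u z) ≤ tripleCost σ (x, y, z)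
  eq₁ : ∀ x ∈ Metric.ball (0 : E) ε, tripleCost σ (x, f₁ x, g₁ x) =
    ENNReal.ofReal (u x) + ENNReal.ofReal (u (f₁ x)) + ENNReal.ofReal (u (g₁ x))
  eq₂ : ∀ x ∈ Metric.ball (0 : E) ε, tripleCost σ (x, f₂ x, g₂ x) =
    ENNReal.ofReal (u x) + ENNReal.ofReal (u (f₂ x)) + ENNReal.ofReal (u (g₂ x))
  rigid : ∀ x ∈ Metric.ball (0 : E) ε, ∀ y ∈ K, ∀ z ∈ K,
    tripleCost σ (x, y, z) = ENNReal.ofReal (u x) + ENNReal.ofReal (u y) + ENNReal.ofReal (u z) →
    (y = f₁ x ∧ z = g₁ x) ∨ (y = g₁ x ∧ z = f₁ x) ∨ (y = f₂ x ∧ z = g₂ x) ∨ (y = g₂ x ∧ z = f₂ x)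
  cont : ∀ τ : ℝ, 0 < τ → ∃ δ₀ : ℝ, 0 < δ₀ ∧ ∀ x ∈ Metric.ball (0 : E) ε,
    ∀ w ∈ Metric.ball (0 : E) ε, ‖x - w‖ ≤ δ₀ →
    tripleCost σ (x, f₁ w, g₁ w) ≤ tripleCost σ (w, f₁ w, g₁ w) + ENNReal.ofReal τ ∧
    tripleCost σ (x, f₂ w, g₂ w) ≤ tripleCost σ (w, f₂ w, g₂ w) + ENNReal.ofReal τ

variable {E : Type*} [NormedAddCommGroup E] [InnerProductSpace ℝ E]

omit [InnerProductSpace ℝ E] in
lemma measurable_phi [NormedSpace ℝ E] [MeasurableSpace E] [BorelSpace E] (σ : ℝ) :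
    Measurable (phi σ : E → ℝ) := by
  unfold phi
  exact (measurable_norm.pow_const 2).pow_const _

/-- Conjugating a diffeomorphism of a ball by an isometry. -/
lemma LocalDiffeo.rotate {f h : E → E} {ε : ℝ}
    (H : LocalDiffeo f h (Metric.ball 0 ε) (f '' Metric.ball 0 ε)) (R : E ≃ₗᵢ[ℝ] E) :
    LocalDiffeo (rot R f) (rot R h) (Metric.ball 0 ε) (rot R f '' Metric.ball 0 ε) := by
  have hmem : ∀ {x : E}, x ∈ Metric.ball (0 : E) ε → R.symm x ∈ Metric.ball (0 : E) ε := by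
    intro x hx; simpa using hx
  have himg : rot R f '' Metric.ball 0 ε = R.symm ⁻¹' (f '' Metric.ball 0 ε) := by
    ext y
    constructor
    · rintro ⟨x, hx, rfl⟩
      exact ⟨R.symm x, hmem hx, by simp [rot]⟩
    · rintro ⟨x, hx, he⟩
      refine ⟨R x, by simpa using hx, ?_⟩
      simp only [rot, LinearIsometryEquiv.symm_apply_apply]
      rw [he]
      simp
  have hRc : ContDiff ℝ ∞ (R : E → E) := R.contDiff
  have hRs : ContDiff ℝ ∞ (R.symm : E → E) := R.symm.contDiff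
  refine ⟨Metric.isOpen_ball, ?_, ?_, ?_, ?_, ?_, ?_, ?_⟩
  · rw [himg]
    exact H.openV.preimage R.symm.continuous
  · intro x hx
    exact ⟨x, hx, rfl⟩
  · intro y hy
    rw [himg] at hy
    have := H.mapsTo_inv hy
    simp only [rot, Metric.mem_ball, dist_zero_right, R.norm_map]
    simpa using this
  · intro x hx
    have := H.left _ (hmem hx)
    simp [rot, this]
  · intro y hy
    rw [himg] at hy
    have := H.right _ hy
    simp [rot, this]
  · have h1 : ContDiffOn ℝ ∞ (fun x => f (R.symm x)) (Metric.ball 0 ε) :=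
      H.smooth.comp hRs.contDiffOn (fun x hx => hmem hx)
    exact hRc.comp_contDiffOn h1
  · have h1 : ContDiffOn ℝ ∞ (fun x => h (R.symm x)) (rot R f '' Metric.ball 0 ε) := by
      refine H.smooth_inv.comp hRs.contDiffOn (fun y hy => ?_)
      rw [himg] at hy
      exact hy
    exact hRc.comp_contDiffOn h1

lemma measurable_rot [MeasurableSpace E] [BorelSpace E] {f : E → E} (hf : Measurable f)
    (R : E ≃ₗᵢ[ℝ] E) : Measurable (rot R f) := by
  unfold rot
  exact R.continuous.measurable.comp (hf.comp R.symm.continuous.measurable)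

section exists_setup

variable [FiniteDimensional ℝ E]

set_option maxHeartbeats 1000000 in
/-- Existence of the whole construction. -/
theorem exists_setup [MeasurableSpace E] [BorelSpace E] {σ : ℝ} (hσ : 0 < σ) {q q' : E}
    (hq : ‖q‖ = 1) (hq' : ‖q'‖ = 1) (horth : ⟪q, q'⟫ = 0) (R : E ≃ₗᵢ[ℝ] E) (hR : R q = q') :
    ∃ (η ζ ηi ζi : E → E) (ε δ τ : ℝ), Setup σ q q' R η ζ ηi ζi ε δ τ ∧ Measurable η ∧
      Measurable ζ ∧ Measurable ηi ∧ Measurable ζi := by
  classical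
  obtain ⟨η₀, ζ₀, ηi₀, ζi₀, ε₀, hε₀, hη0, hζ0, Hη, Hζ, hcrit⟩ := exists_branch (σ := σ) hσ hq
  set U₀ := Metric.ball (0 : E) ε₀ with hU₀
  have hU₀m : MeasurableSet U₀ := Metric.isOpen_ball.measurableSet
  -- global measurable extensions
  let η := U₀.piecewise η₀ (fun _ => q)
  let ζ := U₀.piecewise ζ₀ (fun _ => q)
  let ηi := (η₀ '' U₀).piecewise ηi₀ (fun _ => 0)
  let ζi := (ζ₀ '' U₀).piecewise ζi₀ (fun _ => 0)
  have eqη : EqOn η η₀ U₀ := fun x hx => by simp [η, hx]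
  have eqζ : EqOn ζ ζ₀ U₀ := fun x hx => by simp [ζ, hx]
  have eqηi : EqOn ηi ηi₀ (η₀ '' U₀) := fun x hx => by simp only [ηi, Set.piecewise_eq_of_mem _ _ _ hx]
  have eqζi : EqOn ζi ζi₀ (ζ₀ '' U₀) := fun x hx => by simp only [ζi, Set.piecewise_eq_of_mem _ _ _ hx]
  have hηm : Measurable η :=
    ContinuousOn.measurable_piecewise Hη.continuousOn continuousOn_const hU₀m
  have hζm : Measurable ζ :=
    ContinuousOn.measurable_piecewise Hζ.continuousOn continuousOn_const hU₀m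
  have hηim : Measurable ηi :=
    ContinuousOn.measurable_piecewise Hη.continuousOn_inv continuousOn_const
      Hη.openV.measurableSet
  have hζim : Measurable ζi :=
    ContinuousOn.measurable_piecewise Hζ.continuousOn_inv continuousOn_const
      Hζ.openV.measurableSet
  have imgη : η '' U₀ = η₀ '' U₀ := image_congr eqη
  have imgζ : ζ '' U₀ = ζ₀ '' U₀ := image_congr eqζ
  have Hη' : LocalDiffeo η ηi U₀ (η '' U₀) := by
    rw [imgη]; exact Hη.congr eqη eqηi
  have Hζ' : LocalDiffeo ζ ζi U₀ (ζ '' U₀) := by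
    rw [imgζ]; exact Hζ.congr eqζ eqζi
  have h00 : (0 : E) ∈ U₀ := Metric.mem_ball_self hε₀
  have hη00 : η 0 = q := by rw [eqη h00, hη0]
  have hζ00 : ζ 0 = -q := by rw [eqζ h00, hζ0]
  have hq0 : q ≠ 0 := by
    intro h; rw [h] at hq; simp at hq
  have hcη : ContinuousAt η 0 :=
    (Hη'.continuousOn).continuousAt (Hη'.openU.mem_nhds h00)
  have hcζ : ContinuousAt ζ 0 :=
    (Hζ'.continuousOn).continuousAt (Hζ'.openU.mem_nhds h00)
  obtain ⟨δ, τ, hδ, hδ8, hτ, hτv, hτ4, hHuge, hmid⟩ := exists_constants hσ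
  -- continuity of the potentials at the origin
  have cP : ContinuousAt (fun x : E => uP σ x) 0 := by
    unfold uP; fun_prop
  have cQ : ContinuousAt (fun x : E => uQ σ q (η x)) 0 := by
    unfold uQ
    have h1 : ContinuousAt (fun x : E => η x - q) 0 := hcη.sub continuousAt_const
    have h2 : ContinuousAt (fun x : E => ⟪gq σ q, η x - q⟫) 0 :=
      continuousAt_const.inner h1
    have h3 : ContinuousAt (fun x : E => ‖η x - q‖ ^ 2) 0 := h1.norm.pow 2
    exact (continuousAt_const.add h2).sub (continuousAt_const.mul h3)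
  have cR0 : ContinuousAt (fun x : E => cR σ x (η x) (ζ x)) 0 := by
    unfold cR
    have a1 : ContinuousAt (fun x : E => phi σ (x - η x)) 0 := by
      refine ContinuousAt.comp (g := phi σ) ?_ (continuousAt_id.sub hcη)
      apply continuousAt_phi
      simp [hη00, hq0]
    have a2 : ContinuousAt (fun x : E => phi σ (x - ζ x)) 0 := by
      refine ContinuousAt.comp (g := phi σ) ?_ (continuousAt_id.sub hcζ)
      apply continuousAt_phi
      simp [hζ00, hq0]
    have a3 : ContinuousAt (fun x : E => phi σ (η x - ζ x)) 0 := by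
      refine ContinuousAt.comp (g := phi σ) ?_ (hcη.sub hcζ)
      apply continuousAt_phi
      rw [hη00, hζ00, sub_neg_eq_add, ← two_smul ℝ q]
      exact smul_ne_zero (by norm_num) hq0
    exact (a1.add a2).add a3
  have cUR : ContinuousAt (fun x : E => UR σ q η ζ x) 0 := by
    unfold UR
    exact (cR0.sub cP).sub cQ
  have vP : uP σ (0 : E) = c0 σ - 2 * vv σ := by
    simp [uP]
  have vQ : uQ σ q (η 0) = vv σ := by
    rw [hη00]; simp [uQ]
  have vR : UR σ q η ζ 0 = vv σ := by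
    unfold UR
    rw [vQ, vP, hη00, hζ00, cR_base hq]
    ring
  have ev0 : ∀ᶠ x : E in 𝓝 0, ‖x‖ < δ := by
    have : ContinuousAt (fun x : E => ‖x‖) 0 := continuous_norm.continuousAt
    exact this.eventually (gt_mem_nhds (by simpa using hδ))
  have evη : ∀ᶠ x : E in 𝓝 0, ‖η x - q‖ < δ := by
    have : ContinuousAt (fun x : E => ‖η x - q‖) 0 := (hcη.sub continuousAt_const).norm
    exact this.eventually (gt_mem_nhds (by simpa [hη00] using hδ))
  have evζ : ∀ᶠ x : E in 𝓝 0, ‖ζ x + q‖ < δ := by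
    have : ContinuousAt (fun x : E => ‖ζ x + q‖) 0 := (hcζ.add continuousAt_const).norm
    exact this.eventually (gt_mem_nhds (by simpa [hζ00] using hδ))
  have close : ∀ {F : E → ℝ} {c : ℝ}, ContinuousAt F 0 → F 0 = c →
      ∀ᶠ x : E in 𝓝 0, |F x - c| ≤ τ := by
    intro F c hF h0
    have : ContinuousAt (fun x : E => |F x - c|) 0 := (hF.sub continuousAt_const).abs
    have h2 := this.eventually (gt_mem_nhds (show |F 0 - c| < τ by simpa [h0] using hτ))
    filter_upwards [h2] with x hx using hx.le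
  have evP := close cP vP
  have evQ := close cQ vQ
  have evR := close cUR vR
  have hall := ev0.and (evη.and (evζ.and (evP.and (evQ.and evR))))
  obtain ⟨ε₁, hε₁, hsub⟩ := Metric.eventually_nhds_iff.mp hall
  set ε := min ε₀ ε₁ with hεdef
  have hε : 0 < ε := lt_min hε₀ hε₁
  have hb0 : Metric.ball (0 : E) ε ⊆ U₀ := Metric.ball_subset_ball (min_le_left _ _)
  have hb1 : ∀ x ∈ Metric.ball (0 : E) ε, dist x 0 < ε₁ := by
    intro x hx
    exact lt_of_lt_of_le hx (min_le_right _ _)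
  refine ⟨η, ζ, ηi, ζi, ε, δ, τ, ?_, hηm, hζm, hηim, hζim⟩
  exact
    { hσ := hσ
      hq := hq
      hq' := hq'
      horth := horth
      hR := hR
      hε := hε
      hδ := hδ
      hδ8 := hδ8
      hτ := hτ
      hτv := hτv
      hτ4 := hτ4
      hHuge := hHuge
      hmid := hmid
      dη := Hη'.restrict Metric.isOpen_ball hb0
      dζ := Hζ'.restrict Metric.isOpen_ball hb0
      crit := by
        intro x hx
        have hx0 := hb0 hx
        have := hcrit x hx0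
        rw [← eqη hx0, ← eqζ hx0] at this
        exact this
      near0 := fun x hx => (hsub (hb1 x hx)).1
      nearη := fun x hx => (hsub (hb1 x hx)).2.1
      nearζ := fun x hx => (hsub (hb1 x hx)).2.2.1
      valP := fun x hx => (hsub (hb1 x hx)).2.2.2.1
      valQ := fun x hx => (hsub (hb1 x hx)).2.2.2.2.1
      valR := fun x hx => (hsub (hb1 x hx)).2.2.2.2.2 }

end exists_setup

section exists_cert

variable [MeasurableSpace E] [BorelSpace E] [FiniteDimensional ℝ E]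

lemma measurable_uP (σ : ℝ) : Measurable (uP σ : E → ℝ) := by
  unfold uP
  exact (measurable_const.sub measurable_const).sub (measurable_const.mul (measurable_norm.pow_const 2))

lemma measurable_uQ (σ : ℝ) (q : E) : Measurable (uQ σ q : E → ℝ) := by
  have h : Continuous (uQ σ q : E → ℝ) := by
    unfold uQ
    fun_prop
  exact h.measurable

lemma measurable_cR (σ : ℝ) {f g h : E → E} (hf : Measurable f) (hg : Measurable g)
    (hh : Measurable h) : Measurable (fun x => cR σ (f x) (g x) (h x)) := by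
  unfold cR
  have m := measurable_phi (E := E) σ
  exact ((m.comp (hf.sub hg)).add (m.comp (hf.sub hh))).add (m.comp (hg.sub hh))

lemma measurable_UR (σ : ℝ) (q : E) {η ζ : E → E} (hη : Measurable η) (hζ : Measurable ζ) :
    Measurable (UR σ q η ζ) := by
  unfold UR
  exact ((measurable_cR σ measurable_id hη hζ).sub (measurable_uP σ)).sub
    ((measurable_uQ σ q).comp hη)

/-- Every certificate input: the existence of an abstract certificate. -/
theorem exists_cert {σ : ℝ} (hσ : 0 < σ) {q q' : E}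
    (hq : ‖q‖ = 1) (hq' : ‖q'‖ = 1) (horth : ⟪q, q'⟫ = 0) (R : E ≃ₗᵢ[ℝ] E) (hR : R q = q') :
    ∃ (ε : ℝ) (f₁ g₁ f₂ g₂ fi₁ gi₁ fi₂ gi₂ : E → E) (u : E → ℝ) (K : Set E),
      Cert σ ε f₁ g₁ f₂ g₂ fi₁ gi₁ fi₂ gi₂ u K := by
  classical
  obtain ⟨η, ζ, ηi, ζi, ε, δ, τ, S, hη, hζ, hηi, hζi⟩ := exists_setup hσ hq hq' horth R hR
  refine ⟨ε, η, ζ, rot R η, rot R ζ, ηi, ζi, rot R ηi, rot R ζi, uu σ q R η ζ ζi ε, S.KK, ?_⟩
  have hmu : Measurable (uu σ q R η ζ ζi ε) := by
    unfold uu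
    apply Measurable.ite Metric.isOpen_ball.measurableSet (measurable_uP σ)
    apply Measurable.ite S.dη.openV.measurableSet (measurable_uQ σ q)
    apply Measurable.ite S.dζ.openV.measurableSet ((measurable_UR σ q hη hζ).comp hζi)
    apply Measurable.ite (S.dη.rotate R).openV.measurableSet
      ((measurable_uQ σ q).comp R.symm.continuous.measurable)
    apply Measurable.ite (S.dζ.rotate R).openV.measurableSet
      (((measurable_UR σ q hη hζ).comp hζi).comp R.symm.continuous.measurable)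
    exact measurable_const
  have disj : ∀ {A B : Set E} {a b : E}, (∀ x ∈ A, ‖x - a‖ < δ) → (∀ x ∈ B, ‖x - b‖ < δ) →
      1 ≤ ‖a - b‖ → Disjoint A B := by
    intro A B a b hA hB hab
    rw [Set.disjoint_left]
    intro x h1 h2
    exact S.sep (hA x h1) (hB x h2) hab
  have n0 : ∀ x ∈ Metric.ball (0 : E) ε, ‖x - 0‖ < δ := fun x hx => S.near_P hx
  have n1 : ∀ x ∈ η '' Metric.ball (0 : E) ε, ‖x - q‖ < δ := fun x hx => S.near_Q hx
  have n2 : ∀ x ∈ ζ '' Metric.ball (0 : E) ε, ‖x - (-q)‖ < δ := fun x hx => S.near_R hx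
  have n3 : ∀ x ∈ rot R η '' Metric.ball (0 : E) ε, ‖x - q'‖ < δ := fun x hx => S.near_S hx
  have n4 : ∀ x ∈ rot R ζ '' Metric.ball (0 : E) ε, ‖x - (-q')‖ < δ := fun x hx => S.near_T hx
  exact
    { hε := S.hε
      df₁ := S.dη
      dg₁ := S.dζ
      df₂ := S.dη.rotate R
      dg₂ := S.dζ.rotate R
      mf₁ := hη
      mg₁ := hζ
      mf₂ := measurable_rot hη R
      mg₂ := measurable_rot hζ R
      mfi₁ := hηi
      mgi₁ := hζi
      mfi₂ := measurable_rot hηi R
      mgi₂ := measurable_rot hζi R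
      mu := hmu
      hK := rfl
      disj01 := disj n0 n1 S.dist_0_q
      disj02 := disj n0 n2 S.dist_0_nq
      disj03 := disj n0 n3 S.dist_0_q'
      disj04 := disj n0 n4 S.dist_0_nq'
      disj12 := disj n1 n2 S.dist_q_nq
      disj13 := disj n1 n3 S.dist_q_q'
      disj14 := disj n1 n4 S.dist_q_nq'
      disj23 := disj n2 n3 S.dist_nq_q'
      disj24 := disj n2 n4 S.dist_nq_nq'
      disj34 := disj n3 n4 S.dist_q'_nq'
      bdd := ⟨c0 σ + 1, fun x hx => S.uu_le hx⟩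
      ineq := fun x hx y hy z hz => S.ineq_enn hx hy hz
      eq₁ := fun x hx => S.eq_branch1 hx
      eq₂ := fun x hx => S.eq_branch2 hx
      rigid := fun x hx y hy z hz h => S.rigid_enn hx hy hz h
      cont := by
        intro τ' hτ'
        obtain ⟨δ₀, hδ₀, H⟩ := S.cont_aux τ' hτ'
        refine ⟨δ₀, hδ₀, fun x hx w hw hd => ⟨?_, ?_⟩⟩
        · have nη := S.nearη w hw
          have nζ : ‖ζ w - (-q)‖ < δ := S.near_R ⟨w, hw, rfl⟩
          exact H x w _ _ hx hw (Or.inl ⟨w, hw, rfl⟩) (Or.inr (Or.inl ⟨w, hw, rfl⟩))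
            (S.far_of_near nη nζ S.dist_q_nq) hd
        · have nη := S.rot_near_η hw
          have nζ : ‖rot R ζ w - (-q')‖ < δ := S.near_T ⟨w, hw, rfl⟩
          exact H x w _ _ hx hw (Or.inr (Or.inr (Or.inl ⟨w, hw, rfl⟩)))
            (Or.inr (Or.inr (Or.inr ⟨w, hw, rfl⟩)))
            (S.far_of_near nη nζ S.dist_q'_nq') hd }

end exists_cert

end Crest.Agent.Lib.MultiMarg
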