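/-
S0175 (row 130): the measure theoretic part: optimality of the plan `π₀`, failure of the Monge ansatz.
-/
import Crest.Agent.Lib.MultiMarg.Cert

set_option autoImplicit false

open Set Filter Topology MeasureTheory
open scoped ContDiff ENNReal
open Crest.AnalysisR.OT

namespace Crest.Agent.Lib.MultiMarg

variable {E : Type*} [NormedAddCommGroup E] [InnerProductSpace ℝ E] [MeasurableSpace E]
  [BorelSpace E] [FiniteDimensional ℝ E]

lemma measurable_pairCost (σ : ℝ) {f g : E × E × E → E} (hf : Measurable f) (hg : Measurable g) :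
    Measurable (fun p => pairCost σ (f p) (g p)) := by
  unfold pairCost
  exact (ENNReal.measurable_ofReal.comp (hf.sub hg).norm).pow_const _

lemma measurable_tripleCost (σ : ℝ) : Measurable (tripleCost σ : E × E × E → ℝ≥0∞) := by
  unfold tripleCost
  refine Measurable.add (Measurable.add ?_ ?_) ?_
  · exact measurable_pairCost σ measurable_fst (measurable_fst.comp measurable_snd)
  · exact measurable_pairCost σ measurable_fst (measurable_snd.comp measurable_snd)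
  · exact measurable_pairCost σ (measurable_fst.comp measurable_snd)
      (measurable_snd.comp measurable_snd)

section

variable {σ ε : ℝ} {f₁ g₁ f₂ g₂ fi₁ gi₁ fi₂ gi₂ : E → E} {u : E → ℝ} {K : Set E}

/-- The marginal. -/
noncomputable def muOf (ν : Measure E) (f₁ g₁ f₂ g₂ : E → E) : Measure E :=
  ν + ν + ν.map f₁ + ν.map g₁ + ν.map f₂ + ν.map g₂

/-- The optimal plan. -/
noncomputable def piOf (ν : Measure E) (f₁ g₁ f₂ g₂ : E → E) : Measure (E × E × E) :=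
  ν.map (fun x => (x, f₁ x, g₁ x)) + ν.map (fun x => (f₁ x, g₁ x, x))
    + ν.map (fun x => (g₁ x, x, f₁ x)) + ν.map (fun x => (x, f₂ x, g₂ x))
    + ν.map (fun x => (f₂ x, g₂ x, x)) + ν.map (fun x => (g₂ x, x, f₂ x))

lemma muOf_apply (ν : Measure E) (hf₁ : Measurable f₁) (hg₁ : Measurable g₁)
    (hf₂ : Measurable f₂) (hg₂ : Measurable g₂) {B : Set E} (hB : MeasurableSet B) :
    muOf ν f₁ g₁ f₂ g₂ B = ν B + ν B + ν (f₁ ⁻¹' B) + ν (g₁ ⁻¹' B) + ν (f₂ ⁻¹' B) + ν (g₂ ⁻¹' B) := by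
  simp only [muOf, Measure.add_apply, Measure.map_apply hf₁ hB, Measure.map_apply hg₁ hB,
    Measure.map_apply hf₂ hB, Measure.map_apply hg₂ hB]

lemma isCoupling_piOf (ν : Measure E) (hf₁ : Measurable f₁) (hg₁ : Measurable g₁)
    (hf₂ : Measurable f₂) (hg₂ : Measurable g₂) :
    IsCoupling₃ (muOf ν f₁ g₁ f₂ g₂) (piOf ν f₁ g₁ f₂ g₂) := by
  have m1 : Measurable (fun x => (x, f₁ x, g₁ x)) := measurable_id.prodMk (hf₁.prodMk hg₁)
  have m2 : Measurable (fun x => (f₁ x, g₁ x, x)) := hf₁.prodMk (hg₁.prodMk measurable_id)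
  have m3 : Measurable (fun x => (g₁ x, x, f₁ x)) := hg₁.prodMk (measurable_id.prodMk hf₁)
  have m4 : Measurable (fun x => (x, f₂ x, g₂ x)) := measurable_id.prodMk (hf₂.prodMk hg₂)
  have m5 : Measurable (fun x => (f₂ x, g₂ x, x)) := hf₂.prodMk (hg₂.prodMk measurable_id)
  have m6 : Measurable (fun x => (g₂ x, x, f₂ x)) := hg₂.prodMk (measurable_id.prodMk hf₂)
  have p1 : Measurable (fun p : E × E × E => p.1) := measurable_fst
  have p2 : Measurable (fun p : E × E × E => p.2.1) := measurable_fst.comp measurable_snd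
  have p3 : Measurable (fun p : E × E × E => p.2.2) := measurable_snd.comp measurable_snd
  have hid : ν.map (fun x => x) = ν := Measure.map_id
  refine ⟨?_, ?_, ?_⟩
  · simp only [piOf, muOf, Measure.map_add _ _ p1, Measure.map_map p1 m1, Measure.map_map p1 m2,
      Measure.map_map p1 m3, Measure.map_map p1 m4, Measure.map_map p1 m5, Measure.map_map p1 m6,
      Function.comp_def, hid]
    abel
  · simp only [piOf, muOf, Measure.map_add _ _ p2, Measure.map_map p2 m1, Measure.map_map p2 m2,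
      Measure.map_map p2 m3, Measure.map_map p2 m4, Measure.map_map p2 m5, Measure.map_map p2 m6,
      Function.comp_def, hid]
    abel
  · simp only [piOf, muOf, Measure.map_add _ _ p3, Measure.map_map p3 m1, Measure.map_map p3 m2,
      Measure.map_map p3 m3, Measure.map_map p3 m4, Measure.map_map p3 m5, Measure.map_map p3 m6,
      Function.comp_def, hid]
    abel

/-- Cost of the first branch. -/
noncomputable def A1 (σ : ℝ) (ν : Measure E) (f g : E → E) : ℝ≥0∞ :=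
  ∫⁻ x, tripleCost σ (x, f x, g x) ∂ν

lemma lintegral_piOf (ν : Measure E) (hf₁ : Measurable f₁) (hg₁ : Measurable g₁)
    (hf₂ : Measurable f₂) (hg₂ : Measurable g₂) :
    ∫⁻ p, tripleCost σ p ∂(piOf ν f₁ g₁ f₂ g₂)
      = A1 σ ν f₁ g₁ + A1 σ ν f₁ g₁ + A1 σ ν f₁ g₁ + A1 σ ν f₂ g₂ + A1 σ ν f₂ g₂ + A1 σ ν f₂ g₂ := by
  have m1 : Measurable (fun x => (x, f₁ x, g₁ x)) := measurable_id.prodMk (hf₁.prodMk hg₁)
  have m2 : Measurable (fun x => (f₁ x, g₁ x, x)) := hf₁.prodMk (hg₁.prodMk measurable_id)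
  have m3 : Measurable (fun x => (g₁ x, x, f₁ x)) := hg₁.prodMk (measurable_id.prodMk hf₁)
  have m4 : Measurable (fun x => (x, f₂ x, g₂ x)) := measurable_id.prodMk (hf₂.prodMk hg₂)
  have m5 : Measurable (fun x => (f₂ x, g₂ x, x)) := hf₂.prodMk (hg₂.prodMk measurable_id)
  have m6 : Measurable (fun x => (g₂ x, x, f₂ x)) := hg₂.prodMk (measurable_id.prodMk hf₂)
  have hc := measurable_tripleCost (E := E) σ
  simp only [piOf, lintegral_add_measure, lintegral_map hc m1, lintegral_map hc m2,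
    lintegral_map hc m3, lintegral_map hc m4, lintegral_map hc m5, lintegral_map hc m6, A1]
  have e1 : ∀ (f g : E → E), ∫⁻ x, tripleCost σ (f x, g x, x) ∂ν = ∫⁻ x, tripleCost σ (x, f x, g x) ∂ν := by
    intro f g
    apply lintegral_congr
    intro x
    exact tripleCost_rot σ x (f x) (g x)
  have e2 : ∀ (f g : E → E), ∫⁻ x, tripleCost σ (g x, x, f x) ∂ν = ∫⁻ x, tripleCost σ (x, f x, g x) ∂ν := by
    intro f g
    apply lintegral_congr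
    intro x
    exact (tripleCost_rot σ (g x) x (f x)).symm
  rw [e1, e1, e2, e2]

/-! ### The part using the certificate -/

variable (C : Cert σ ε f₁ g₁ f₂ g₂ fi₁ gi₁ fi₂ gi₂ u K) (ν : Measure E)
  (hν : ∀ᵐ x ∂ν, x ∈ Metric.ball (0 : E) ε)

local notation "BB" => Metric.ball (0 : E) ε
local notation "uu'" => (fun x => ENNReal.ofReal (u x))

omit [FiniteDimensional ℝ E] in
lemma Cert.mem_K_ball (C : Cert σ ε f₁ g₁ f₂ g₂ fi₁ gi₁ fi₂ gi₂ u K) {x : E} (hx : x ∈ BB) :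
    x ∈ K := by
  rw [C.hK]; exact Or.inl hx

omit [FiniteDimensional ℝ E] in
lemma Cert.mem_K_f₁ (C : Cert σ ε f₁ g₁ f₂ g₂ fi₁ gi₁ fi₂ gi₂ u K) {x : E} (hx : x ∈ BB) :
    f₁ x ∈ K := by
  rw [C.hK]; exact Or.inr (Or.inl ⟨x, hx, rfl⟩)

omit [FiniteDimensional ℝ E] in
lemma Cert.mem_K_g₁ (C : Cert σ ε f₁ g₁ f₂ g₂ fi₁ gi₁ fi₂ gi₂ u K) {x : E} (hx : x ∈ BB) :
    g₁ x ∈ K := by
  rw [C.hK]; exact Or.inr (Or.inr (Or.inl ⟨x, hx, rfl⟩))

omit [FiniteDimensional ℝ E] in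
lemma Cert.mem_K_f₂ (C : Cert σ ε f₁ g₁ f₂ g₂ fi₁ gi₁ fi₂ gi₂ u K) {x : E} (hx : x ∈ BB) :
    f₂ x ∈ K := by
  rw [C.hK]; exact Or.inr (Or.inr (Or.inr (Or.inl ⟨x, hx, rfl⟩)))

omit [FiniteDimensional ℝ E] in
lemma Cert.mem_K_g₂ (C : Cert σ ε f₁ g₁ f₂ g₂ fi₁ gi₁ fi₂ gi₂ u K) {x : E} (hx : x ∈ BB) :
    g₂ x ∈ K := by
  rw [C.hK]; exact Or.inr (Or.inr (Or.inr (Or.inr ⟨x, hx, rfl⟩)))

omit [FiniteDimensional ℝ E] in
lemma Cert.measurableSet_K (C : Cert σ ε f₁ g₁ f₂ g₂ fi₁ gi₁ fi₂ gi₂ u K) : MeasurableSet K := by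
  rw [C.hK]
  exact (Metric.isOpen_ball.union (C.df₁.openV.union (C.dg₁.openV.union
    (C.df₂.openV.union C.dg₂.openV)))).measurableSet

include C hν

/-- The marginal is concentrated on `K`. -/
lemma muOf_compl_K : muOf ν f₁ g₁ f₂ g₂ Kᶜ = 0 := by
  have hK := C.measurableSet_K
  rw [muOf_apply ν C.mf₁ C.mg₁ C.mf₂ C.mg₂ hK.compl]
  have h0 : ν Kᶜ = 0 := by
    apply measure_mono_null_ae (t := {x | x ∉ BB})
    · filter_upwards with x hx hxB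
      exact hx (C.mem_K_ball hxB)
    · exact hν
  have gen : ∀ h : E → E, (∀ x ∈ BB, h x ∈ K) → ν (h ⁻¹' Kᶜ) = 0 := by
    intro h hh
    apply measure_mono_null_ae (t := {x | x ∉ BB})
    · filter_upwards with x hx hxB
      exact hx (hh x hxB)
    · exact hν
  rw [h0, gen f₁ (fun x hx => C.mem_K_f₁ hx), gen g₁ (fun x hx => C.mem_K_g₁ hx),
    gen f₂ (fun x hx => C.mem_K_f₂ hx), gen g₂ (fun x hx => C.mem_K_g₂ hx)]
  simp

/-- The dual value is the sum of the two branch costs. -/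
lemma lintegral_uu_eq : ∫⁻ x, ENNReal.ofReal (u x) ∂(muOf ν f₁ g₁ f₂ g₂)
    = A1 σ ν f₁ g₁ + A1 σ ν f₂ g₂ := by
  have hm : Measurable uu' := ENNReal.measurable_ofReal.comp C.mu
  have e1 : A1 σ ν f₁ g₁ = ∫⁻ x, ENNReal.ofReal (u x) ∂ν + ∫⁻ x, ENNReal.ofReal (u (f₁ x)) ∂ν
      + ∫⁻ x, ENNReal.ofReal (u (g₁ x)) ∂ν := by
    unfold A1
    rw [lintegral_congr_ae (g := fun x => ENNReal.ofReal (u x) + ENNReal.ofReal (u (f₁ x))
        + ENNReal.ofReal (u (g₁ x))) (by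
      filter_upwards [hν] with x hx using C.eq₁ x hx)]
    have hm1 : Measurable (fun x => ENNReal.ofReal (u x) + ENNReal.ofReal (u (f₁ x))) :=
      hm.add (hm.comp C.mf₁)
    rw [lintegral_add_left hm1, lintegral_add_left hm]
  have e2 : A1 σ ν f₂ g₂ = ∫⁻ x, ENNReal.ofReal (u x) ∂ν + ∫⁻ x, ENNReal.ofReal (u (f₂ x)) ∂ν
      + ∫⁻ x, ENNReal.ofReal (u (g₂ x)) ∂ν := by
    unfold A1
    rw [lintegral_congr_ae (g := fun x => ENNReal.ofReal (u x) + ENNReal.ofReal (u (f₂ x))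
        + ENNReal.ofReal (u (g₂ x))) (by
      filter_upwards [hν] with x hx using C.eq₂ x hx)]
    have hm1 : Measurable (fun x => ENNReal.ofReal (u x) + ENNReal.ofReal (u (f₂ x))) :=
      hm.add (hm.comp C.mf₂)
    rw [lintegral_add_left hm1, lintegral_add_left hm]
  rw [e1, e2]
  simp only [muOf, lintegral_add_measure, lintegral_map hm C.mf₁, lintegral_map hm C.mg₁,
    lintegral_map hm C.mf₂, lintegral_map hm C.mg₂]
  abel

/-- Weak duality. -/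
lemma dual_le {π : Measure (E × E × E)} (hπ : IsCoupling₃ (muOf ν f₁ g₁ f₂ g₂) π) :
    ∫⁻ x, ENNReal.ofReal (u x) ∂(muOf ν f₁ g₁ f₂ g₂)
      + ∫⁻ x, ENNReal.ofReal (u x) ∂(muOf ν f₁ g₁ f₂ g₂)
      + ∫⁻ x, ENNReal.ofReal (u x) ∂(muOf ν f₁ g₁ f₂ g₂) ≤ ∫⁻ p, tripleCost σ p ∂π := by
  have hm : Measurable uu' := ENNReal.measurable_ofReal.comp C.mu
  have hKc := C.measurableSet_K.compl
  have h0 := muOf_compl_K C ν hν
  have p1 : Measurable (fun p : E × E × E => p.1) := measurable_fst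
  have p2 : Measurable (fun p : E × E × E => p.2.1) := measurable_fst.comp measurable_snd
  have p3 : Measurable (fun p : E × E × E => p.2.2) := measurable_snd.comp measurable_snd
  obtain ⟨h1, h2, h3⟩ := hπ
  have a1 : ∀ᵐ p ∂π, p.1 ∈ K := by
    have : π ((fun p : E × E × E => p.1) ⁻¹' Kᶜ) = 0 := by
      rw [← Measure.map_apply p1 hKc, h1, h0]
    exact this
  have a2 : ∀ᵐ p ∂π, p.2.1 ∈ K := by
    have : π ((fun p : E × E × E => p.2.1) ⁻¹' Kᶜ) = 0 := by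
      rw [← Measure.map_apply p2 hKc, h2, h0]
    exact this
  have a3 : ∀ᵐ p ∂π, p.2.2 ∈ K := by
    have : π ((fun p : E × E × E => p.2.2) ⁻¹' Kᶜ) = 0 := by
      rw [← Measure.map_apply p3 hKc, h3, h0]
    exact this
  have e1 : ∫⁻ x, ENNReal.ofReal (u x) ∂(muOf ν f₁ g₁ f₂ g₂)
      = ∫⁻ p, ENNReal.ofReal (u p.1) ∂π := by
    conv_lhs => rw [← h1]
    rw [lintegral_map hm p1]
  have e2 : ∫⁻ x, ENNReal.ofReal (u x) ∂(muOf ν f₁ g₁ f₂ g₂)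
      = ∫⁻ p, ENNReal.ofReal (u p.2.1) ∂π := by
    conv_lhs => rw [← h2]
    rw [lintegral_map hm p2]
  have e3 : ∫⁻ x, ENNReal.ofReal (u x) ∂(muOf ν f₁ g₁ f₂ g₂)
      = ∫⁻ p, ENNReal.ofReal (u p.2.2) ∂π := by
    conv_lhs => rw [← h3]
    rw [lintegral_map hm p3]
  nth_rewrite 1 [e1]
  nth_rewrite 1 [e2]
  have hm1 : Measurable (fun p : E × E × E => ENNReal.ofReal (u p.1)) := hm.comp p1
  have hm2 : Measurable (fun p : E × E × E => ENNReal.ofReal (u p.1) + ENNReal.ofReal (u p.2.1)) :=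
    hm1.add (hm.comp p2)
  rw [e3, ← lintegral_add_left hm1, ← lintegral_add_left hm2]
  apply lintegral_mono_ae
  filter_upwards [a1, a2, a3] with p b1 b2 b3
  exact C.ineq _ b1 _ b2 _ b3

/-- Optimality of the plan. -/
lemma piOf_le {π : Measure (E × E × E)} (hπ : IsCoupling₃ (muOf ν f₁ g₁ f₂ g₂) π) :
    ∫⁻ p, tripleCost σ p ∂(piOf ν f₁ g₁ f₂ g₂) ≤ ∫⁻ p, tripleCost σ p ∂π := by
  refine le_trans (le_of_eq ?_) (dual_le C ν hν hπ)
  rw [lintegral_piOf ν C.mf₁ C.mg₁ C.mf₂ C.mg₂, lintegral_uu_eq C ν hν]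
  abel

omit C in
/-- Vanishing of a preimage when the map avoids the set. -/
lemma null_of_avoid {B : Set E} {k : E → E} (h : ∀ x ∈ BB, k x ∉ B) : ν (k ⁻¹' B) = 0 := by
  apply measure_mono_null_ae (t := {x | x ∉ BB})
  · filter_upwards with x hx hxB
    exact h x hxB hx
  · exact hν

omit C hν in
lemma disj_avoid {A B : Set E} (h : Disjoint A B) {k : E → E} {D : Set E} (hD : D ⊆ B)
    (hk : ∀ x ∈ BB, k x ∈ A) : ∀ x ∈ BB, k x ∉ D := fun x hx hx' =>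
  Set.disjoint_left.mp h (hk x hx) (hD hx')

omit hν in
lemma mu_image₁ {B : Set E} (hB : MeasurableSet B) (hsub : B ⊆ f₁ '' BB)
    (hν : ∀ᵐ x ∂ν, x ∈ BB) : muOf ν f₁ g₁ f₂ g₂ B = ν (f₁ ⁻¹' B) := by
  rw [muOf_apply ν C.mf₁ C.mg₁ C.mf₂ C.mg₂ hB]
  have h0 : ν B = 0 := null_of_avoid ν hν (k := id) (disj_avoid C.disj01 hsub (fun x hx => hx))
  have h2 : ν (g₁ ⁻¹' B) = 0 :=
    null_of_avoid ν hν (disj_avoid C.disj12.symm hsub (fun x hx => ⟨x, hx, rfl⟩))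
  have h3 : ν (f₂ ⁻¹' B) = 0 :=
    null_of_avoid ν hν (disj_avoid C.disj13.symm hsub (fun x hx => ⟨x, hx, rfl⟩))
  have h4 : ν (g₂ ⁻¹' B) = 0 :=
    null_of_avoid ν hν (disj_avoid C.disj14.symm hsub (fun x hx => ⟨x, hx, rfl⟩))
  rw [h0, h2, h3, h4]; simp

omit hν in
lemma mu_image₂ {B : Set E} (hB : MeasurableSet B) (hsub : B ⊆ g₁ '' BB)
    (hν : ∀ᵐ x ∂ν, x ∈ BB) : muOf ν f₁ g₁ f₂ g₂ B = ν (g₁ ⁻¹' B) := by
  rw [muOf_apply ν C.mf₁ C.mg₁ C.mf₂ C.mg₂ hB]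
  have h0 : ν B = 0 := null_of_avoid ν hν (k := id) (disj_avoid C.disj02 hsub (fun x hx => hx))
  have h2 : ν (f₁ ⁻¹' B) = 0 :=
    null_of_avoid ν hν (disj_avoid C.disj12 hsub (fun x hx => ⟨x, hx, rfl⟩))
  have h3 : ν (f₂ ⁻¹' B) = 0 :=
    null_of_avoid ν hν (disj_avoid C.disj23.symm hsub (fun x hx => ⟨x, hx, rfl⟩))
  have h4 : ν (g₂ ⁻¹' B) = 0 :=
    null_of_avoid ν hν (disj_avoid C.disj24.symm hsub (fun x hx => ⟨x, hx, rfl⟩))
  rw [h0, h2, h3, h4]; simp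

omit hν in
lemma mu_image₃ {B : Set E} (hB : MeasurableSet B) (hsub : B ⊆ f₂ '' BB)
    (hν : ∀ᵐ x ∂ν, x ∈ BB) : muOf ν f₁ g₁ f₂ g₂ B = ν (f₂ ⁻¹' B) := by
  rw [muOf_apply ν C.mf₁ C.mg₁ C.mf₂ C.mg₂ hB]
  have h0 : ν B = 0 := null_of_avoid ν hν (k := id) (disj_avoid C.disj03 hsub (fun x hx => hx))
  have h2 : ν (f₁ ⁻¹' B) = 0 :=
    null_of_avoid ν hν (disj_avoid C.disj13 hsub (fun x hx => ⟨x, hx, rfl⟩))
  have h3 : ν (g₁ ⁻¹' B) = 0 :=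
    null_of_avoid ν hν (disj_avoid C.disj23 hsub (fun x hx => ⟨x, hx, rfl⟩))
  have h4 : ν (g₂ ⁻¹' B) = 0 :=
    null_of_avoid ν hν (disj_avoid C.disj34.symm hsub (fun x hx => ⟨x, hx, rfl⟩))
  rw [h0, h2, h3, h4]; simp

omit hν in
lemma mu_image₄ {B : Set E} (hB : MeasurableSet B) (hsub : B ⊆ g₂ '' BB)
    (hν : ∀ᵐ x ∂ν, x ∈ BB) : muOf ν f₁ g₁ f₂ g₂ B = ν (g₂ ⁻¹' B) := by
  rw [muOf_apply ν C.mf₁ C.mg₁ C.mf₂ C.mg₂ hB]
  have h0 : ν B = 0 := null_of_avoid ν hν (k := id) (disj_avoid C.disj04 hsub (fun x hx => hx))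
  have h2 : ν (f₁ ⁻¹' B) = 0 :=
    null_of_avoid ν hν (disj_avoid C.disj14 hsub (fun x hx => ⟨x, hx, rfl⟩))
  have h3 : ν (g₁ ⁻¹' B) = 0 :=
    null_of_avoid ν hν (disj_avoid C.disj24 hsub (fun x hx => ⟨x, hx, rfl⟩))
  have h4 : ν (f₂ ⁻¹' B) = 0 :=
    null_of_avoid ν hν (disj_avoid C.disj34 hsub (fun x hx => ⟨x, hx, rfl⟩))
  rw [h0, h2, h3, h4]; simp

omit hν in
/-- The mass argument: the central lump is twice as heavy as its image. -/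
lemma mass_zero [IsFiniteMeasure ν] (hν : ∀ᵐ x ∂ν, x ∈ BB) {h hi : E → E}
    (D : LocalDiffeo h hi BB (h '' BB))
    (hm : Measurable h) (him : Measurable hi)
    (hvan : ∀ B : Set E, MeasurableSet B → B ⊆ h '' BB → muOf ν f₁ g₁ f₂ g₂ B = ν (h ⁻¹' B))
    {T : E → E} (hT : Measurable T) (hTμ : (muOf ν f₁ g₁ f₂ g₂).map T = muOf ν f₁ g₁ f₂ g₂) :
    ν {x | x ∈ BB ∧ T x = h x} = 0 := by
  set A := {x | x ∈ BB ∧ T x = h x} with hA
  have hAm : MeasurableSet A :=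
    Metric.isOpen_ball.measurableSet.inter (measurableSet_eq_fun hT hm)
  have hAsub : A ⊆ BB := fun x hx => hx.1
  set B := h '' A with hB
  have hBeq : B = hi ⁻¹' A ∩ h '' BB := by
    ext y
    constructor
    · rintro ⟨x, hx, rfl⟩
      refine ⟨?_, ⟨x, hx.1, rfl⟩⟩
      change hi (h x) ∈ A
      rwa [D.left x hx.1]
    · rintro ⟨hy1, hy2⟩
      exact ⟨hi y, hy1, D.right y hy2⟩
  have hBm : MeasurableSet B := by
    rw [hBeq]
    exact (him hAm).inter D.openV.measurableSet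
  have hBsub : B ⊆ h '' BB := image_mono hAsub
  have h1 : A ⊆ T ⁻¹' B := by
    intro x hx
    change T x ∈ B
    rw [hx.2]
    exact ⟨x, hx, rfl⟩
  have h2 : muOf ν f₁ g₁ f₂ g₂ A ≤ muOf ν f₁ g₁ f₂ g₂ B := by
    calc muOf ν f₁ g₁ f₂ g₂ A ≤ muOf ν f₁ g₁ f₂ g₂ (T ⁻¹' B) := measure_mono h1
      _ = ((muOf ν f₁ g₁ f₂ g₂).map T) B := (Measure.map_apply hT hBm).symm
      _ = muOf ν f₁ g₁ f₂ g₂ B := by rw [hTμ]
  have h3 : muOf ν f₁ g₁ f₂ g₂ B ≤ ν A := by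
    rw [hvan B hBm hBsub]
    apply measure_mono_ae
    filter_upwards [hν] with x hx hx'
    obtain ⟨w, hw, he⟩ := hx'
    have : w = x := by
      have e1 := D.left w hw.1
      have e2 := D.left x hx
      rw [he] at e1
      rw [← e1, e2]
    rw [← this]
    exact hw
  have h4 : ν A + ν A ≤ muOf ν f₁ g₁ f₂ g₂ A := by
    rw [muOf_apply ν C.mf₁ C.mg₁ C.mf₂ C.mg₂ hAm]
    calc ν A + ν A ≤ ν A + ν A + ν (f₁ ⁻¹' A) := le_self_add
      _ ≤ ν A + ν A + ν (f₁ ⁻¹' A) + ν (g₁ ⁻¹' A) := le_self_add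
      _ ≤ ν A + ν A + ν (f₁ ⁻¹' A) + ν (g₁ ⁻¹' A) + ν (f₂ ⁻¹' A) := le_self_add
      _ ≤ _ := le_self_add
  have h5 : ν A + ν A ≤ ν A := h4.trans (h2.trans h3)
  have hfin : ν A ≠ ⊤ := measure_ne_top _ _
  by_contra hne
  have hpos : 0 < ν A := pos_iff_ne_zero.mpr hne
  have : ν A < ν A + ν A := ENNReal.lt_add_right hfin hne
  exact absurd h5 (not_le.mpr this)

omit hν in
lemma absolutelyContinuous_muOf : ν ≪ muOf ν f₁ g₁ f₂ g₂ := by
  apply Measure.AbsolutelyContinuous.mk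
  intro s hs h0
  rw [muOf_apply ν C.mf₁ C.mg₁ C.mf₂ C.mg₂ hs] at h0
  have : ν s ≤ ν s + ν s + ν (f₁ ⁻¹' s) + ν (g₁ ⁻¹' s) + ν (f₂ ⁻¹' s) + ν (g₂ ⁻¹' s) := by
    calc ν s ≤ ν s + ν s := le_self_add
      _ ≤ ν s + ν s + ν (f₁ ⁻¹' s) := le_self_add
      _ ≤ ν s + ν s + ν (f₁ ⁻¹' s) + ν (g₁ ⁻¹' s) := le_self_add
      _ ≤ ν s + ν s + ν (f₁ ⁻¹' s) + ν (g₁ ⁻¹' s) + ν (f₂ ⁻¹' s) := le_self_add
      _ ≤ _ := le_self_add
  rw [h0] at this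
  exact le_antisymm this zero_le'

/-- Finiteness of the dual value. -/
lemma lintegral_uu_lt_top [IsFiniteMeasure ν] :
    ∫⁻ x, ENNReal.ofReal (u x) ∂(muOf ν f₁ g₁ f₂ g₂) < ⊤ := by
  have : IsFiniteMeasure (muOf ν f₁ g₁ f₂ g₂) := by
    unfold muOf; infer_instance
  obtain ⟨B, hB⟩ := C.bdd
  have h0 := muOf_compl_K C ν hν
  have hae : ∀ᵐ x ∂(muOf ν f₁ g₁ f₂ g₂), ENNReal.ofReal (u x) ≤ ENNReal.ofReal B := by
    have : ∀ᵐ x ∂(muOf ν f₁ g₁ f₂ g₂), x ∈ K := h0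
    filter_upwards [this] with x hx
    exact ENNReal.ofReal_le_ofReal (hB x hx)
  calc ∫⁻ x, ENNReal.ofReal (u x) ∂(muOf ν f₁ g₁ f₂ g₂)
      ≤ ∫⁻ _, ENNReal.ofReal B ∂(muOf ν f₁ g₁ f₂ g₂) := lintegral_mono_ae hae
    _ < ⊤ := by
      rw [lintegral_const]
      exact ENNReal.mul_lt_top ENNReal.ofReal_lt_top (measure_lt_top _ _)

/-- Finiteness of the cost of the plan. -/
lemma lintegral_piOf_lt_top [IsFiniteMeasure ν] :
    ∫⁻ p, tripleCost σ p ∂(piOf ν f₁ g₁ f₂ g₂) < ⊤ := by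
  have h := lintegral_uu_lt_top C ν hν
  rw [lintegral_uu_eq C ν hν] at h
  rw [lintegral_piOf ν C.mf₁ C.mg₁ C.mf₂ C.mg₂]
  have h1 : A1 σ ν f₁ g₁ < ⊤ := lt_of_le_of_lt le_self_add h
  have h2 : A1 σ ν f₂ g₂ < ⊤ := lt_of_le_of_lt le_add_self h
  simp only [ENNReal.add_lt_top]
  exact ⟨⟨⟨⟨⟨h1, h1⟩, h1⟩, h2⟩, h2⟩, h2⟩

/-- The Monge ansatz fails strictly. -/
theorem monge_strict [IsFiniteMeasure ν] (hν0 : ν ≠ 0) {T₂ T₃ : E → E} (hT₂ : Measurable T₂)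
    (hT₃ : Measurable T₃) (h₂ : (muOf ν f₁ g₁ f₂ g₂).map T₂ = muOf ν f₁ g₁ f₂ g₂)
    (h₃ : (muOf ν f₁ g₁ f₂ g₂).map T₃ = muOf ν f₁ g₁ f₂ g₂) :
    ∫⁻ p, tripleCost σ p ∂(piOf ν f₁ g₁ f₂ g₂)
      < ∫⁻ x, tripleCost σ (x, T₂ x, T₃ x) ∂(muOf ν f₁ g₁ f₂ g₂) := by
  by_contra hcon
  have hle := not_lt.mp hcon
  set μ := muOf ν f₁ g₁ f₂ g₂ with hμ
  have hm : Measurable uu' := ENNReal.measurable_ofReal.comp C.mu
  have hKc := C.measurableSet_K.compl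
  have h0 : μ Kᶜ = 0 := muOf_compl_K C ν hν
  have a1 : ∀ᵐ x ∂μ, x ∈ K := h0
  have a2 : ∀ᵐ x ∂μ, T₂ x ∈ K := by
    have : μ (T₂ ⁻¹' Kᶜ) = 0 := by
      rw [← Measure.map_apply hT₂ hKc, h₂, h0]
    exact this
  have a3 : ∀ᵐ x ∂μ, T₃ x ∈ K := by
    have : μ (T₃ ⁻¹' Kᶜ) = 0 := by
      rw [← Measure.map_apply hT₃ hKc, h₃, h0]
    exact this
  have hle2 : (fun x => ENNReal.ofReal (u x) + ENNReal.ofReal (u (T₂ x))
      + ENNReal.ofReal (u (T₃ x))) ≤ᵐ[μ] fun x => tripleCost σ (x, T₂ x, T₃ x) := by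
    filter_upwards [a1, a2, a3] with x b1 b2 b3
    exact C.ineq _ b1 _ b2 _ b3
  have hm1 : Measurable (fun x => ENNReal.ofReal (u x) + ENNReal.ofReal (u (T₂ x))) :=
    hm.add (hm.comp hT₂)
  have hint : ∫⁻ x, ENNReal.ofReal (u x) + ENNReal.ofReal (u (T₂ x))
      + ENNReal.ofReal (u (T₃ x)) ∂μ = ∫⁻ x, ENNReal.ofReal (u x) ∂μ
        + ∫⁻ x, ENNReal.ofReal (u x) ∂μ + ∫⁻ x, ENNReal.ofReal (u x) ∂μ := by
    rw [lintegral_add_left hm1, lintegral_add_left hm]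
    have e2 : ∫⁻ x, ENNReal.ofReal (u (T₂ x)) ∂μ = ∫⁻ x, ENNReal.ofReal (u x) ∂μ := by
      rw [← lintegral_map hm hT₂, h₂]
    have e3 : ∫⁻ x, ENNReal.ofReal (u (T₃ x)) ∂μ = ∫⁻ x, ENNReal.ofReal (u x) ∂μ := by
      rw [← lintegral_map hm hT₃, h₃]
    rw [e2, e3]
  have hD := lintegral_uu_lt_top C ν hν
  have hfin : ∫⁻ x, ENNReal.ofReal (u x) + ENNReal.ofReal (u (T₂ x))
      + ENNReal.ofReal (u (T₃ x)) ∂μ ≠ ⊤ := by
    rw [hint]
    exact (ENNReal.add_lt_top.mpr ⟨ENNReal.add_lt_top.mpr ⟨hD, hD⟩, hD⟩).ne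
  have hmeas : Measurable (fun x => tripleCost σ (x, T₂ x, T₃ x)) :=
    (measurable_tripleCost σ).comp (measurable_id.prodMk (hT₂.prodMk hT₃))
  have heq := ae_eq_of_ae_le_of_lintegral_le hle2 hfin hmeas.aemeasurable (by
    rw [hint]
    refine hle.trans (le_of_eq ?_)
    rw [lintegral_piOf ν C.mf₁ C.mg₁ C.mf₂ C.mg₂, lintegral_uu_eq C ν hν]
    abel)
  have hac : ν ≪ μ := absolutelyContinuous_muOf C ν
  -- on the central lump
  have hbranch : ∀ᵐ x ∂ν, x ∈ BB ∧ (T₂ x = f₁ x ∨ T₂ x = g₁ x ∨ T₂ x = f₂ x ∨ T₂ x = g₂ x) := by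
    filter_upwards [hν, hac.ae_le a2, hac.ae_le a3, hac.ae_le heq] with x b0 b2 b3 b4
    refine ⟨b0, ?_⟩
    rcases C.rigid x b0 _ b2 _ b3 b4.symm with h | h | h | h
    · exact Or.inl h.1
    · exact Or.inr (Or.inl h.1)
    · exact Or.inr (Or.inr (Or.inl h.1))
    · exact Or.inr (Or.inr (Or.inr h.1))
  have z1 := mass_zero C ν hν C.df₁ C.mf₁ C.mfi₁
    (fun B hB hs => mu_image₁ C ν hB hs hν) hT₂ h₂
  have z2 := mass_zero C ν hν C.dg₁ C.mg₁ C.mgi₁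
    (fun B hB hs => mu_image₂ C ν hB hs hν) hT₂ h₂
  have z3 := mass_zero C ν hν C.df₂ C.mf₂ C.mfi₂
    (fun B hB hs => mu_image₃ C ν hB hs hν) hT₂ h₂
  have z4 := mass_zero C ν hν C.dg₂ C.mg₂ C.mgi₂
    (fun B hB hs => mu_image₄ C ν hB hs hν) hT₂ h₂
  apply hν0
  apply Measure.measure_univ_eq_zero.mp
  have huniv : ν univ ≤ ν ({x | x ∈ BB ∧ T₂ x = f₁ x} ∪ ({x | x ∈ BB ∧ T₂ x = g₁ x} ∪
      ({x | x ∈ BB ∧ T₂ x = f₂ x} ∪ {x | x ∈ BB ∧ T₂ x = g₂ x}))) := by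
    apply measure_mono_ae
    filter_upwards [hbranch] with x hx _
    rcases hx.2 with h | h | h | h
    · exact Or.inl ⟨hx.1, h⟩
    · exact Or.inr (Or.inl ⟨hx.1, h⟩)
    · exact Or.inr (Or.inr (Or.inl ⟨hx.1, h⟩))
    · exact Or.inr (Or.inr (Or.inr ⟨hx.1, h⟩))
  refine le_antisymm (huniv.trans ?_) zero_le'
  refine (measure_union_le _ _).trans ?_
  rw [z1, zero_add]
  refine (measure_union_le _ _).trans ?_
  rw [z2, zero_add]
  refine (measure_union_le _ _).trans ?_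
  rw [z3, z4, zero_add]

end

end Crest.Agent.Lib.MultiMarg
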