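/-
S0175 (row 130): splitting the doubled central measure onto two copies, moving points very little.
-/
import Crest.Agent.Lib.MultiMarg.Dual
import Crest.Agent.Lib.OTStab.Noble

set_option autoImplicit false

open Set Filter Topology MeasureTheory
open scoped ContDiff ENNReal
open Crest.AnalysisR.OT

namespace Crest.Agent.Lib.MultiMarg

open Crest.Agent.Lib.OTStab

variable {d : ℕ}

/-- Splitting lemma. -/
theorem exists_split (ν : Measure (EE d)) [IsFiniteMeasure ν] [NullSingletonClass ν]
    {Y U : Set (EE d)} (hY : IsCompact Y) (hYU : Y ⊆ U) (hνY : ∀ᵐ x ∂ν, x ∈ Y)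
    {f₁ f₂ fi₁ fi₂ : EE d → EE d} (hf₁ : Measurable f₁) (hf₂ : Measurable f₂)
    (hfi₁ : Measurable fi₁) (hfi₂ : Measurable fi₂)
    (hl₁ : ∀ x ∈ U, fi₁ (f₁ x) = x) (hl₂ : ∀ x ∈ U, fi₂ (f₂ x) = x)
    (hr₁ : ∀ y ∈ f₁ '' U, f₁ (fi₁ y) = y) (hr₂ : ∀ y ∈ f₂ '' U, f₂ (fi₂ y) = y)
    (hm₁ : MeasurableSet (f₁ '' U)) (hm₂ : MeasurableSet (f₂ '' U))
    {δ : ℝ} (hδ : 0 < δ) :
    ∃ h : EE d → EE d, Measurable h ∧ (ν + ν).map h = ν.map f₁ + ν.map f₂ ∧
      ∀ᵐ x ∂ν, ∃ w ∈ U, ‖x - w‖ ≤ δ ∧ (h x = f₁ w ∨ h x = f₂ w) := by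
  classical
  obtain ⟨n, A, a, hAm, hAd, hYA, -, hAa⟩ := exists_partition hY (half_pos hδ)
  have hYm : MeasurableSet Y := hY.isClosed.measurableSet
  -- the local maps
  have key : ∀ j : Fin n, ∃ S : EE d → EE d, Measurable S ∧
      ((ν.restrict (A j)) + (ν.restrict (A j))).map S
        = (ν.restrict (A j)).map f₁ + (ν.restrict (A j)).map f₂ := by
    intro j
    have hna : NullSingletonClass ((ν.restrict (A j)) + (ν.restrict (A j))) := by
      constructor
      intro x
      simp only [Measure.add_apply]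
      have : ν.restrict (A j) {x} = 0 :=
        le_antisymm ((Measure.restrict_apply_le _ _).trans (by simp)) zero_le'
      simp [this]
    apply exists_map_eq_of_noAtoms
    simp only [Measure.add_apply, Measure.map_apply hf₁ MeasurableSet.univ,
      Measure.map_apply hf₂ MeasurableSet.univ, preimage_univ]
  choose S hSm hSmap using key
  -- gluing
  have hconst : Measurable (fun _ : EE d => (0 : EE d)) := measurable_const
  obtain ⟨h, hm, hh⟩ := exists_measurable_piecewise (ι := Option (Fin n))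
    (fun o => match o with | none => ∅ | some j => A j)
    (by rintro (_ | j); · exact MeasurableSet.empty
        · exact hAm j)
    (fun o => match o with | none => fun _ => 0 | some j => S j)
    (by rintro (_ | j); · exact hconst
        · exact hSm j)
    (by
      rintro (_ | i) (_ | j) hij x ⟨hx1, hx2⟩
      · exact absurd rfl hij
      · exact hx1.elim
      · exact hx2.elim
      · have hne : i ≠ j := fun e => hij (by rw [e])
        exact absurd hx2 (Set.disjoint_left.mp (hAd hne) hx1))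
  have hhj : ∀ j, EqOn h (S j) (A j) := fun j => hh (some j)
  -- decomposition of `ν`
  have hdec : ∀ s : Set (EE d), MeasurableSet s → ν s = ∑ j, ν (s ∩ A j) := by
    intro s hs
    have h1 : ν s = ν (s ∩ ⋃ j, A j) := by
      apply le_antisymm
      · apply measure_mono_ae
        filter_upwards [hνY] with x hx hxs
        exact ⟨hxs, hYA hx⟩
      · exact measure_mono inter_subset_left
    rw [h1, inter_iUnion, measure_iUnion _ (fun j => hs.inter (hAm j))]
    · rw [tsum_fintype]
    · intro i j hij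
      exact (hAd hij).mono inter_subset_right inter_subset_right
  refine ⟨h, hm, ?_, ?_⟩
  · ext B hB
    rw [Measure.map_apply hm hB]
    simp only [Measure.add_apply, Measure.map_apply hf₁ hB, Measure.map_apply hf₂ hB]
    rw [hdec _ (hm hB), hdec _ (hf₁ hB), hdec _ (hf₂ hB), ← Finset.sum_add_distrib,
      ← Finset.sum_add_distrib]
    apply Finset.sum_congr rfl
    intro j _
    have e1 : h ⁻¹' B ∩ A j = S j ⁻¹' B ∩ A j := by
      ext x
      constructor
      · rintro ⟨h1, h2⟩
        refine ⟨?_, h2⟩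
        change S j x ∈ B
        rw [← hhj j h2]
        exact h1
      · rintro ⟨h1, h2⟩
        refine ⟨?_, h2⟩
        change h x ∈ B
        rw [hhj j h2]
        exact h1
    have e2 := congrArg (fun m : Measure (EE d) => m B) (hSmap j)
    simp only [Measure.map_apply (hSm j) hB, Measure.add_apply, Measure.map_apply hf₁ hB,
      Measure.map_apply hf₂ hB, Measure.restrict_apply (hSm j hB),
      Measure.restrict_apply (hf₁ hB), Measure.restrict_apply (hf₂ hB)] at e2
    rw [e1]
    exact e2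
  · -- the closeness statement
    let G : Fin n → Set (EE d) := fun j =>
      (f₁ '' U ∩ fi₁ ⁻¹' (A j ∩ Y)) ∪ (f₂ '' U ∩ fi₂ ⁻¹' (A j ∩ Y))
    have hGm : ∀ j, MeasurableSet (G j) := fun j =>
      (hm₁.inter (hfi₁ ((hAm j).inter hYm))).union (hm₂.inter (hfi₂ ((hAm j).inter hYm)))
    have hnull : ∀ j, ν (S j ⁻¹' (G j)ᶜ ∩ A j) = 0 := by
      intro j
      have e2 := congrArg (fun m : Measure (EE d) => m (G j)ᶜ) (hSmap j)
      simp only [Measure.map_apply (hSm j) (hGm j).compl, Measure.add_apply,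
        Measure.map_apply hf₁ (hGm j).compl, Measure.map_apply hf₂ (hGm j).compl,
        Measure.restrict_apply (hSm j (hGm j).compl),
        Measure.restrict_apply (hf₁ (hGm j).compl),
        Measure.restrict_apply (hf₂ (hGm j).compl)] at e2
      have z1 : ν (f₁ ⁻¹' (G j)ᶜ ∩ A j) = 0 := by
        apply measure_mono_null_ae (t := Yᶜ)
        · filter_upwards with x
          intro hx hxY
          apply hx.1
          refine Or.inl ⟨⟨x, hYU hxY, rfl⟩, ?_⟩
          change fi₁ (f₁ x) ∈ A j ∩ Y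
          rw [hl₁ x (hYU hxY)]
          exact ⟨hx.2, hxY⟩
        · exact hνY
      have z2 : ν (f₂ ⁻¹' (G j)ᶜ ∩ A j) = 0 := by
        apply measure_mono_null_ae (t := Yᶜ)
        · filter_upwards with x
          intro hx hxY
          apply hx.1
          refine Or.inr ⟨⟨x, hYU hxY, rfl⟩, ?_⟩
          change fi₂ (f₂ x) ∈ A j ∩ Y
          rw [hl₂ x (hYU hxY)]
          exact ⟨hx.2, hxY⟩
        · exact hνY
      rw [z1, z2] at e2
      simp only [add_zero, add_self_eq_zero] at e2
      exact e2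
    have hall : ∀ᵐ x ∂ν, ∀ j, x ∈ A j → S j x ∈ G j := by
      rw [ae_all_iff]
      intro j
      have : ∀ᵐ x ∂ν, x ∉ S j ⁻¹' (G j)ᶜ ∩ A j := measure_eq_zero_iff_ae_notMem.mp (hnull j)
      filter_upwards [this] with x hx hxA
      by_contra hcon
      exact hx ⟨hcon, hxA⟩
    filter_upwards [hall, hνY] with x hx hxY
    obtain ⟨j, hj⟩ := mem_iUnion.mp (hYA hxY)
    have hG := hx j hj
    rw [← hhj j hj] at hG
    have hdist : ∀ w ∈ A j, ‖x - w‖ ≤ δ := by
      intro w hw
      have h1 := hAa j x hj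
      have h2 := hAa j w hw
      have e : x - w = (x - a j) - (w - a j) := by abel
      rw [e]
      exact (norm_sub_le _ _).trans (by linarith)
    rcases hG with ⟨h1, h2⟩ | ⟨h1, h2⟩
    · exact ⟨fi₁ (h x), hYU h2.2, hdist _ h2.1, Or.inl (hr₁ _ h1).symm⟩
    · exact ⟨fi₂ (h x), hYU h2.2, hdist _ h2.1, Or.inr (hr₂ _ h1).symm⟩

end Crest.Agent.Lib.MultiMarg
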