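/-
S0175 (row 130): Monge maps approaching the optimal cost.
-/
import Crest.Agent.Lib.MultiMarg.Split

set_option autoImplicit false

open Set Filter Topology MeasureTheory
open scoped ContDiff ENNReal
open Crest.AnalysisR.OT

namespace Crest.Agent.Lib.MultiMarg

variable {E : Type*} [NormedAddCommGroup E] [InnerProductSpace ℝ E] [MeasurableSpace E]
  [BorelSpace E] [FiniteDimensional ℝ E]

section

variable {σ ε : ℝ} {f₁ g₁ f₂ g₂ fi₁ gi₁ fi₂ gi₂ : E → E} {u : E → ℝ} {K : Set E}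

local notation "BB" => Metric.ball (0 : E) ε

open Classical in
/-- The first Monge map. -/
noncomputable def mapT₂ (ε : ℝ) (f₁ g₁ f₂ g₂ fi₁ gi₁ fi₂ gi₂ h : E → E) (x : E) : E :=
  if x ∈ Metric.ball (0 : E) ε then h x
  else if x ∈ f₁ '' Metric.ball (0 : E) ε then g₁ (fi₁ x)
  else if x ∈ g₁ '' Metric.ball (0 : E) ε then gi₁ x
  else if x ∈ f₂ '' Metric.ball (0 : E) ε then g₂ (fi₂ x)
  else if x ∈ g₂ '' Metric.ball (0 : E) ε then gi₂ x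
  else 0

open Classical in
/-- The auxiliary map from the outer lumps `f₁ '' BB`, `f₂ '' BB` to the partner lumps. -/
noncomputable def mapPsi (ε : ℝ) (f₁ g₁ f₂ g₂ fi₁ fi₂ : E → E) (y : E) : E :=
  if y ∈ f₁ '' Metric.ball (0 : E) ε then g₁ (fi₁ y)
  else if y ∈ f₂ '' Metric.ball (0 : E) ε then g₂ (fi₂ y)
  else 0

open Classical in
/-- The second Monge map. -/
noncomputable def mapT₃ (ε : ℝ) (f₁ g₁ f₂ g₂ fi₁ gi₁ fi₂ gi₂ h : E → E) (x : E) : E :=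
  if x ∈ Metric.ball (0 : E) ε then mapPsi ε f₁ g₁ f₂ g₂ fi₁ fi₂ (h x)
  else if x ∈ f₁ '' Metric.ball (0 : E) ε then fi₁ x
  else if x ∈ g₁ '' Metric.ball (0 : E) ε then f₁ (gi₁ x)
  else if x ∈ f₂ '' Metric.ball (0 : E) ε then fi₂ x
  else if x ∈ g₂ '' Metric.ball (0 : E) ε then f₂ (gi₂ x)
  else 0

open Classical in
/-- The cost transported to the first outer lumps. -/
noncomputable def mapCh (σ ε : ℝ) (f₁ g₁ f₂ g₂ fi₁ fi₂ : E → E) (y : E) : ℝ≥0∞ :=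
  if y ∈ f₁ '' Metric.ball (0 : E) ε then tripleCost σ (fi₁ y, f₁ (fi₁ y), g₁ (fi₁ y))
  else if y ∈ f₂ '' Metric.ball (0 : E) ε then tripleCost σ (fi₂ y, f₂ (fi₂ y), g₂ (fi₂ y))
  else 0

variable (C : Cert σ ε f₁ g₁ f₂ g₂ fi₁ gi₁ fi₂ gi₂ u K)
include C

omit [BorelSpace E] [FiniteDimensional ℝ E] in
lemma Cert.not_ball_f₁ {x : E} (hx : x ∈ BB) : f₁ x ∉ BB := fun h =>
  Set.disjoint_left.mp C.disj01 h ⟨x, hx, rfl⟩
omit [BorelSpace E] [FiniteDimensional ℝ E] in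
lemma Cert.not_ball_g₁ {x : E} (hx : x ∈ BB) : g₁ x ∉ BB := fun h =>
  Set.disjoint_left.mp C.disj02 h ⟨x, hx, rfl⟩
omit [BorelSpace E] [FiniteDimensional ℝ E] in
lemma Cert.not_ball_f₂ {x : E} (hx : x ∈ BB) : f₂ x ∉ BB := fun h =>
  Set.disjoint_left.mp C.disj03 h ⟨x, hx, rfl⟩
omit [BorelSpace E] [FiniteDimensional ℝ E] in
lemma Cert.not_ball_g₂ {x : E} (hx : x ∈ BB) : g₂ x ∉ BB := fun h =>
  Set.disjoint_left.mp C.disj04 h ⟨x, hx, rfl⟩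

omit [BorelSpace E] [FiniteDimensional ℝ E] in
lemma T₂_ball {h : E → E} {x : E} (hx : x ∈ BB) :
    mapT₂ ε f₁ g₁ f₂ g₂ fi₁ gi₁ fi₂ gi₂ h x = h x := by
  simp [mapT₂, hx]

omit [BorelSpace E] [FiniteDimensional ℝ E] in
lemma T₃_ball {h : E → E} {x : E} (hx : x ∈ BB) :
    mapT₃ ε f₁ g₁ f₂ g₂ fi₁ gi₁ fi₂ gi₂ h x = mapPsi ε f₁ g₁ f₂ g₂ fi₁ fi₂ (h x) := by
  simp [mapT₃, hx]

omit [BorelSpace E] [FiniteDimensional ℝ E] in
lemma T₂_f₁ {h : E → E} {x : E} (hx : x ∈ BB) :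
    mapT₂ ε f₁ g₁ f₂ g₂ fi₁ gi₁ fi₂ gi₂ h (f₁ x) = g₁ x := by
  have h1 := C.not_ball_f₁ hx
  have h2 : f₁ x ∈ f₁ '' BB := ⟨x, hx, rfl⟩
  simp only [mapT₂, h1, h2, if_true, if_false, C.df₁.left x hx]

omit [BorelSpace E] [FiniteDimensional ℝ E] in
lemma T₂_g₁ {h : E → E} {x : E} (hx : x ∈ BB) :
    mapT₂ ε f₁ g₁ f₂ g₂ fi₁ gi₁ fi₂ gi₂ h (g₁ x) = x := by
  have h1 := C.not_ball_g₁ hx
  have h2 : g₁ x ∈ g₁ '' BB := ⟨x, hx, rfl⟩
  have h3 : g₁ x ∉ f₁ '' BB := fun h => Set.disjoint_left.mp C.disj12 h h2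
  simp only [mapT₂, h1, h2, h3, if_true, if_false, C.dg₁.left x hx]

omit [BorelSpace E] [FiniteDimensional ℝ E] in
lemma T₂_f₂ {h : E → E} {x : E} (hx : x ∈ BB) :
    mapT₂ ε f₁ g₁ f₂ g₂ fi₁ gi₁ fi₂ gi₂ h (f₂ x) = g₂ x := by
  have h1 := C.not_ball_f₂ hx
  have h2 : f₂ x ∈ f₂ '' BB := ⟨x, hx, rfl⟩
  have h3 : f₂ x ∉ f₁ '' BB := fun h => Set.disjoint_left.mp C.disj13 h h2
  have h4 : f₂ x ∉ g₁ '' BB := fun h => Set.disjoint_left.mp C.disj23 h h2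
  simp only [mapT₂, h1, h2, h3, h4, if_true, if_false, C.df₂.left x hx]

omit [BorelSpace E] [FiniteDimensional ℝ E] in
lemma T₂_g₂ {h : E → E} {x : E} (hx : x ∈ BB) :
    mapT₂ ε f₁ g₁ f₂ g₂ fi₁ gi₁ fi₂ gi₂ h (g₂ x) = x := by
  have h1 := C.not_ball_g₂ hx
  have h2 : g₂ x ∈ g₂ '' BB := ⟨x, hx, rfl⟩
  have h3 : g₂ x ∉ f₁ '' BB := fun h => Set.disjoint_left.mp C.disj14 h h2
  have h4 : g₂ x ∉ g₁ '' BB := fun h => Set.disjoint_left.mp C.disj24 h h2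
  have h5 : g₂ x ∉ f₂ '' BB := fun h => Set.disjoint_left.mp C.disj34 h h2
  simp only [mapT₂, h1, h2, h3, h4, h5, if_true, if_false, C.dg₂.left x hx]

omit [BorelSpace E] [FiniteDimensional ℝ E] in
lemma T₃_f₁ {h : E → E} {x : E} (hx : x ∈ BB) :
    mapT₃ ε f₁ g₁ f₂ g₂ fi₁ gi₁ fi₂ gi₂ h (f₁ x) = x := by
  have h1 := C.not_ball_f₁ hx
  have h2 : f₁ x ∈ f₁ '' BB := ⟨x, hx, rfl⟩
  simp only [mapT₃, h1, h2, if_true, if_false, C.df₁.left x hx]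

omit [BorelSpace E] [FiniteDimensional ℝ E] in
lemma T₃_g₁ {h : E → E} {x : E} (hx : x ∈ BB) :
    mapT₃ ε f₁ g₁ f₂ g₂ fi₁ gi₁ fi₂ gi₂ h (g₁ x) = f₁ x := by
  have h1 := C.not_ball_g₁ hx
  have h2 : g₁ x ∈ g₁ '' BB := ⟨x, hx, rfl⟩
  have h3 : g₁ x ∉ f₁ '' BB := fun h => Set.disjoint_left.mp C.disj12 h h2
  simp only [mapT₃, h1, h2, h3, if_true, if_false, C.dg₁.left x hx]

omit [BorelSpace E] [FiniteDimensional ℝ E] in
lemma T₃_f₂ {h : E → E} {x : E} (hx : x ∈ BB) :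
    mapT₃ ε f₁ g₁ f₂ g₂ fi₁ gi₁ fi₂ gi₂ h (f₂ x) = x := by
  have h1 := C.not_ball_f₂ hx
  have h2 : f₂ x ∈ f₂ '' BB := ⟨x, hx, rfl⟩
  have h3 : f₂ x ∉ f₁ '' BB := fun h => Set.disjoint_left.mp C.disj13 h h2
  have h4 : f₂ x ∉ g₁ '' BB := fun h => Set.disjoint_left.mp C.disj23 h h2
  simp only [mapT₃, h1, h2, h3, h4, if_true, if_false, C.df₂.left x hx]

omit [BorelSpace E] [FiniteDimensional ℝ E] in
lemma T₃_g₂ {h : E → E} {x : E} (hx : x ∈ BB) :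
    mapT₃ ε f₁ g₁ f₂ g₂ fi₁ gi₁ fi₂ gi₂ h (g₂ x) = f₂ x := by
  have h1 := C.not_ball_g₂ hx
  have h2 : g₂ x ∈ g₂ '' BB := ⟨x, hx, rfl⟩
  have h3 : g₂ x ∉ f₁ '' BB := fun h => Set.disjoint_left.mp C.disj14 h h2
  have h4 : g₂ x ∉ g₁ '' BB := fun h => Set.disjoint_left.mp C.disj24 h h2
  have h5 : g₂ x ∉ f₂ '' BB := fun h => Set.disjoint_left.mp C.disj34 h h2
  simp only [mapT₃, h1, h2, h3, h4, h5, if_true, if_false, C.dg₂.left x hx]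

omit [BorelSpace E] [FiniteDimensional ℝ E] in
lemma Psi_f₁ {x : E} (hx : x ∈ BB) : mapPsi ε f₁ g₁ f₂ g₂ fi₁ fi₂ (f₁ x) = g₁ x := by
  have h2 : f₁ x ∈ f₁ '' BB := ⟨x, hx, rfl⟩
  simp only [mapPsi, h2, if_true, C.df₁.left x hx]

omit [BorelSpace E] [FiniteDimensional ℝ E] in
lemma Psi_f₂ {x : E} (hx : x ∈ BB) : mapPsi ε f₁ g₁ f₂ g₂ fi₁ fi₂ (f₂ x) = g₂ x := by
  have h2 : f₂ x ∈ f₂ '' BB := ⟨x, hx, rfl⟩
  have h3 : f₂ x ∉ f₁ '' BB := fun h => Set.disjoint_left.mp C.disj13 h h2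
  simp only [mapPsi, h2, h3, if_true, if_false, C.df₂.left x hx]

omit [BorelSpace E] [FiniteDimensional ℝ E] in
lemma Ch_f₁ {x : E} (hx : x ∈ BB) :
    mapCh σ ε f₁ g₁ f₂ g₂ fi₁ fi₂ (f₁ x) = tripleCost σ (x, f₁ x, g₁ x) := by
  have h2 : f₁ x ∈ f₁ '' BB := ⟨x, hx, rfl⟩
  simp only [mapCh, h2, if_true, C.df₁.left x hx]

omit [BorelSpace E] [FiniteDimensional ℝ E] in
lemma Ch_f₂ {x : E} (hx : x ∈ BB) :
    mapCh σ ε f₁ g₁ f₂ g₂ fi₁ fi₂ (f₂ x) = tripleCost σ (x, f₂ x, g₂ x) := by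
  have h2 : f₂ x ∈ f₂ '' BB := ⟨x, hx, rfl⟩
  have h3 : f₂ x ∉ f₁ '' BB := fun h => Set.disjoint_left.mp C.disj13 h h2
  simp only [mapCh, h2, h3, if_true, if_false, C.df₂.left x hx]

omit [FiniteDimensional ℝ E] in
lemma measurable_Psi : Measurable (mapPsi ε f₁ g₁ f₂ g₂ fi₁ fi₂) := by
  classical
  unfold mapPsi
  apply Measurable.ite C.df₁.openV.measurableSet (C.mg₁.comp C.mfi₁)
  apply Measurable.ite C.df₂.openV.measurableSet (C.mg₂.comp C.mfi₂)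
  exact measurable_const

lemma measurable_Ch : Measurable (mapCh σ ε f₁ g₁ f₂ g₂ fi₁ fi₂) := by
  classical
  unfold mapCh
  have hc := measurable_tripleCost (E := E) σ
  apply Measurable.ite C.df₁.openV.measurableSet
    (hc.comp (C.mfi₁.prodMk ((C.mf₁.comp C.mfi₁).prodMk (C.mg₁.comp C.mfi₁))))
  apply Measurable.ite C.df₂.openV.measurableSet
    (hc.comp (C.mfi₂.prodMk ((C.mf₂.comp C.mfi₂).prodMk (C.mg₂.comp C.mfi₂))))
  exact measurable_const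

omit [FiniteDimensional ℝ E] in
lemma measurable_T₂ {h : E → E} (hm : Measurable h) :
    Measurable (mapT₂ ε f₁ g₁ f₂ g₂ fi₁ gi₁ fi₂ gi₂ h) := by
  classical
  unfold mapT₂
  apply Measurable.ite Metric.isOpen_ball.measurableSet hm
  apply Measurable.ite C.df₁.openV.measurableSet (C.mg₁.comp C.mfi₁)
  apply Measurable.ite C.dg₁.openV.measurableSet C.mgi₁
  apply Measurable.ite C.df₂.openV.measurableSet (C.mg₂.comp C.mfi₂)
  apply Measurable.ite C.dg₂.openV.measurableSet C.mgi₂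
  exact measurable_const

omit [FiniteDimensional ℝ E] in
lemma measurable_T₃ {h : E → E} (hm : Measurable h) :
    Measurable (mapT₃ ε f₁ g₁ f₂ g₂ fi₁ gi₁ fi₂ gi₂ h) := by
  classical
  unfold mapT₃
  apply Measurable.ite Metric.isOpen_ball.measurableSet ((measurable_Psi C).comp hm)
  apply Measurable.ite C.df₁.openV.measurableSet C.mfi₁
  apply Measurable.ite C.dg₁.openV.measurableSet (C.mf₁.comp C.mgi₁)
  apply Measurable.ite C.df₂.openV.measurableSet C.mfi₂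
  apply Measurable.ite C.dg₂.openV.measurableSet (C.mf₂.comp C.mgi₂)
  exact measurable_const

variable (ν : Measure E) (hν : ∀ᵐ x ∂ν, x ∈ Metric.ball (0 : E) ε)
include hν

omit C hν in
/-- An a.e. statement for `ν` gives the same for `ν + ν`. -/
lemma ae_two {ν : Measure E} {p : E → Prop} (h : ∀ᵐ x ∂ν, p x) : ∀ᵐ x ∂(ν + ν), p x := by
  rw [ae_iff] at h ⊢
  simp [h]

omit C hν in
/-- An a.e. statement for `ν` gives the same for `ν + ν`. -/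
lemma map_congr_two {ν : Measure E} {a b : E → E} (h : ∀ᵐ x ∂ν, a x = b x) :
    (ν + ν).map a = (ν + ν).map b :=
  Measure.map_congr (ae_two h)

/-- The first map preserves the marginal. -/
lemma map_T₂ {h : E → E} (hm : Measurable h)
    (hmap : (ν + ν).map h = ν.map f₁ + ν.map f₂) :
    (muOf ν f₁ g₁ f₂ g₂).map (mapT₂ ε f₁ g₁ f₂ g₂ fi₁ gi₁ fi₂ gi₂ h) = muOf ν f₁ g₁ f₂ g₂ := by
  set T := mapT₂ ε f₁ g₁ f₂ g₂ fi₁ gi₁ fi₂ gi₂ h with hT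
  have hTm : Measurable T := measurable_T₂ C hm
  have e0 : (ν + ν).map T = ν.map f₁ + ν.map f₂ := by
    rw [← hmap]
    apply map_congr_two
    filter_upwards [hν] with x hx
    exact T₂_ball C hx
  have e1 : (ν.map f₁).map T = ν.map g₁ := by
    rw [Measure.map_map hTm C.mf₁]
    apply Measure.map_congr
    filter_upwards [hν] with x hx
    exact T₂_f₁ C hx
  have e2 : (ν.map g₁).map T = ν := by
    rw [Measure.map_map hTm C.mg₁]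
    have : ν.map (T ∘ g₁) = ν.map id := by
      apply Measure.map_congr
      filter_upwards [hν] with x hx
      exact T₂_g₁ C hx
    rw [this, Measure.map_id]
  have e3 : (ν.map f₂).map T = ν.map g₂ := by
    rw [Measure.map_map hTm C.mf₂]
    apply Measure.map_congr
    filter_upwards [hν] with x hx
    exact T₂_f₂ C hx
  have e4 : (ν.map g₂).map T = ν := by
    rw [Measure.map_map hTm C.mg₂]
    have : ν.map (T ∘ g₂) = ν.map id := by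
      apply Measure.map_congr
      filter_upwards [hν] with x hx
      exact T₂_g₂ C hx
    rw [this, Measure.map_id]
  unfold muOf
  rw [Measure.map_add _ _ hTm, Measure.map_add _ _ hTm, Measure.map_add _ _ hTm,
    Measure.map_add _ _ hTm, e0, e1, e2, e3, e4]
  abel

/-- The second map preserves the marginal. -/
lemma map_T₃ {h : E → E} (hm : Measurable h)
    (hmap : (ν + ν).map h = ν.map f₁ + ν.map f₂) :
    (muOf ν f₁ g₁ f₂ g₂).map (mapT₃ ε f₁ g₁ f₂ g₂ fi₁ gi₁ fi₂ gi₂ h) = muOf ν f₁ g₁ f₂ g₂ := by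
  set T := mapT₃ ε f₁ g₁ f₂ g₂ fi₁ gi₁ fi₂ gi₂ h with hT
  have hTm : Measurable T := measurable_T₃ C hm
  have hPsi := measurable_Psi C
  have e0 : (ν + ν).map T = ν.map g₁ + ν.map g₂ := by
    have s1 : (ν + ν).map T = ((ν + ν).map h).map (mapPsi ε f₁ g₁ f₂ g₂ fi₁ fi₂) := by
      rw [Measure.map_map hPsi hm]
      apply map_congr_two
      filter_upwards [hν] with x hx
      exact T₃_ball C hx
    rw [s1, hmap, Measure.map_add _ _ hPsi, Measure.map_map hPsi C.mf₁,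
      Measure.map_map hPsi C.mf₂]
    congr 1
    · apply Measure.map_congr
      filter_upwards [hν] with x hx
      exact Psi_f₁ C hx
    · apply Measure.map_congr
      filter_upwards [hν] with x hx
      exact Psi_f₂ C hx
  have e1 : (ν.map f₁).map T = ν := by
    rw [Measure.map_map hTm C.mf₁]
    have : ν.map (T ∘ f₁) = ν.map id := by
      apply Measure.map_congr
      filter_upwards [hν] with x hx
      exact T₃_f₁ C hx
    rw [this, Measure.map_id]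
  have e2 : (ν.map g₁).map T = ν.map f₁ := by
    rw [Measure.map_map hTm C.mg₁]
    apply Measure.map_congr
    filter_upwards [hν] with x hx
    exact T₃_g₁ C hx
  have e3 : (ν.map f₂).map T = ν := by
    rw [Measure.map_map hTm C.mf₂]
    have : ν.map (T ∘ f₂) = ν.map id := by
      apply Measure.map_congr
      filter_upwards [hν] with x hx
      exact T₃_f₂ C hx
    rw [this, Measure.map_id]
  have e4 : (ν.map g₂).map T = ν.map f₂ := by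
    rw [Measure.map_map hTm C.mg₂]
    apply Measure.map_congr
    filter_upwards [hν] with x hx
    exact T₃_g₂ C hx
  unfold muOf
  rw [Measure.map_add _ _ hTm, Measure.map_add _ _ hTm, Measure.map_add _ _ hTm,
    Measure.map_add _ _ hTm, e0, e1, e2, e3, e4]
  abel

/-- The cost of the constructed Monge plan. -/
lemma cost_T {h : E → E} (hm : Measurable h)
    (hmap : (ν + ν).map h = ν.map f₁ + ν.map f₂) {τ : ℝ≥0∞}
    (hclose : ∀ᵐ x ∂ν, tripleCost σ (x, mapT₂ ε f₁ g₁ f₂ g₂ fi₁ gi₁ fi₂ gi₂ h x,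
      mapT₃ ε f₁ g₁ f₂ g₂ fi₁ gi₁ fi₂ gi₂ h x) ≤ mapCh σ ε f₁ g₁ f₂ g₂ fi₁ fi₂ (h x) + τ) :
    ∫⁻ x, tripleCost σ (x, mapT₂ ε f₁ g₁ f₂ g₂ fi₁ gi₁ fi₂ gi₂ h x,
      mapT₃ ε f₁ g₁ f₂ g₂ fi₁ gi₁ fi₂ gi₂ h x) ∂(muOf ν f₁ g₁ f₂ g₂)
      ≤ ∫⁻ p, tripleCost σ p ∂(piOf ν f₁ g₁ f₂ g₂) + τ * (ν univ + ν univ) := by
  set T₂ := mapT₂ ε f₁ g₁ f₂ g₂ fi₁ gi₁ fi₂ gi₂ h with hT₂
  set T₃ := mapT₃ ε f₁ g₁ f₂ g₂ fi₁ gi₁ fi₂ gi₂ h with hT₃
  have hT₂m : Measurable T₂ := measurable_T₂ C hm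
  have hT₃m : Measurable T₃ := measurable_T₃ C hm
  have hc := measurable_tripleCost (E := E) σ
  have hFm : Measurable (fun x => tripleCost σ (x, T₂ x, T₃ x)) :=
    hc.comp (measurable_id.prodMk (hT₂m.prodMk hT₃m))
  have hCh := measurable_Ch C (σ := σ)
  -- the terms on the outer lumps
  have t1 : ∫⁻ x, tripleCost σ (f₁ x, T₂ (f₁ x), T₃ (f₁ x)) ∂ν = A1 σ ν f₁ g₁ := by
    apply lintegral_congr_ae
    filter_upwards [hν] with x hx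
    rw [hT₂, hT₃, T₂_f₁ C hx, T₃_f₁ C hx]
    exact tripleCost_rot σ x (f₁ x) (g₁ x)
  have t2 : ∫⁻ x, tripleCost σ (g₁ x, T₂ (g₁ x), T₃ (g₁ x)) ∂ν = A1 σ ν f₁ g₁ := by
    apply lintegral_congr_ae
    filter_upwards [hν] with x hx
    rw [hT₂, hT₃, T₂_g₁ C hx, T₃_g₁ C hx]
    exact (tripleCost_rot σ (g₁ x) x (f₁ x)).symm
  have t3 : ∫⁻ x, tripleCost σ (f₂ x, T₂ (f₂ x), T₃ (f₂ x)) ∂ν = A1 σ ν f₂ g₂ := by
    apply lintegral_congr_ae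
    filter_upwards [hν] with x hx
    rw [hT₂, hT₃, T₂_f₂ C hx, T₃_f₂ C hx]
    exact tripleCost_rot σ x (f₂ x) (g₂ x)
  have t4 : ∫⁻ x, tripleCost σ (g₂ x, T₂ (g₂ x), T₃ (g₂ x)) ∂ν = A1 σ ν f₂ g₂ := by
    apply lintegral_congr_ae
    filter_upwards [hν] with x hx
    rw [hT₂, hT₃, T₂_g₂ C hx, T₃_g₂ C hx]
    exact (tripleCost_rot σ (g₂ x) x (f₂ x)).symm
  -- the central term
  have t0 : ∫⁻ x, tripleCost σ (x, T₂ x, T₃ x) ∂(ν + ν)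
      ≤ A1 σ ν f₁ g₁ + A1 σ ν f₂ g₂ + τ * (ν univ + ν univ) := by
    have s1 : ∫⁻ x, tripleCost σ (x, T₂ x, T₃ x) ∂(ν + ν)
        ≤ ∫⁻ x, mapCh σ ε f₁ g₁ f₂ g₂ fi₁ fi₂ (h x) + τ ∂(ν + ν) := by
      apply lintegral_mono_ae
      exact ae_two hclose
    refine s1.trans (le_of_eq ?_)
    rw [lintegral_add_right _ measurable_const, lintegral_const, ← lintegral_map hCh hm, hmap,
      lintegral_add_measure, lintegral_map hCh C.mf₁, lintegral_map hCh C.mf₂]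
    have c1 : ∫⁻ x, mapCh σ ε f₁ g₁ f₂ g₂ fi₁ fi₂ (f₁ x) ∂ν = A1 σ ν f₁ g₁ := by
      apply lintegral_congr_ae
      filter_upwards [hν] with x hx
      exact Ch_f₁ C hx
    have c2 : ∫⁻ x, mapCh σ ε f₁ g₁ f₂ g₂ fi₁ fi₂ (f₂ x) ∂ν = A1 σ ν f₂ g₂ := by
      apply lintegral_congr_ae
      filter_upwards [hν] with x hx
      exact Ch_f₂ C hx
    rw [c1, c2]
    simp
  rw [lintegral_piOf ν C.mf₁ C.mg₁ C.mf₂ C.mg₂]
  unfold muOf
  simp only [lintegral_add_measure]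
  rw [lintegral_map hFm C.mf₁, lintegral_map hFm C.mg₁, lintegral_map hFm C.mf₂,
    lintegral_map hFm C.mg₂, t1, t2, t3, t4]
  have e : ∫⁻ x, tripleCost σ (x, T₂ x, T₃ x) ∂ν + ∫⁻ x, tripleCost σ (x, T₂ x, T₃ x) ∂ν
      = ∫⁻ x, tripleCost σ (x, T₂ x, T₃ x) ∂(ν + ν) := by
    rw [lintegral_add_measure]
  rw [e]
  calc _ ≤ A1 σ ν f₁ g₁ + A1 σ ν f₂ g₂ + τ * (ν univ + ν univ) + A1 σ ν f₁ g₁ + A1 σ ν f₁ g₁
        + A1 σ ν f₂ g₂ + A1 σ ν f₂ g₂ := by gcongr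
    _ = _ := by abel

end

section final

open Crest.Agent.Lib.OTStab

variable {d : ℕ} {σ ε : ℝ} {f₁ g₁ f₂ g₂ fi₁ gi₁ fi₂ gi₂ : EE d → EE d} {u : EE d → ℝ}
  {K : Set (EE d)}

/-- Monge plans approach the minimal cost. -/
theorem monge_approx (C : Cert σ ε f₁ g₁ f₂ g₂ fi₁ gi₁ fi₂ gi₂ u K) (ν : Measure (EE d))
    [IsFiniteMeasure ν] [NullSingletonClass ν] {Y : Set (EE d)} (hY : IsCompact Y)
    (hYU : Y ⊆ Metric.ball 0 ε) (hνY : ∀ᵐ x ∂ν, x ∈ Y) (hfin : ∫⁻ p, tripleCost σ p ∂(piOf ν f₁ g₁ f₂ g₂) < ⊤)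
    {ε' : ℝ≥0∞} (hε' : 0 < ε') :
    ∃ T₂ T₃ : EE d → EE d, Measurable T₂ ∧ Measurable T₃ ∧
      (muOf ν f₁ g₁ f₂ g₂).map T₂ = muOf ν f₁ g₁ f₂ g₂ ∧
      (muOf ν f₁ g₁ f₂ g₂).map T₃ = muOf ν f₁ g₁ f₂ g₂ ∧
      ∫⁻ x, tripleCost σ (x, T₂ x, T₃ x) ∂(muOf ν f₁ g₁ f₂ g₂)
        < ∫⁻ p, tripleCost σ p ∂(piOf ν f₁ g₁ f₂ g₂) + ε' := by
  have hν : ∀ᵐ x ∂ν, x ∈ Metric.ball (0 : EE d) ε := by
    filter_upwards [hνY] with x hx using hYU hx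
  have hM : ν univ + ν univ ≠ ⊤ := by
    simp [ENNReal.add_eq_top]
  obtain ⟨n, hn0, hn⟩ := ENNReal.exists_nnreal_pos_mul_lt hM hε'.ne'
  have hn0' : (0 : ℝ) < n := by exact_mod_cast hn0
  obtain ⟨δ₀, hδ₀, hcont⟩ := C.cont (n : ℝ) hn0'
  obtain ⟨h, hm, hmap, hclose⟩ := exists_split ν hY hYU hνY C.mf₁ C.mf₂ C.mfi₁ C.mfi₂
    C.df₁.left C.df₂.left C.df₁.right C.df₂.right C.df₁.openV.measurableSet
    C.df₂.openV.measurableSet hδ₀
  refine ⟨_, _, measurable_T₂ C hm, measurable_T₃ C hm, map_T₂ C ν hν hm hmap, map_T₃ C ν hν hm hmap, ?_⟩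
  have hcost := cost_T C ν hν hm hmap (τ := (n : ℝ≥0∞)) (by
    filter_upwards [hν, hclose] with x hx hc
    obtain ⟨w, hw, hd, hor⟩ := hc
    rw [T₂_ball C hx, T₃_ball C hx]
    rcases hor with he | he
    · rw [he, Psi_f₁ C hw, Ch_f₁ C hw]
      have := (hcont x hx w hw hd).1
      simpa using this
    · rw [he, Psi_f₂ C hw, Ch_f₂ C hw]
      have := (hcont x hx w hw hd).2
      simpa using this)
  refine lt_of_le_of_lt hcost ?_
  exact ENNReal.add_lt_add_left hfin.ne hn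

end final

end Crest.Agent.Lib.MultiMarg
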