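/-
S0175 (row 130): the smooth density.
-/
import Crest.Agent.Lib.MultiMarg.Approx

set_option autoImplicit false

open Set Filter Topology MeasureTheory
open scoped ContDiff ENNReal
open Crest.AnalysisR.OT

namespace Crest.Agent.Lib.MultiMarg

open Crest.Agent.Lib.OTStab

variable {d : ℕ}

lemma exists_bump₀ {r : ℝ} (hr0 : 0 < r) :
    ∃ g₀ : EE d → ℝ, ContDiff ℝ ∞ g₀ ∧ (∀ x, 0 ≤ g₀ x) ∧ tsupport g₀ ⊆ Metric.closedBall 0 r ∧
      g₀ 0 = 1 := by
  refine ⟨fun x => Real.smoothTransition (1 - ‖x‖ ^ 2 / r ^ 2), ?_, ?_, ?_, ?_⟩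
  · have h1 : ContDiff ℝ ∞ (fun x : EE d => 1 - ‖x‖ ^ 2 / r ^ 2) :=
      contDiff_const.sub ((contDiff_norm_sq ℝ).div_const _)
    exact Real.smoothTransition.contDiff.comp h1
  · exact fun x => Real.smoothTransition.nonneg _
  · refine closure_minimal ?_ Metric.isClosed_closedBall
    intro x hx
    rw [Metric.mem_closedBall, dist_zero_right]
    by_contra hcon
    have hlt : r < ‖x‖ := not_le.mp hcon
    apply hx
    apply Real.smoothTransition.zero_of_nonpos
    have : r ^ 2 < ‖x‖ ^ 2 := by nlinarith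
    have h2 : 1 ≤ ‖x‖ ^ 2 / r ^ 2 := by
      rw [one_le_div (by positivity)]
      exact this.le
    linarith
  · simp [Real.smoothTransition.one]

/-- A smooth nonnegative bump with compact support in the ball and `∫ g² = 1/6`. -/
lemma exists_bump {ε : ℝ} (hε : 0 < ε) :
    ∃ g : EE d → ℝ, ContDiff ℝ ∞ g ∧ (∀ x, 0 ≤ g x) ∧ HasCompactSupport g ∧
      tsupport g ⊆ Metric.ball 0 ε ∧ ∫ x, g x ^ 2 = 1 / 6 := by
  have hr0 : 0 < ε / 2 := by positivity
  obtain ⟨g₀, hg₀s, hg₀0, hts, h00⟩ := exists_bump₀ (d := d) hr0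
  have hcomp : HasCompactSupport g₀ :=
    (isCompact_closedBall 0 (ε / 2)).of_isClosed_subset (isClosed_tsupport _) hts
  have hsq_cont : Continuous (fun x => g₀ x ^ 2) := (hg₀s.continuous).pow 2
  have hsq_comp : HasCompactSupport (fun x => g₀ x ^ 2) := by
    have : (fun x => g₀ x ^ 2) = fun x => g₀ x * g₀ x := by
      ext x; ring
    rw [this]
    exact hcomp.mul_left
  have hI : 0 < ∫ x, g₀ x ^ 2 := by
    apply hsq_cont.integral_pos_of_hasCompactSupport_nonneg_nonzero (x := (0 : EE d)) hsq_comp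
    · intro x
      positivity
    · rw [h00]
      norm_num
  obtain ⟨I, hIdef⟩ : ∃ I, I = ∫ x, g₀ x ^ 2 := ⟨_, rfl⟩
  rw [← hIdef] at hI
  obtain ⟨a, ha0, ha2⟩ : ∃ a : ℝ, 0 ≤ a ∧ a ^ 2 = 1 / (6 * I) :=
    ⟨Real.sqrt (1 / (6 * I)), Real.sqrt_nonneg _, Real.sq_sqrt (by positivity)⟩
  refine ⟨fun x => a * g₀ x, contDiff_const.mul hg₀s, fun x => mul_nonneg ha0 (hg₀0 x),
    hcomp.mul_left, ?_, ?_⟩
  · refine (tsupport_mul_subset_right).trans (hts.trans ?_)
    exact Metric.closedBall_subset_ball (by linarith)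
  · have : ∀ x, (a * g₀ x) ^ 2 = a ^ 2 * g₀ x ^ 2 := fun x => by ring
    simp_rw [this]
    rw [integral_const_mul, ha2, ← hIdef]
    field_simp

section

variable {σ ε : ℝ} {f₁ g₁ f₂ g₂ fi₁ gi₁ fi₂ gi₂ : EE d → EE d} {u : EE d → ℝ} {K : Set (EE d)}

/-- Main assembly of the density from a certificate. -/
theorem exists_density [NeZero d] (C : Cert σ ε f₁ g₁ f₂ g₂ fi₁ gi₁ fi₂ gi₂ u K) :
    ∃ (ρ : EE d → ℝ) (ν : Measure (EE d)) (Y : Set (EE d)),
      (∀ x, 0 ≤ ρ x) ∧ ContDiff ℝ ∞ ρ ∧ HasCompactSupport ρ ∧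
      ContDiff ℝ ∞ (fun x => Real.sqrt (ρ x)) ∧ ∫ x, ρ x = 1 ∧
      measOfDensity ρ = muOf ν f₁ g₁ f₂ g₂ ∧ IsFiniteMeasure ν ∧ NullSingletonClass ν ∧ ν ≠ 0 ∧
      IsCompact Y ∧ Y ⊆ Metric.ball 0 ε ∧ (∀ᵐ x ∂ν, x ∈ Y) := by
  classical
  obtain ⟨g, hgs, hg0, hgc, hgU, hgI⟩ := exists_bump (d := d) C.hε
  obtain ⟨r₁, hr₁s, hr₁0, hr₁c, hr₁t, hr₁⟩ :=
    exists_push volume C.df₁ C.mf₁ hgs hg0 hgc hgU
  obtain ⟨r₂, hr₂s, hr₂0, hr₂c, hr₂t, hr₂⟩ :=
    exists_push volume C.dg₁ C.mg₁ hgs hg0 hgc hgU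
  obtain ⟨r₃, hr₃s, hr₃0, hr₃c, hr₃t, hr₃⟩ :=
    exists_push volume C.df₂ C.mf₂ hgs hg0 hgc hgU
  obtain ⟨r₄, hr₄s, hr₄0, hr₄c, hr₄t, hr₄⟩ :=
    exists_push volume C.dg₂ C.mg₂ hgs hg0 hgc hgU
  let ν : Measure (EE d) := volume.withDensity (fun x => ENNReal.ofReal (g x ^ 2))
  -- the root of the density
  let F : EE d → ℝ := fun x => Real.sqrt 2 * g x + r₁ x + r₂ x + r₃ x + r₄ x
  have hFs : ContDiff ℝ ∞ F :=
    (((contDiff_const.mul hgs).add hr₁s).add hr₂s |>.add hr₃s).add hr₄s
  have hF0 : ∀ x, 0 ≤ F x := by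
    intro x
    have := Real.sqrt_nonneg 2
    have := mul_nonneg this (hg0 x)
    have := hr₁0 x
    have := hr₂0 x
    have := hr₃0 x
    have := hr₄0 x
    simp only [F]
    linarith
  have hFc : HasCompactSupport F :=
    ((((hgc.mul_left (f := fun _ => Real.sqrt 2)).add hr₁c).add hr₂c).add hr₃c).add hr₄c
  -- products vanish by disjointness of the supports
  have zero_of : ∀ {a b : EE d → ℝ} {A B : Set (EE d)}, tsupport a ⊆ A → tsupport b ⊆ B →
      Disjoint A B → ∀ x, a x * b x = 0 := by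
    intro a b A B ha hb hAB x
    by_contra hne
    have h1 : a x ≠ 0 := left_ne_zero_of_mul hne
    have h2 : b x ≠ 0 := right_ne_zero_of_mul hne
    exact Set.disjoint_left.mp hAB (ha (subset_tsupport _ h1)) (hb (subset_tsupport _ h2))
  have z01 := zero_of hgU hr₁t C.disj01
  have z02 := zero_of hgU hr₂t C.disj02
  have z03 := zero_of hgU hr₃t C.disj03
  have z04 := zero_of hgU hr₄t C.disj04
  have z12 := zero_of hr₁t hr₂t C.disj12
  have z13 := zero_of hr₁t hr₃t C.disj13
  have z14 := zero_of hr₁t hr₄t C.disj14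
  have z23 := zero_of hr₂t hr₃t C.disj23
  have z24 := zero_of hr₂t hr₄t C.disj24
  have z34 := zero_of hr₃t hr₄t C.disj34
  have hs2 : Real.sqrt 2 ^ 2 = 2 := Real.sq_sqrt (by norm_num)
  have hexp : ∀ x, F x ^ 2 = g x ^ 2 + g x ^ 2 + r₁ x ^ 2 + r₂ x ^ 2 + r₃ x ^ 2 + r₄ x ^ 2 := by
    intro x
    simp only [F]
    linear_combination (g x ^ 2) * hs2 + (2 * Real.sqrt 2) * z01 x + (2 * Real.sqrt 2) * z02 x
      + (2 * Real.sqrt 2) * z03 x + (2 * Real.sqrt 2) * z04 x + 2 * z12 x + 2 * z13 x + 2 * z14 x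
      + 2 * z23 x + 2 * z24 x + 2 * z34 x
  have hmes : ∀ {a : EE d → ℝ}, ContDiff ℝ ∞ a → Measurable (fun x => ENNReal.ofReal (a x ^ 2)) :=
    fun ha => ENNReal.measurable_ofReal.comp ((ha.continuous.pow 2).measurable)
  have hμ : measOfDensity (fun x => F x ^ 2) = muOf ν f₁ g₁ f₂ g₂ := by
    unfold measOfDensity muOf
    rw [← hr₁, ← hr₂, ← hr₃, ← hr₄]
    have hfun : (fun x => ENNReal.ofReal (F x ^ 2)) =
        (fun x => ENNReal.ofReal (g x ^ 2)) + (fun x => ENNReal.ofReal (g x ^ 2))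
        + (fun x => ENNReal.ofReal (r₁ x ^ 2)) + (fun x => ENNReal.ofReal (r₂ x ^ 2))
        + (fun x => ENNReal.ofReal (r₃ x ^ 2)) + (fun x => ENNReal.ofReal (r₄ x ^ 2)) := by
      ext x
      simp only [Pi.add_apply]
      rw [hexp x, ENNReal.ofReal_add (by positivity) (by positivity),
        ENNReal.ofReal_add (by positivity) (by positivity),
        ENNReal.ofReal_add (by positivity) (by positivity),
        ENNReal.ofReal_add (by positivity) (by positivity),
        ENNReal.ofReal_add (by positivity) (by positivity)]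
    rw [hfun]
    have m0 := hmes hgs
    have m1 := hmes hr₁s
    have m2 := hmes hr₂s
    have m3 := hmes hr₃s
    rw [withDensity_add_left (((((m0.add m0).add m1).add m2).add m3)),
      withDensity_add_left (((m0.add m0).add m1).add m2),
      withDensity_add_left ((m0.add m0).add m1),
      withDensity_add_left (m0.add m0),
      withDensity_add_left m0]
  -- mass
  have hgint : Integrable (fun x => g x ^ 2) := by
    have hc : HasCompactSupport (fun x => g x ^ 2) := by
      have : (fun x => g x ^ 2) = fun x => g x * g x := by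
        ext x; ring
      rw [this]
      exact hgc.mul_left
    exact Continuous.integrable_of_hasCompactSupport (f := fun x => g x ^ 2) (hgs.continuous.pow 2) hc
  have hνuniv : ν univ = ENNReal.ofReal (1 / 6) := by
    simp only [ν]
    rw [withDensity_apply _ MeasurableSet.univ, Measure.restrict_univ, ← hgI]
    exact (ofReal_integral_eq_lintegral_ofReal hgint (Eventually.of_forall fun x => by positivity)).symm
  have hνfin : IsFiniteMeasure ν := ⟨by rw [hνuniv]; exact ENNReal.ofReal_lt_top⟩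
  have hmass : muOf ν f₁ g₁ f₂ g₂ univ = 1 := by
    rw [muOf_apply ν C.mf₁ C.mg₁ C.mf₂ C.mg₂ MeasurableSet.univ]
    simp only [preimage_univ]
    rw [hνuniv]
    have e : ENNReal.ofReal (1 / 6) + ENNReal.ofReal (1 / 6) + ENNReal.ofReal (1 / 6)
        + ENNReal.ofReal (1 / 6) + ENNReal.ofReal (1 / 6) + ENNReal.ofReal (1 / 6)
        = ENNReal.ofReal (1 / 6 + 1 / 6 + 1 / 6 + 1 / 6 + 1 / 6 + 1 / 6) := by
      rw [ENNReal.ofReal_add (by positivity) (by positivity),
        ENNReal.ofReal_add (by positivity) (by positivity),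
        ENNReal.ofReal_add (by positivity) (by positivity),
        ENNReal.ofReal_add (by positivity) (by positivity),
        ENNReal.ofReal_add (by positivity) (by positivity)]
    rw [e]
    norm_num
  refine ⟨fun x => F x ^ 2, ν, tsupport g, fun x => by positivity, hFs.pow 2, ?_, ?_, ?_, hμ,
    hνfin, ?_, ?_, hgc, hgU, ?_⟩
  · have : (fun x => F x ^ 2) = fun x => F x * F x := by
      ext x; ring
    rw [this]
    exact hFc.mul_left
  · have : (fun x => Real.sqrt (F x ^ 2)) = F := by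
      ext x
      exact Real.sqrt_sq (hF0 x)
    rw [this]
    exact hFs
  · -- the integral
    rw [integral_eq_lintegral_of_nonneg_ae (Eventually.of_forall fun x => by positivity)
      ((hFs.pow 2).continuous.aestronglyMeasurable)]
    have : ∫⁻ a, ENNReal.ofReal (F a ^ 2) = measOfDensity (fun x => F x ^ 2) univ := by
      unfold measOfDensity
      rw [withDensity_apply _ MeasurableSet.univ, Measure.restrict_univ]
    rw [this, hμ, hmass]
    simp
  · -- no atoms
    constructor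
    intro x
    simp only [ν]
    rw [withDensity_apply _ (measurableSet_singleton x)]
    have : volume.restrict {x} = 0 := by
      rw [Measure.restrict_eq_zero]
      exact measure_singleton x
    rw [this, lintegral_zero_measure]
  · -- nonzero
    intro h0
    rw [h0] at hνuniv
    have h : 0 < ENNReal.ofReal (1 / 6) := ENNReal.ofReal_pos.mpr (by norm_num)
    rw [← hνuniv] at h
    simp at h
  · -- concentration
    have hmeas : MeasurableSet (tsupport g)ᶜ := (isClosed_tsupport g).isOpen_compl.measurableSet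
    have : ν (tsupport g)ᶜ = 0 := by
      simp only [ν]
      rw [withDensity_apply _ hmeas, setLIntegral_congr_fun (g := fun _ => 0) hmeas]
      · simp
      · intro x hx
        have : g x = 0 := image_eq_zero_of_notMem_tsupport hx
        simp [this]
    exact this

end

end Crest.Agent.Lib.MultiMarg
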